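import Crest.Agent.R155.RepDefs

/-!
# Row 155: the error terms tend to zero
-/

set_option autoImplicit false

open Finset Filter
open scoped BigOperators Topology

namespace Crest.Agent.R155

/-- number of tracked cards used for level `j` -/
def iF (n j : ℕ) : ℕ := if 8 * j < n then Nat.sqrt (n * j) else 5 * n / 8

/-- bound for the trace on `i`-tuples -/
noncomputable def PhiF (n i : ℕ) : ℝ :=
  (n.factorial : ℝ) / ((n - i).factorial * (n : ℝ) ^ i) *
    Real.exp (6 / 5 * ((i : ℝ) / n) ^ 2 * n)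

/-- bound for the full trace -/
noncomputable def qF (n : ℕ) : ℝ := (n.factorial : ℝ) / (n : ℝ) ^ n * Real.exp (159 / 100 * n)

noncomputable def errI (n : ℕ) : ℝ :=
  ∑ j ∈ Icc 1 (n / 2), (n.choose j : ℝ) *
    (((j : ℝ) + 1) * PhiF n (iF n j) / ((iF n j).choose j : ℝ)) ^ 11

noncomputable def errII (n : ℕ) : ℝ := qF n * (qF n / bigD n) ^ 7

theorem iF_bounds {n j : ℕ} (hj : 2 * j ≤ n) : j ≤ iF n j ∧ iF n j ≤ n := by
  unfold iF
  split_ifs with h
  · refine ⟨Nat.le_sqrt.2 (Nat.mul_le_mul_right _ (by omega)), ?_⟩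
    calc Nat.sqrt (n * j) ≤ Nat.sqrt (n * n) :=
          Nat.sqrt_le_sqrt (Nat.mul_le_mul_left _ (by omega))
      _ = n := Nat.sqrt_eq n
  · omega

theorem iF_sq_le {n : ℕ} (j : ℕ) : ((iF n j : ℝ) / n) ^ 2 ≤ 25 / 64 := by
  rcases Nat.eq_zero_or_pos n with rfl | hn
  · simp; norm_num
  have hn' : (0 : ℝ) < n := by exact_mod_cast hn
  rw [div_pow, div_le_iff₀ (by positivity)]
  unfold iF
  split_ifs with h
  · have h1 : ((Nat.sqrt (n * j) : ℕ) : ℝ) ^ 2 ≤ n * j := by exact_mod_cast Nat.sqrt_le' (n * j)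
    have h2 : 8 * (j : ℝ) ≤ n := by exact_mod_cast h.le
    nlinarith
  · have h1 : 8 * ((5 * n / 8 : ℕ) : ℝ) ≤ 5 * n := by
      exact_mod_cast (by omega : 8 * (5 * n / 8) ≤ 5 * n)
    have h2 : (0 : ℝ) ≤ ((5 * n / 8 : ℕ) : ℝ) := Nat.cast_nonneg _
    nlinarith

lemma asy_exp_one_le : Real.exp 1 ≤ 2.72 := Real.exp_one_lt_d9.le.trans (by norm_num)

lemma asy_fac_lo (s : ℕ) : ((s : ℝ) / Real.exp 1) ^ s ≤ s.factorial := by
  have h := Real.pow_div_factorial_le_exp (s : ℝ) (Nat.cast_nonneg s) s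
  have h1 : (0 : ℝ) < s.factorial := by exact_mod_cast s.factorial_pos
  rw [div_le_iff₀ h1] at h
  rw [div_pow, Real.exp_one_pow, div_le_iff₀ (Real.exp_pos _), mul_comm]
  exact h

lemma asy_fac_hi {s : ℕ} (hs : 1 ≤ s) :
    (s.factorial : ℝ) ≤ 3 * s * ((s : ℝ) / Real.exp 1) ^ s := by
  obtain ⟨m, rfl⟩ : ∃ m, s = m + 1 := ⟨s - 1, by omega⟩
  have h := Stirling.stirlingSeq'_antitone (Nat.zero_le m)
  simp only [Function.comp, Nat.succ_eq_add_one, zero_add, Stirling.stirlingSeq_one] at h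
  rw [Stirling.stirlingSeq] at h
  set s : ℕ := m + 1
  have hs' : (1 : ℝ) ≤ s := by exact_mod_cast hs
  have hp : 0 < ((s : ℝ) / Real.exp 1) ^ s := by positivity
  rw [div_le_iff₀ (by positivity)] at h
  refine h.trans ?_
  rw [← mul_assoc]
  refine mul_le_mul_of_nonneg_right ?_ hp.le
  rw [Real.sqrt_mul (by norm_num), ← mul_assoc, div_mul_cancel₀ _ (by positivity)]
  have h1 : √(s : ℝ) ≤ s := Real.sqrt_le_iff.2 ⟨by positivity, by nlinarith⟩
  have h2 : Real.exp 1 ≤ 3 := asy_exp_one_le.trans (by norm_num)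
  exact mul_le_mul h2 h1 (Real.sqrt_nonneg _) (by norm_num)

lemma asy_pow_mul (k N : ℕ) : (((k * N : ℕ) : ℝ) / Real.exp 1) ^ (k * N) =
    ((k : ℝ) ^ k) ^ N * (((N : ℝ) / Real.exp 1) ^ N) ^ k := by
  push_cast
  rw [mul_div_assoc, mul_pow, ← pow_mul, ← pow_mul, mul_comm N k]

lemma asy_choose_mono {n a b : ℕ} (hab : a ≤ b) (hb : b ≤ n / 2) : n.choose a ≤ n.choose b := by
  induction b, hab using Nat.le_induction with
  | base => exact le_rfl
  | succ b _ ih => exact (ih (by omega)).trans (Nat.choose_le_succ_of_lt_half_left (by omega))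

lemma asy_choose_ge {n a j : ℕ} (h1 : a ≤ j) (h2 : j + a ≤ n) : n.choose a ≤ n.choose j := by
  by_cases h : j ≤ n / 2
  · exact asy_choose_mono h1 h
  · rw [← Nat.choose_symm (by omega : j ≤ n)]
    exact asy_choose_mono (by omega) (by omega)

lemma asy_PhiF_nonneg (n i : ℕ) : 0 ≤ PhiF n i := by
  unfold PhiF
  positivity

lemma asy_big_delta {N : ℕ} (hN : 1 ≤ N) :
    PhiF (8 * N) (5 * N) / ((5 * N).choose N : ℝ) ≤ 864 * (N : ℝ) ^ 3 * (0.52 : ℝ) ^ N := by
  have hN' : (0 : ℝ) < N := by exact_mod_cast hN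
  set u : ℝ := ((N : ℝ) / Real.exp 1) ^ N with hu
  have hu0 : 0 < u := by positivity
  have h8 := asy_fac_hi (s := 8 * N) (by omega)
  have h1 := asy_fac_hi hN
  have h4 := asy_fac_hi (s := 4 * N) (by omega)
  have h3 := asy_fac_lo (3 * N)
  have h5 := asy_fac_lo (5 * N)
  rw [asy_pow_mul, ← hu] at h8 h4 h3 h5
  rw [← hu] at h1
  have hc : ((5 * N).choose N : ℝ) =
      (5 * N).factorial / (N.factorial * (4 * N).factorial) := by
    rw [Nat.cast_choose ℝ (by omega : N ≤ 5 * N), show 5 * N - N = 4 * N by omega]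
  have hp : (((8 * N : ℕ) : ℝ)) ^ (5 * N) = (8 ^ 5 * Real.exp 5) ^ N * u ^ 5 := by
    have e5 : Real.exp 5 = Real.exp 1 ^ 5 := by rw [Real.exp_one_pow]; norm_num
    rw [hu, ← pow_mul, mul_comm N 5, pow_mul, pow_mul, ← mul_pow, e5]
    congr 1
    push_cast
    field_simp
  have he : Real.exp (6 / 5 * (((5 * N : ℕ) : ℝ) / ((8 * N : ℕ) : ℝ)) ^ 2 * ((8 * N : ℕ) : ℝ)) =
      Real.exp (15 / 4) ^ N := by
    rw [← Real.exp_nat_mul]
    congr 1
    push_cast
    field_simp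
    norm_num
  have hb : (8 ^ 8 * 4 ^ 4 * Real.exp (15 / 4) : ℝ) ≤
      0.52 * (3 ^ 3 * 5 ^ 5 * (8 ^ 5 * Real.exp 5)) := by
    have e1 : Real.exp 5 = Real.exp (15 / 4) * Real.exp (5 / 4) := by
      rw [← Real.exp_add]; norm_num
    have e2 := Real.quadratic_le_exp_of_nonneg (x := 5 / 4) (by norm_num)
    have e3 := Real.exp_pos (15 / 4)
    rw [e1]
    nlinarith
  have hb' := pow_le_pow_left₀ (by positivity) hb N
  simp only [mul_pow _ _ N] at hb' hp
  rw [PhiF, hc, show 8 * N - 5 * N = 3 * N by omega, hp, he]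
  push_cast at h8 h4 h3 h5
  have f1 : (0 : ℝ) < N.factorial := by exact_mod_cast N.factorial_pos
  have f4 : (0 : ℝ) < (4 * N).factorial := by exact_mod_cast (4 * N).factorial_pos
  have f8 : (0 : ℝ) < (8 * N).factorial := by exact_mod_cast (8 * N).factorial_pos
  set a8 : ℝ := ((8 : ℝ) ^ 8) ^ N
  set a4 : ℝ := ((4 : ℝ) ^ 4) ^ N
  set a3 : ℝ := ((3 : ℝ) ^ 3) ^ N
  set a5 : ℝ := ((5 : ℝ) ^ 5) ^ N
  set b5 : ℝ := ((8 : ℝ) ^ 5) ^ N
  set c5 : ℝ := Real.exp 5 ^ N
  set c4 : ℝ := Real.exp (15 / 4) ^ N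
  have p8 : 0 < a8 := by positivity
  have p4 : 0 < a4 := by positivity
  have p3 : 0 < a3 := by positivity
  have p5 : 0 < a5 := by positivity
  have q5 : 0 < b5 := by positivity
  have r5 : 0 < c5 := by positivity
  have r4 : 0 < c4 := by positivity
  calc ((8 * N).factorial : ℝ) / ((3 * N).factorial * (b5 * c5 * u ^ 5)) * c4 /
        ((5 * N).factorial / (N.factorial * (4 * N).factorial))
      = (8 * N).factorial * N.factorial * (4 * N).factorial * c4 /
          ((3 * N).factorial * (5 * N).factorial * (b5 * c5 * u ^ 5)) := by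
        field_simp
    _ ≤ (3 * (8 * N) * (a8 * u ^ 8)) * (3 * N * u) * (3 * (4 * N) * (a4 * u ^ 4)) * c4 /
          ((a3 * u ^ 3) * (a5 * u ^ 5) * (b5 * c5 * u ^ 5)) := by
        gcongr
    _ = 864 * (N : ℝ) ^ 3 * ((a8 * a4 * c4) / (a3 * a5 * (b5 * c5))) := by
        field_simp
        norm_num
    _ ≤ 864 * (N : ℝ) ^ 3 * (0.52 : ℝ) ^ N := by
        gcongr
        rw [div_le_iff₀ (by positivity)]
        exact hb'

lemma asy_big {N j : ℕ} (hN : 1 ≤ N) (h1 : N ≤ j) (h2 : j ≤ 4 * N) :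
    ((8 * N).choose j : ℝ) *
      (((j : ℝ) + 1) * PhiF (8 * N) (iF (8 * N) j) / ((iF (8 * N) j).choose j : ℝ)) ^ 11 ≤
      4320 ^ 11 * ((N : ℝ) ^ 44 * (256 * 0.52 ^ 11 : ℝ) ^ N) := by
  have hi : iF (8 * N) j = 5 * N := by
    rw [iF, if_neg (by omega)]
    omega
  have hN' : (1 : ℝ) ≤ N := by exact_mod_cast hN
  have hj : (j : ℝ) + 1 ≤ 5 * N := by
    exact_mod_cast (by omega : j + 1 ≤ 5 * N)
  have hc : (((8 * N).choose j : ℕ) : ℝ) ≤ 256 ^ N := by
    have := Nat.choose_le_two_pow (8 * N) j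
    rw [pow_mul] at this
    exact_mod_cast this
  have hc0 : (0 : ℝ) < (5 * N).choose N := by exact_mod_cast Nat.choose_pos (by omega)
  have hc2 : (((5 * N).choose N : ℕ) : ℝ) ≤ (5 * N).choose j := by
    exact_mod_cast asy_choose_ge h1 (by omega)
  have hP := asy_PhiF_nonneg (8 * N) (5 * N)
  have hd := asy_big_delta hN
  rw [hi]
  calc ((8 * N).choose j : ℝ) *
        (((j : ℝ) + 1) * PhiF (8 * N) (5 * N) / ((5 * N).choose j : ℝ)) ^ 11
      ≤ 256 ^ N * ((5 * N) * PhiF (8 * N) (5 * N) / ((5 * N).choose N : ℝ)) ^ 11 := by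
        gcongr
    _ ≤ 256 ^ N * ((5 * N) * (864 * (N : ℝ) ^ 3 * (0.52 : ℝ) ^ N)) ^ 11 := by
        rw [mul_div_assoc]
        gcongr
    _ = 4320 ^ 11 * ((N : ℝ) ^ 44 * (256 * 0.52 ^ 11 : ℝ) ^ N) := by
        rw [mul_pow (256 : ℝ), ← pow_mul (0.52 : ℝ) 11 N, mul_comm 11 N, pow_mul]
        generalize (0.52 : ℝ) ^ N = x
        ring

lemma asy_PhiF_le {n i : ℕ} (hn : 0 < n) (hi : i ≤ n) :
    PhiF n i ≤ Real.exp (6 / 5 * ((i : ℝ) / n) ^ 2 * n) := by
  have hn' : (0 : ℝ) < n := by exact_mod_cast hn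
  have h1 : (n.factorial : ℝ) ≤ (n - i).factorial * (n : ℝ) ^ i := by
    have := Nat.factorial_mul_descFactorial hi
    rw [← this]
    exact_mod_cast Nat.mul_le_mul_left _ (Nat.descFactorial_le_pow n i)
  have h2 : (0 : ℝ) < (n - i).factorial := by exact_mod_cast (n - i).factorial_pos
  rw [PhiF]
  exact mul_le_of_le_one_left (Real.exp_pos _).le ((div_le_one (by positivity)).2 h1)

lemma asy_small {N j : ℕ} (h1 : 1 ≤ j) (h2 : j < N) :
    ((8 * N).choose j : ℝ) *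
      (((j : ℝ) + 1) * PhiF (8 * N) (iF (8 * N) j) / ((iF (8 * N) j).choose j : ℝ)) ^ 11 ≤
      6 ^ 11 * ((j : ℝ) ^ 23 * (1 / 2 : ℝ) ^ j) / N := by
  have hb := iF_bounds (n := 8 * N) (j := j) (by omega)
  have hi : iF (8 * N) j = Nat.sqrt (8 * N * j) := if_pos (by omega)
  set i := iF (8 * N) j
  set n := 8 * N with hn
  have hj : (1 : ℝ) ≤ j := by exact_mod_cast h1
  have hjN : (j : ℝ) ≤ N := by exact_mod_cast h2.le
  have hnN : (n : ℝ) = 8 * N := by rw [hn]; push_cast; ring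
  have hn0 : (0 : ℝ) < n := by rw [hnN]; linarith
  have hi1 : (i : ℝ) ^ 2 ≤ n * j := by rw [hi]; exact_mod_cast Nat.sqrt_le' (n * j)
  have hi2 : (n : ℝ) * j ≤ ((i : ℝ) + 1) ^ 2 := by
    rw [hi]; exact_mod_cast (Nat.lt_succ_sqrt' (n * j)).le
  set s : ℝ := √(n / j) with hs
  have hs2 : s ^ 2 = n / j := Real.sq_sqrt (by positivity)
  have hs8 : 8 ≤ s ^ 2 := by
    rw [hs2, le_div_iff₀ (by positivity), hnN]; linarith
  have hs0 : 0 ≤ s := Real.sqrt_nonneg _
  have hs3 : 2.8 ≤ s := by nlinarith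
  have hjs : j * s ≤ i + 1 := by
    refine (sq_le_sq₀ (by positivity) (by positivity)).1 (le_trans (le_of_eq ?_) hi2)
    rw [mul_pow, hs2]
    field_simp
  have he := Real.exp_pos 1
  have he1 := asy_exp_one_le
  -- the trace bound
  have hP : PhiF n i ≤ (5 / 4 * Real.exp 1) ^ j := by
    refine (asy_PhiF_le (by omega) hb.2).trans ?_
    have e1 : Real.exp (6 / 5) ≤ 5 / 4 * Real.exp 1 := by
      have e2 : Real.exp 1 = Real.exp (6 / 5) * Real.exp (-(1 / 5)) := by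
        rw [← Real.exp_add]; norm_num
      have e3 := Real.add_one_le_exp (-(1 / 5))
      have e4 := Real.exp_pos (6 / 5)
      rw [e2]
      nlinarith
    refine le_trans ?_ (pow_le_pow_left₀ (Real.exp_pos _).le e1 j)
    rw [← Real.exp_nat_mul]
    refine Real.exp_le_exp.2 ?_
    have e5 : 6 / 5 * ((i : ℝ) / n) ^ 2 * n = 6 / 5 * ((i : ℝ) ^ 2 / n) := by field_simp
    have e6 : (i : ℝ) ^ 2 / n ≤ j := by rw [div_le_iff₀ hn0]; linarith
    rw [e5]
    linarith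
  -- the lower binomial
  have hlo : (5 / 8 * Real.exp 1 * s) ^ j / (3 * j) ≤ (i.choose j : ℝ) := by
    refine le_trans ?_ (Nat.pow_le_choose j i)
    have e1 : 5 / 8 * (j * s) ≤ ((i + 1 - j : ℕ) : ℝ) := by
      rw [Nat.cast_sub (by omega)]
      push_cast
      nlinarith
    have f1 : (0 : ℝ) < j.factorial := by exact_mod_cast j.factorial_pos
    calc (5 / 8 * Real.exp 1 * s) ^ j / (3 * j)
        = (5 / 8 * (j * s)) ^ j / (3 * j * ((j : ℝ) / Real.exp 1) ^ j) := by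
          rw [mul_comm (3 * (j : ℝ)) (_ ^ j), ← div_div ((5 / 8 * ((j : ℝ) * s)) ^ j), ← div_pow]
          congr 2
          field_simp
      _ ≤ _ := by
          gcongr
          exact asy_fac_hi h1
  -- the upper binomial
  have hhi : (n.choose j : ℝ) ≤ (Real.exp 1 * s ^ 2) ^ j := by
    refine (Nat.choose_le_pow_div j n).trans ?_
    calc (n : ℝ) ^ j / j.factorial ≤ (n : ℝ) ^ j / ((j : ℝ) / Real.exp 1) ^ j := by
          gcongr
          exact asy_fac_lo j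
      _ = _ := by
          rw [← div_pow, hs2]
          congr 1
          field_simp
  have hsp : 0 < s := by linarith
  have hP0 := asy_PhiF_nonneg n i
  have hd : ((j : ℝ) + 1) * PhiF n i / (i.choose j : ℝ) ≤ 6 * (j : ℝ) ^ 2 * (2 / s) ^ j := by
    calc ((j : ℝ) + 1) * PhiF n i / (i.choose j : ℝ)
        ≤ (2 * j) * (5 / 4 * Real.exp 1) ^ j / ((5 / 8 * Real.exp 1 * s) ^ j / (3 * j)) := by
          gcongr
          linarith
      _ = 6 * (j : ℝ) ^ 2 * ((5 / 4 * Real.exp 1) ^ j / (5 / 8 * Real.exp 1 * s) ^ j) := by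
          field_simp
          norm_num
      _ = _ := by
          rw [← div_pow]
          congr 2
          field_simp
          norm_num
  have hb4 : Real.exp 1 * s ^ 2 * (2 / s) ^ 11 ≤ j / (2 * N) := by
    have e1 : (j : ℝ) / (2 * N) = 4 / s ^ 2 := by
      rw [hs2, hnN]
      field_simp
      norm_num
    have e2 : Real.exp 1 * s ^ 2 * (2 / s) ^ 11 = (2048 * Real.exp 1 / s ^ 7) / s ^ 2 := by
      field_simp
      norm_num
    rw [e1, e2]
    gcongr
    rw [div_le_iff₀ (by positivity)]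
    have e3 : (8 : ℝ) ^ 3 ≤ (s ^ 2) ^ 3 := pow_le_pow_left₀ (by norm_num) hs8 3
    have e4 : s ^ 7 = (s ^ 2) ^ 3 * s := by ring
    rw [e4]
    nlinarith
  have hN0 : (0 : ℝ) < N := by linarith
  have hhalf : (j : ℝ) / (2 * N) ≤ 1 / 2 := by
    rw [div_le_iff₀ (by positivity)]; linarith
  have hpow : ((j : ℝ) / (2 * N)) ^ j ≤ j / N * (1 / 2 : ℝ) ^ j := by
    obtain ⟨m, hm⟩ : ∃ m, j = m + 1 := ⟨j - 1, by omega⟩
    have e1 := pow_le_pow_left₀ (by positivity) hhalf m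
    calc ((j : ℝ) / (2 * N)) ^ j = ((j : ℝ) / (2 * N)) ^ m * (j / (2 * N)) := by
          rw [← pow_succ, ← hm]
      _ ≤ (1 / 2 : ℝ) ^ m * (j / (2 * N)) := by gcongr
      _ = j / N * ((1 / 2 : ℝ) ^ m * (1 / 2)) := by field_simp
      _ = _ := by rw [← pow_succ, ← hm]
  calc (n.choose j : ℝ) * (((j : ℝ) + 1) * PhiF n i / (i.choose j : ℝ)) ^ 11
      ≤ (Real.exp 1 * s ^ 2) ^ j * (6 * (j : ℝ) ^ 2 * (2 / s) ^ j) ^ 11 := by gcongr
    _ = (6 * (j : ℝ) ^ 2) ^ 11 * (Real.exp 1 * s ^ 2 * (2 / s) ^ 11) ^ j := by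
        rw [mul_pow (6 * (j : ℝ) ^ 2), mul_pow _ ((2 / s) ^ 11), ← pow_mul (2 / s) j 11,
          ← pow_mul (2 / s) 11 j, mul_comm 11 j]
        ring
    _ ≤ (6 * (j : ℝ) ^ 2) ^ 11 * ((j : ℝ) / (2 * N)) ^ j := by gcongr
    _ ≤ (6 * (j : ℝ) ^ 2) ^ 11 * (j / N * (1 / 2 : ℝ) ^ j) := by gcongr
    _ = _ := by
        generalize (1 / 2 : ℝ) ^ j = x
        field_simp

theorem errI_tendsto : Tendsto (fun N : ℕ => errI (8 * N)) atTop (𝓝 0) := by
  have hs : Summable fun j : ℕ => (j : ℝ) ^ 23 * (1 / 2 : ℝ) ^ j :=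
    summable_pow_mul_geometric_of_norm_lt_one 23 (by norm_num)
  set C : ℝ := ∑' j : ℕ, (j : ℝ) ^ 23 * (1 / 2 : ℝ) ^ j
  have t1 := (tendsto_pow_const_mul_const_pow_of_abs_lt_one 45 (r := 256 * 0.52 ^ 11)
    (by rw [abs_of_pos (by norm_num)]; norm_num)).const_mul (4 * 4320 ^ 11)
  have t2 := tendsto_const_div_atTop_nhds_zero_nat (6 ^ 11 * C : ℝ)
  have t3 := t1.add t2
  rw [mul_zero, add_zero] at t3
  refine squeeze_zero' (Eventually.of_forall fun N => ?_) ?_ t3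
  · exact sum_nonneg fun j _ => by have := asy_PhiF_nonneg (8 * N) (iF (8 * N) j); positivity
  filter_upwards [eventually_ge_atTop 1] with N hN
  have hN' : (0 : ℝ) < N := by exact_mod_cast hN
  rw [errI, show 8 * N / 2 = 4 * N by omega]
  refine (sum_le_sum (g := fun j : ℕ => 4320 ^ 11 * ((N : ℝ) ^ 44 * (256 * 0.52 ^ 11 : ℝ) ^ N) +
    6 ^ 11 * ((j : ℝ) ^ 23 * (1 / 2 : ℝ) ^ j) / N) fun j hj => ?_).trans ?_
  · rw [mem_Icc] at hj
    by_cases h : j < N
    · exact (asy_small hj.1 h).trans (le_add_of_nonneg_left (by positivity))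
    · exact (asy_big hN (by omega) hj.2).trans (le_add_of_nonneg_right (by positivity))
  rw [sum_add_distrib, sum_const, Nat.card_Icc, nsmul_eq_mul, ← sum_div, ← mul_sum]
  refine add_le_add (le_of_eq ?_) ?_
  · rw [Nat.add_sub_cancel]
    push_cast
    generalize (256 * 0.52 ^ 11 : ℝ) ^ N = x
    ring
  · gcongr
    exact hs.sum_le_tsum _ fun j _ => by positivity

theorem errII_tendsto : Tendsto errII atTop (𝓝 0) := by
  set r : ℝ := Real.exp (59 / 100) ^ 8 / 2 ^ 7 with hr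
  have hr0 : 0 < r := by positivity
  have hr1 : r < 1 := by
    rw [hr, div_lt_one (by norm_num), ← Real.exp_nat_mul]
    have e1 : (2 : ℝ) ^ 7 = Real.exp ((7 : ℕ) * Real.log 2) := by
      rw [Real.exp_nat_mul, Real.exp_log (by norm_num)]
    rw [e1]
    refine Real.exp_lt_exp.2 ?_
    have := Real.log_two_gt_d9
    push_cast
    linarith
  have t1 := (tendsto_pow_const_mul_const_pow_of_abs_lt_one 29 (r := r)
    (by rwa [abs_of_pos hr0])).const_mul (3 ^ 8 * (2 ^ 28) ^ 7)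
  rw [mul_zero] at t1
  have hq : ∀ n, 0 ≤ qF n := fun n => by unfold qF; positivity
  refine squeeze_zero' (Eventually.of_forall fun n => ?_) ?_ t1
  · have := hq n
    unfold errII bigD
    positivity
  filter_upwards [eventually_ge_atTop 1] with n hn
  have hn' : (1 : ℝ) ≤ n := by exact_mod_cast hn
  have h1 : qF n ≤ 3 * n * Real.exp (59 / 100) ^ n := by
    have e1 : Real.exp (159 / 100 * n) = Real.exp 1 ^ n * Real.exp (59 / 100) ^ n := by
      rw [← mul_pow, ← Real.exp_add, mul_comm, Real.exp_nat_mul]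
      norm_num
    calc qF n ≤ 3 * n * ((n : ℝ) / Real.exp 1) ^ n / (n : ℝ) ^ n * Real.exp (159 / 100 * n) := by
          unfold qF
          gcongr
          exact asy_fac_hi hn
      _ = _ := by
          rw [e1, div_pow]
          field_simp
  have h2 : 2 ^ n / (2 ^ 28 * (n : ℝ) ^ 3) ≤ bigD n := by
    unfold bigD
    have e1 : (2 : ℝ) ^ 25 * ((n : ℝ) + 1) ^ 3 ≤ 2 ^ 25 * (2 * n) ^ 3 := by
      gcongr
      linarith
    exact div_le_div_of_nonneg_left (by positivity) (by positivity) (by linarith)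
  have := hq n
  have hD : 0 < bigD n := by unfold bigD; positivity
  calc errII n ≤ (3 * n * Real.exp (59 / 100) ^ n) *
        ((3 * n * Real.exp (59 / 100) ^ n) / (2 ^ n / (2 ^ 28 * (n : ℝ) ^ 3))) ^ 7 := by
        unfold errII
        gcongr
    _ = _ := by
        rw [hr, div_pow _ _ n, ← pow_mul _ 8 n, ← pow_mul _ 7 n, mul_comm 8 n, mul_comm 7 n,
          pow_mul, pow_mul (2 : ℝ) n 7]
        have : (0 : ℝ) < 2 ^ n := by positivity
        generalize Real.exp (59 / 100) ^ n = x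
        generalize (2 : ℝ) ^ n = y at *
        field_simp

end Crest.Agent.R155
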