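import Crest.Agent.R155.Window

/-!
# Row 155: the looping bound for the Benes network
-/

set_option autoImplicit false

open Finset Equiv
open scoped BigOperators

namespace Crest.Agent.R155

section
variable {P : Type} [Fintype P] [DecidableEq P]

lemma expect_half (u : P) (q p : (P → Bool) → Prop)
    (hq : ∀ e, q (Function.update e u (!e u)) ↔ q e)
    (hp : ∀ e, p (Function.update e u (!e u)) ↔ ¬ p e) :
    𝔼 e, ind (p e ∧ q e) = (𝔼 e, ind (q e)) / 2 := by
  have hinv : Function.Involutive (fun e : P → Bool => Function.update e u (!e u)) := by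
    intro e; simp
  have h1 : 𝔼 e, ind (p e ∧ q e) = 𝔼 e, ind (¬ p e ∧ q e) := by
    refine (Fintype.expect_bijective _ hinv.bijective _ _ fun e => ?_).symm
    exact ind_congr (by rw [hp, hq])
  have h2 : 𝔼 e, ind (p e ∧ q e) + 𝔼 e, ind (¬ p e ∧ q e) = 𝔼 e, ind (q e) := by
    rw [← expect_add_distrib]
    refine expect_congr rfl fun e _ => ?_
    by_cases h : p e
    · rw [ind_neg (p := ¬ p e ∧ q e) (by tauto), add_zero]; exact ind_congr (by tauto)
    · rw [ind_neg (p := p e ∧ q e) (by tauto), zero_add]; exact ind_congr (by tauto)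
  linarith

/-- The probability that fresh outer switches route the tracked cards consistently with the
permutation `sw c' * par g0 g1 * sw c` is at most `2 ^ (loops - |A|)`. -/
theorem side_prob_le (c c' : P → Bool) (g0 g1 : Perm P) (A : Finset (Bool × P)) :
    𝔼 e : P → Bool, 𝔼 e' : P → Bool,
      ind (∀ a ∈ A, (sw e a).1 = (sw e' ((sw c' * par g0 g1 * sw c) a)).1)
      ≤ 2 ^ cyc (g1 * g0⁻¹) ((tp A).image g1) / 2 ^ A.card := by
  set π : Perm (Bool × P) := sw c' * par g0 g1 * sw c with hπ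
  induction' hn : A.card using Nat.strong_induction_on with n ih generalizing A
  rcases A.eq_empty_or_nonempty with rfl | hne
  · subst hn
    simp only [notMem_empty, IsEmpty.forall_iff, implies_true, ind_pos, card_empty, pow_zero,
      div_one, Fintype.expect_const]
    exact one_le_pow₀ (by norm_num)
  have hsplit : ∀ a ∈ A, ∀ e e' : P → Bool, (∀ x ∈ A, (sw e x).1 = (sw e' (π x)).1) ↔
      (sw e a).1 = (sw e' (π a)).1 ∧ ∀ x ∈ A.erase a, (sw e x).1 = (sw e' (π x)).1 := by
    intro a ha e e'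
    conv_lhs => rw [← insert_erase ha]
    rw [forall_mem_insert]
  have hmono : ∀ a, cyc (g1 * g0⁻¹) ((tp (A.erase a)).image g1) ≤
      cyc (g1 * g0⁻¹) ((tp A).image g1) := fun a =>
    cyc_mono _ (image_subset_image fun u hu => by
      rw [mem_tp] at hu ⊢
      exact ⟨mem_of_mem_erase hu.1, mem_of_mem_erase hu.2⟩)
  have hfin : ∀ a ∈ A, 𝔼 e : P → Bool, 𝔼 e' : P → Bool,
      ind (∀ x ∈ A.erase a, (sw e x).1 = (sw e' (π x)).1) ≤
      2 ^ cyc (g1 * g0⁻¹) ((tp (A.erase a)).image g1) / 2 ^ (n - 1) := fun a ha =>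
    ih (n - 1) (by have := hne.card_pos; omega) _ (by rw [card_erase_of_mem ha, hn])
  have hn1 : (2 : ℝ) ^ n = 2 ^ (n - 1) * 2 := by
    rw [← pow_succ]; congr 1; have := hne.card_pos; omega
  have hhalf : ∀ a ∈ A, (𝔼 e : P → Bool, 𝔼 e' : P → Bool,
      ind (∀ x ∈ A.erase a, (sw e x).1 = (sw e' (π x)).1)) / 2 ≤
      2 ^ cyc (g1 * g0⁻¹) ((tp A).image g1) / 2 ^ n := by
    intro a ha
    rw [hn1, ← div_div]
    refine div_le_div_of_nonneg_right ((hfin a ha).trans ?_) (by norm_num)
    gcongr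
    · norm_num
    · exact hmono a
  by_cases h1 : ∃ a ∈ A, ∀ x ∈ A, x.2 = a.2 → x = a
  · obtain ⟨a, ha, h1⟩ := h1
    refine le_trans (le_of_eq ?_) (hhalf a ha)
    rw [expect_comm, expect_comm (s := univ) (t := univ)
      (f := fun e e' => ind (∀ x ∈ A.erase a, (sw e x).1 = (sw e' (π x)).1)), expect_div]
    refine expect_congr rfl fun e' _ => ?_
    simp only [hsplit a ha]
    refine expect_half a.2 _ _ (fun e => forall₂_congr fun x hx => ?_) fun e => ?_
    · have : x.2 ≠ a.2 := fun h => (mem_erase.1 hx).1 (h1 x (mem_of_mem_erase hx) h)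
      simp [sw, this]
    · generalize (sw e' (π a)).1 = z
      simp only [sw, coe_fn_mk, Function.update_self]
      cases a.1 <;> cases e a.2 <;> cases z <;> simp
  by_cases h2 : ∃ a ∈ A, ∀ x ∈ A, (π x).2 = (π a).2 → x = a
  · obtain ⟨a, ha, h2⟩ := h2
    refine le_trans (le_of_eq ?_) (hhalf a ha)
    rw [expect_div]
    refine expect_congr rfl fun e _ => ?_
    simp only [hsplit a ha]
    refine expect_half (π a).2 _ _ (fun e' => forall₂_congr fun x hx => ?_) fun e' => ?_
    · have : (π x).2 ≠ (π a).2 := fun h => (mem_erase.1 hx).1 (h2 x (mem_of_mem_erase hx) h)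
      simp [sw, this]
    · generalize (sw e a).1 = z
      simp only [sw, coe_fn_mk, Function.update_self]
      cases (π a).1 <;> cases e' (π a).2 <;> cases z <;> simp
  push Not at h1 h2
  have hT : ∀ x ∈ A, x.2 ∈ tp A := by
    rintro ⟨b, u⟩ hx
    obtain ⟨⟨b', u'⟩, hy, h, hne'⟩ := h1 _ hx
    obtain rfl : u' = u := h
    rw [mem_tp]
    cases b <;> cases b' <;> simp_all
  have hclosed : ∀ v ∈ (tp A).image g1, (g1 * g0⁻¹) v ∈ (tp A).image g1 := by
    intro v hv
    obtain ⟨u, hu, rfl⟩ := mem_image.1 hv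
    have hx : (xor true (c u), u) ∈ A := by
      rw [tp_eq_inter c, mem_inter] at hu; exact mem_sd.1 hu.2
    obtain ⟨⟨b', u'⟩, hy, h, hne'⟩ := h2 _ hx
    have hu' := hT _ hy
    simp only [hπ, Perm.mul_apply, sw_apply, par_apply] at h
    cases hs : xor b' (c u')
    · rw [hs] at h
      have h' : g0 u' = g1 u := by simpa using h
      exact mem_image.2 ⟨u', hu', by rw [Perm.mul_apply, ← h']; simp⟩
    · rw [hs] at h
      have h' : u' = u := by simpa using h
      subst h'
      refine absurd ?_ hne'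
      rw [← hs]; simp
  obtain ⟨a, ha⟩ := hne
  have hlt : cyc (g1 * g0⁻¹) ((tp (A.erase a)).image g1) + 1 ≤
      cyc (g1 * g0⁻¹) ((tp A).image g1) := by
    refine le_trans (Nat.succ_le_succ (cyc_mono _ ?_))
      (cyc_erase_lt _ (orb_subset hclosed (mem_image_of_mem g1 (hT a ha))))
    intro v hv
    obtain ⟨u, hu, rfl⟩ := mem_image.1 hv
    rw [mem_tp] at hu
    refine mem_erase.2 ⟨fun h => ?_, mem_image_of_mem _
      (mem_tp.2 ⟨mem_of_mem_erase hu.1, mem_of_mem_erase hu.2⟩)⟩
    obtain rfl : u = a.2 := g1.injective h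
    obtain ⟨b, u⟩ := a
    cases b
    · exact (mem_erase.1 hu.1).1 rfl
    · exact (mem_erase.1 hu.2).1 rfl
  calc _ ≤ 𝔼 e : P → Bool, 𝔼 e' : P → Bool,
        ind (∀ x ∈ A.erase a, (sw e x).1 = (sw e' (π x)).1) :=
        expect_le_expect fun e _ => expect_le_expect fun e' _ =>
          ind_mono fun h x hx => h x (mem_of_mem_erase hx)
    _ ≤ _ := hfin a ha
    _ ≤ _ := by
        rw [hn1, div_le_div_iff₀ (by positivity) (by positivity)]
        have : (2 : ℝ) ^ (cyc (g1 * g0⁻¹) ((tp (A.erase a)).image g1) + 1) ≤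
            2 ^ cyc (g1 * g0⁻¹) ((tp A).image g1) := pow_le_pow_right₀ (by norm_num) hlt
        rw [pow_succ] at this
        have h0 : (0 : ℝ) < 2 ^ (n - 1) := by positivity
        nlinarith

lemma ben_agree_iff (e e' : P → Bool) (h0 h1 : Perm P) (A : Finset (Bool × P))
    (τ : Bool × P → Bool × P) :
    (∀ x ∈ A, (sw e' * par h0 h1 * sw e) x = τ x) ↔
      (∀ a ∈ A, (sw e a).1 = (sw e' (τ a)).1) ∧
        (∀ u ∈ sd e false A, h0 u = (τ (xor false (e u), u)).2) ∧
        ∀ u ∈ sd e true A, h1 u = (τ (xor true (e u), u)).2 := by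
  have key : ∀ x, (sw e' * par h0 h1 * sw e) x = τ x ↔ (sw e x).1 = (sw e' (τ x)).1 ∧
      (cond (sw e x).1 h1 h0) x.2 = (τ x).2 := by
    rintro ⟨b, u⟩
    rw [mul_assoc, Perm.mul_apply, ← sw_inv e', Perm.inv_eq_iff_eq, sw_inv]
    generalize τ (b, u) = y
    obtain ⟨b', u'⟩ := y
    simp only [Perm.mul_apply, sw_apply, par_apply, Prod.mk.injEq]
  simp only [key]
  rw [← forall_sd e A (fun x => (cond (sw e x).1 h1 h0) x.2 = (τ x).2) |>.trans
    (by simp : _ ↔ ((∀ u ∈ sd e false A, h0 u = (τ (xor false (e u), u)).2) ∧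
        ∀ u ∈ sd e true A, h1 u = (τ (xor true (e u), u)).2))]
  exact ⟨fun h => ⟨fun a ha => (h a ha).1, fun a ha => (h a ha).2⟩,
    fun h a ha => ⟨h.1 a ha, h.2 a ha⟩⟩

end

/-- power mean inequality on an event -/
lemma expect_ind_rpow_le {Ω : Type} [Fintype Ω] [Nonempty Ω] (p : Ω → Prop) (f : Ω → ℝ)
    (hf : ∀ ω, 0 ≤ f ω) {δ : ℝ} (hδ : 0 ≤ δ) :
    (𝔼 ω, ind (p ω) * f ω) ^ (1 + δ) ≤ (𝔼 ω, ind (p ω)) ^ δ * 𝔼 ω, ind (p ω) * f ω ^ (1 + δ) := by
  have hS0 : 0 ≤ ∑ ω, ind (p ω) := sum_nonneg fun _ _ => ind_nonneg _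
  have hN : (0 : ℝ) < Fintype.card Ω := by exact_mod_cast Fintype.card_pos
  rcases eq_or_lt_of_le hS0 with h | hS
  · have : ∀ ω, ind (p ω) = 0 := fun ω =>
      (sum_eq_zero_iff_of_nonneg fun _ _ => ind_nonneg _).1 h.symm ω (mem_univ _)
    simp [this, Real.zero_rpow (by linarith : (1 + δ) ≠ 0)]
  set S := ∑ ω, ind (p ω) with hSd
  have hJ := Real.rpow_arith_mean_le_arith_mean_rpow univ (fun ω => ind (p ω) / S) f
    (fun ω _ => div_nonneg (ind_nonneg _) hS.le) (by rw [← sum_div, div_self hS.ne'])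
    (fun ω _ => hf ω) (p := 1 + δ) (by linarith)
  simp only [Fintype.expect_eq_sum_div_card]
  have e1 : (∑ ω, ind (p ω) * f ω) / Fintype.card Ω =
      (S / Fintype.card Ω) * ∑ ω, ind (p ω) / S * f ω := by
    rw [mul_sum, sum_div]; exact sum_congr rfl fun ω _ => by field_simp
  have e2 : (∑ ω, ind (p ω) * f ω ^ (1 + δ)) / Fintype.card Ω =
      (S / Fintype.card Ω) * ∑ ω, ind (p ω) / S * f ω ^ (1 + δ) := by
    rw [mul_sum, sum_div]; exact sum_congr rfl fun ω _ => by field_simp
  have hq : 0 < S / Fintype.card Ω := by positivity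
  rw [e1, e2, Real.mul_rpow hq.le
    (sum_nonneg fun ω _ => mul_nonneg (div_nonneg (ind_nonneg _) hS.le) (hf ω)),
    Real.rpow_add hq, Real.rpow_one, ← mul_assoc, mul_comm (_ ^ δ)]
  gcongr

lemma Lam_succ (D : ℕ) (ω ω' : Bits (D + 1)) (A : Finset (Pos (D + 1))) :
    Lam (D + 1) ω ω' A = cyc (loopP D ω ω') (loopT D ω ω' A) +
      (Lam D ω.2.1 ω'.2.1 (sd ω.1 false A) + Lam D ω.2.2 ω'.2.2 (sd ω.1 true A)) := by
  unfold Lam
  rw [sum_Icc_succ_top (by omega), ← sum_add_distrib, add_comm]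
  congr 1
  · simp [lam]
  · refine sum_congr rfl fun j hj => ?_
    have : j ≠ D + 1 := by have := (mem_Icc.1 hj).2; omega
    simp [lam, this]

lemma kb_nonneg (D : ℕ) (A : Finset (Pos D)) (τ : Pos D → Pos D) : 0 ≤ kb D A τ :=
  expect_nonneg fun _ _ => expect_nonneg fun _ _ => ind_nonneg _

/-- `kb ^ (1+δ) ≤ n ^ (-δ|A|) E[2 ^ (δ Λ); π|A = τ]`. -/
theorem kb_rpow_le (δ : ℝ) (hδ : 0 ≤ δ) (D : ℕ) (A : Finset (Pos D)) (τ : Pos D → Pos D) :
    kb D A τ ^ (1 + δ) ≤ Real.exp (-(δ * Real.log 2 * (D * A.card))) *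
      𝔼 ω : Bits D, 𝔼 ω' : Bits D,
        ind (∀ x ∈ A, ben D ω ω' x = τ x) * Real.exp (δ * Real.log 2 * Lam D ω ω' A) := by
  induction D with
  | zero =>
    simp only [kb, expect_bits_zero, Lam]
    have : ∀ x ∈ A, ben 0 () () x = τ x := fun x _ => rfl
    simp [ind_pos this]
  | succ D ih =>
    set V : (Pos D → Bool) × (Pos D → Bool) → Prop :=
      fun e => ∀ a ∈ A, (sw e.1 a).1 = (sw e.2 (τ a)).1 with hV
    set τs : (Pos D → Bool) → Bool → Pos D → Pos D := fun e b u => (τ (xor b (e u), u)).2 with hτs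
    have hiff : ∀ (e : (Pos D → Bool) × (Pos D → Bool)) (f0 f0' f1 f1' : Bits D),
        ind (∀ x ∈ A, ben (D + 1) (e.1, f0, f1) (e.2, f0', f1') x = τ x) =
        ind (V e) * (ind (∀ u ∈ sd e.1 false A, ben D f0 f0' u = τs e.1 false u) *
          ind (∀ u ∈ sd e.1 true A, ben D f1 f1' u = τs e.1 true u)) := by
      intro e f0 f0' f1 f1'
      rw [← ind_and, ← ind_and, ben_succ]
      exact ind_congr (ben_agree_iff e.1 e.2 _ _ A τ)
    have h1 : kb (D + 1) A τ = 𝔼 e, ind (V e) *
        (kb D (sd e.1 false A) (τs e.1 false) * kb D (sd e.1 true A) (τs e.1 true)) := by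
      unfold kb
      rw [expect_two_succ]
      refine expect_congr rfl fun e _ => ?_
      simp only [hiff, ← mul_expect, ← expect_mul]
    set pV := 𝔼 e, ind (V e) with hpV
    have hpV0 : 0 ≤ pV := expect_nonneg fun _ _ => ind_nonneg _
    set L := δ * Real.log 2 with hL
    calc kb (D + 1) A τ ^ (1 + δ)
        ≤ pV ^ δ * 𝔼 e, ind (V e) * (kb D (sd e.1 false A) (τs e.1 false) *
            kb D (sd e.1 true A) (τs e.1 true)) ^ (1 + δ) := by
          rw [h1]
          exact expect_ind_rpow_le V _ (fun e => mul_nonneg (kb_nonneg _ _ _) (kb_nonneg _ _ _)) hδ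
      _ ≤ pV ^ δ * 𝔼 e, ind (V e) * (Real.exp (-(L * (D * A.card))) *
            ((𝔼 f0, 𝔼 f0', ind (∀ u ∈ sd e.1 false A, ben D f0 f0' u = τs e.1 false u) *
              Real.exp (L * Lam D f0 f0' (sd e.1 false A))) *
            𝔼 f1, 𝔼 f1', ind (∀ u ∈ sd e.1 true A, ben D f1 f1' u = τs e.1 true u) *
              Real.exp (L * Lam D f1 f1' (sd e.1 true A)))) := by
          refine mul_le_mul_of_nonneg_left (expect_le_expect fun e _ =>
            mul_le_mul_of_nonneg_left ?_ (ind_nonneg _)) (Real.rpow_nonneg hpV0 _)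
          rw [Real.mul_rpow (kb_nonneg _ _ _) (kb_nonneg _ _ _)]
          refine (mul_le_mul (ih _ _) (ih _ _) (Real.rpow_nonneg (kb_nonneg _ _ _) _)
            ((Real.rpow_nonneg (kb_nonneg _ _ _) _).trans (ih _ _))).trans (le_of_eq ?_)
          have h3 : (A.card : ℝ) = (sd e.1 false A).card + (sd e.1 true A).card := by
            exact_mod_cast (card_sd_add e.1 A).symm
          rw [h3, mul_add, mul_add, neg_add, Real.exp_add]; ring
      _ = Real.exp (-(L * (D * A.card))) * 𝔼 ω, 𝔼 ω',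
            ind (∀ x ∈ A, ben (D + 1) ω ω' x = τ x) * (pV ^ δ *
              Real.exp (L * (Lam D ω.2.1 ω'.2.1 (sd ω.1 false A) +
                Lam D ω.2.2 ω'.2.2 (sd ω.1 true A)))) := by
          rw [expect_two_succ, mul_expect, mul_expect]
          refine expect_congr rfl fun e _ => ?_
          rw [expect_two_mul]
          simp only [hiff, mul_expect]
          refine expect_congr rfl fun _ _ => expect_congr rfl fun _ _ =>
            expect_congr rfl fun _ _ => expect_congr rfl fun _ _ => ?_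
          rw [mul_add, Real.exp_add]; ring
      _ ≤ Real.exp (-(L * (D * A.card))) * 𝔼 ω, 𝔼 ω', Real.exp (-(L * A.card)) *
            (ind (∀ x ∈ A, ben (D + 1) ω ω' x = τ x) * Real.exp (L * Lam (D + 1) ω ω' A)) := by
          refine mul_le_mul_of_nonneg_left (expect_le_expect fun ω _ =>
            expect_le_expect fun ω' _ => ?_) (by positivity)
          by_cases h : ∀ x ∈ A, ben (D + 1) ω ω' x = τ x
          swap
          · simp [ind_neg h]
          obtain ⟨c, f0, f1⟩ := ω
          obtain ⟨c', f0', f1'⟩ := ω'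
          have h4 := side_prob_le c c' (ben D f0 f0') (ben D f1 f1') A
          have h5 : pV ≤ 2 ^ cyc (loopP D (c, f0, f1) (c', f0', f1'))
              (loopT D (c, f0, f1) (c', f0', f1') A) / 2 ^ A.card := by
            refine le_trans (le_of_eq ?_) h4
            rw [hpV, ← univ_product_univ (α := Pos D → Bool), expect_product]
            refine expect_congr rfl fun e _ => expect_congr rfl fun e' _ => ind_congr ?_
            refine forall₂_congr fun a ha => ?_
            rw [← h a ha, ben_succ]; rfl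
          have h6 : pV ^ δ ≤ Real.exp (-(L * A.card)) * Real.exp (L * cyc
              (loopP D (c, f0, f1) (c', f0', f1')) (loopT D (c, f0, f1) (c', f0', f1') A)) := by
            refine (Real.rpow_le_rpow hpV0 h5 hδ).trans (le_of_eq ?_)
            rw [Real.rpow_def_of_pos (by positivity), Real.log_div (by positivity) (by positivity),
              Real.log_pow, Real.log_pow, ← Real.exp_add, hL]
            congr 1; ring
          rw [ind_pos h, one_mul, one_mul, Lam_succ]
          push_cast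
          rw [mul_add L (cyc _ _ : ℝ), Real.exp_add (L * (cyc _ _ : ℝ)), ← mul_assoc]
          exact mul_le_mul_of_nonneg_right h6 (Real.exp_pos _).le
      _ = _ := by
          simp only [← mul_expect]
          rw [← mul_assoc, ← Real.exp_add]
          congr 2; push_cast; ring

end Crest.Agent.R155
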