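import Crest.Agent.R155.ClosersA

/-!
# Row 155: the closers lemma (exponential moments of short cycles)
-/

set_option autoImplicit false

open Finset Equiv
open scoped BigOperators

namespace Crest.Agent.R155

section
variable {Ω X : Type} [Fintype Ω] [Nonempty Ω] [Fintype X] [DecidableEq X]

/-- number of ways to choose successive cycles with prescribed lengths inside `T`, away from `A` -/
noncomputable def cntH (σ : Perm X) (T : Finset X) : List ℕ → Finset X → ℝ
  | [], _ => 1
  | l :: ls, A => ∑ C ∈ (orbs σ).filter (fun C => C ⊆ T ∧ Disjoint C A ∧ C.card = l),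
      cntH σ T ls (A ∪ C)

lemma cntH_nonneg (σ : Perm X) (T : Finset X) (ls : List ℕ) (A : Finset X) :
    0 ≤ cntH σ T ls A := by
  induction ls generalizing A with
  | nil => simp [cntH]
  | cons l ls ih => exact sum_nonneg fun C _ => ih _

lemma cntH_perm (σ : Perm X) (T : Finset X) {ls ls' : List ℕ} (h : ls.Perm ls') (A : Finset X) :
    cntH σ T ls A = cntH σ T ls' A := by
  induction h generalizing A with
  | nil => rfl
  | cons l _ ih => exact sum_congr rfl fun C _ => ih _
  | swap l l' ls =>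
    simp only [cntH]
    rw [sum_comm' (t' := (orbs σ).filter (fun C => C ⊆ T ∧ Disjoint C A ∧ C.card = l))
      (s' := fun C => (orbs σ).filter (fun C' => C' ⊆ T ∧ Disjoint C' (A ∪ C) ∧ C'.card = l'))]
    · exact sum_congr rfl fun C _ => sum_congr rfl fun C' _ => by rw [union_right_comm]
    · intro C C'
      simp only [mem_filter, disjoint_union_right]
      rw [disjoint_comm (a := C') (b := C)]
      tauto
  | trans _ _ ih1 ih2 => rw [ih1, ih2]

lemma ordSel_eq_sumL (σ : Perm X) (T : Finset X) (a : ℕ → ℝ) (c : ℕ) (A : Finset X) :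
    ordSel (fun C : Finset X => a C.card) c
      ((orbs σ).filter (fun C => C ⊆ T ∧ Disjoint C A)) =
      sumL (Icc 1 (Fintype.card X)) a c (fun ls => cntH σ T ls A) := by
  induction c generalizing A with
  | zero => rfl
  | succ c ih =>
    simp only [ordSel, sumL, cntH, sumL_sum]
    rw [← sum_fiberwise_of_maps_to (g := fun C : Finset X => C.card)
      (t := Icc 1 (Fintype.card X))]
    · refine sum_congr rfl fun l _ => ?_
      rw [mul_sum, filter_filter]
      refine sum_congr (filter_congr fun C _ => by tauto) fun C hC => ?_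
      rw [mem_filter] at hC
      rw [hC.2.2.2, ← ih]
      congr 2
      ext C'
      simp only [mem_erase, mem_filter, disjoint_union_right]
      constructor
      · rintro ⟨h1, h2, h3, h4⟩
        exact ⟨h2, h3, h4, disjoint_of_mem_orbs h2 hC.1 h1⟩
      · rintro ⟨h2, h3, h4, h5⟩
        refine ⟨?_, h2, h3, h4⟩
        rintro rfl
        exact (nonempty_of_mem_orbs h2).ne_empty (disjoint_self.1 h5)
    · intro C hC
      rw [mem_filter] at hC
      exact mem_Icc.2 ⟨(nonempty_of_mem_orbs hC.1).card_pos, card_le_univ C⟩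

omit [Nonempty Ω] [Fintype X] [DecidableEq X] in
lemma agr_congr (β : Ω → Perm X) {ω ω' : Ω} {A : Finset X} (h : ∀ x ∈ A, β ω' x = β ω x) :
    agr β ω' A = agr β ω A := by
  unfold agr
  exact expect_congr rfl fun w _ => ind_congr (forall₂_congr fun x hx => by rw [h x hx])

omit [Nonempty Ω] [Fintype X] [DecidableEq X] in
lemma agr_pos (β : Ω → Perm X) (ω : Ω) (A : Finset X) : 0 < agr β ω A :=
  expect_pos' (fun _ _ => ind_nonneg _) ⟨ω, mem_univ _, by rw [ind_pos (fun _ _ => rfl)]; norm_num⟩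

omit [Nonempty Ω] in
/-- the stopping-set step for one starting point -/
lemma one_point (β : Ω → Perm X) (γ : Perm X) (A : Finset X) (U : Ω → ℝ) (hU0 : ∀ ω, 0 ≤ U ω)
    (hU : ∀ ω ω', (∀ x ∈ A, β ω' x = β ω x) → U ω' = U ω) (T : Finset X) (l : ℕ) (x : X) :
    𝔼 ω, U ω * (ind (orb (γ * β ω) x ⊆ T ∧ Disjoint (orb (γ * β ω) x) A ∧
        (orb (γ * β ω) x).card = l) *
      (agr β ω ((A ∪ orb (γ * β ω) x).erase ((γ * β ω)⁻¹ x)) / agr β ω (A ∪ orb (γ * β ω) x)))
      ≤ 𝔼 ω, U ω := by
  set G : Ω → Prop := fun ω => orb (γ * β ω) x ⊆ T ∧ Disjoint (orb (γ * β ω) x) A ∧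
    (orb (γ * β ω) x).card = l with hG
  set P : Ω → Finset X := fun ω => (A ∪ orb (γ * β ω) x).erase ((γ * β ω)⁻¹ x) with hP
  set F : Ω → Finset X := fun ω => A ∪ orb (γ * β ω) x with hF
  have hAP : ∀ ω, G ω → A ⊆ P ω := by
    intro ω hω z hz
    refine mem_erase.2 ⟨?_, mem_union_left _ hz⟩
    rintro rfl
    exact disjoint_left.1 hω.2.1 (inv_apply_mem_orb _ x) hz
  have h1 : ∀ ω, U ω * (ind (G ω) * (agr β ω (P ω) / agr β ω (F ω))) =
      𝔼 ω', U ω' * (ind (G ω ∧ ∀ z ∈ P ω, β ω' z = β ω z) / agr β ω (F ω)) := by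
    intro ω
    conv_lhs => rw [agr, expect_div, mul_expect, mul_expect]
    refine expect_congr rfl fun ω' _ => ?_
    by_cases h : G ω ∧ ∀ z ∈ P ω, β ω' z = β ω z
    · rw [ind_pos h, ind_pos h.1, ind_pos h.2, hU ω ω' fun z hz => h.2 z (hAP ω h.1 hz), one_mul]
    · rw [ind_neg h, ← mul_div_assoc, ← ind_and, ind_neg h]; simp
  change 𝔼 ω, U ω * (ind (G ω) * (agr β ω (P ω) / agr β ω (F ω))) ≤ _
  simp only [h1]
  rw [expect_comm]
  refine expect_le_expect fun ω' _ => ?_
  rw [← mul_expect]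
  refine mul_le_of_le_one_right (hU0 _) ?_
  by_cases hex : ∃ ω₀, G ω₀ ∧ ∀ z ∈ P ω₀, β ω' z = β ω₀ z
  · obtain ⟨ω₀, h0⟩ := hex
    have hpos := agr_pos β ω₀ (F ω₀)
    calc 𝔼 ω, ind (G ω ∧ ∀ z ∈ P ω, β ω' z = β ω z) / agr β ω (F ω)
        ≤ 𝔼 ω, ind (∀ z ∈ F ω₀, β ω z = β ω₀ z) / agr β ω₀ (F ω₀) := by
          refine expect_le_expect fun ω _ => ?_
          by_cases h : G ω ∧ ∀ z ∈ P ω, β ω' z = β ω z
          · have key : ∀ w, G w → (∀ z ∈ P w, β ω' z = β w z) →
                ∀ z ∈ (orb (γ * β w) x).erase ((γ * β w)⁻¹ x), (γ * β ω') z = (γ * β w) z := by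
              intro w _ hw z hz
              rw [Perm.mul_apply, Perm.mul_apply, hw z]
              rw [mem_erase] at hz
              exact mem_erase.2 ⟨hz.1, mem_union_right _ hz.2⟩
            obtain ⟨e1, e2⟩ := orb_match (h0.1.2.2.trans h.1.2.2.symm) (key ω₀ h0.1 h0.2)
              (key ω h.1 h.2)
            have hag : ∀ z ∈ F ω₀, β ω z = β ω₀ z := by
              intro z hz
              rcases mem_union.1 hz with hz | hz
              · rw [← h.2 z (hAP ω h.1 hz), h0.2 z (hAP ω₀ h0.1 hz)]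
              · exact γ.injective (e2 z hz)
            have hFe : F ω = F ω₀ := by simp only [hF, e1]
            rw [ind_pos h, ind_pos hag, hFe, agr_congr β hag]
          · rw [ind_neg h, zero_div]; exact div_nonneg (ind_nonneg _) hpos.le
      _ = 1 := by rw [← expect_div]; exact div_self hpos.ne'
  · have : ∀ ω, ind (G ω ∧ ∀ z ∈ P ω, β ω' z = β ω z) / agr β ω (F ω) = 0 := fun ω => by
      rw [ind_neg fun h => hex ⟨ω, h⟩, zero_div]
    simp [this]

omit [Nonempty Ω] in
lemma one_step (β : Ω → Perm X) (γ : Perm X) (A : Finset X) (U : Ω → ℝ) (hU0 : ∀ ω, 0 ≤ U ω)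
    (hU : ∀ ω ω', (∀ x ∈ A, β ω' x = β ω x) → U ω' = U ω) (T : Finset X) (l : ℕ) :
    𝔼 ω, U ω * ∑ C ∈ (orbs (γ * β ω)).filter (fun C => C ⊆ T ∧ Disjoint C A ∧ C.card = l),
        ∑ y ∈ C, agr β ω ((A ∪ C).erase y) / agr β ω (A ∪ C) ≤ T.card * 𝔼 ω, U ω := by
  calc _ ≤ 𝔼 ω, ∑ x ∈ T, U ω * (ind (orb (γ * β ω) x ⊆ T ∧ Disjoint (orb (γ * β ω) x) A ∧
        (orb (γ * β ω) x).card = l) *
      (agr β ω ((A ∪ orb (γ * β ω) x).erase ((γ * β ω)⁻¹ x)) /
        agr β ω (A ∪ orb (γ * β ω) x))) := by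
        refine expect_le_expect fun ω _ => ?_
        rw [← mul_sum]
        exact mul_le_mul_of_nonneg_left (sum_closers_le (γ * β ω) T _ (fun C h => h.1)
          (fun C y => agr β ω ((A ∪ C).erase y) / agr β ω (A ∪ C))
          fun C y => div_nonneg (agr_pos _ _ _).le (agr_pos _ _ _).le) (hU0 ω)
    _ ≤ ∑ _x ∈ T, 𝔼 ω, U ω := by
        rw [expect_sum_comm]
        exact sum_le_sum fun x _ => one_point β γ A U hU0 hU T l x
    _ = _ := by simp

omit [Fintype Ω] [Nonempty Ω] [Fintype X] in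
/-- pointwise inequality for one more cycle -/
lemma closer_pointwise {E : X → X → ℝ} (hs : ∀ x y, E x y = E y x) (hd : ∀ x, E x x = 0)
    (hiso : ∀ A : Finset X, ee E A ≤ hl A.card) {A C : Finset X} (hdis : Disjoint C A)
    {l l' : ℕ} (hl' : 1 ≤ l') (hll : l' ≤ l) (hC : C.card = l) {i : ℕ} (hA : A.card ≤ i * l') :
    Real.exp ((hl (A ∪ C).card - ee E (A ∪ C)) / l) ≤
      Real.exp ((hl A.card - ee E A) / l') * Real.exp (hl (i + 1) - hl i) *
        ∑ y ∈ C, Real.exp (ee E ((A ∪ C).erase y) - ee E (A ∪ C)) := by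
  have hl0 : (0 : ℝ) < l := by exact_mod_cast (by omega : 0 < l)
  have hl0' : (0 : ℝ) < l' := by exact_mod_cast (by omega : 0 < l')
  have hJ : Real.exp (∑ y ∈ C, (l : ℝ)⁻¹ • (ee E ((A ∪ C).erase y) - ee E (A ∪ C))) ≤
      ∑ y ∈ C, (l : ℝ)⁻¹ • Real.exp (ee E ((A ∪ C).erase y) - ee E (A ∪ C)) :=
    convexOn_exp.map_sum_le (fun _ _ => by positivity)
      (by rw [sum_const, hC, nsmul_eq_mul]; field_simp) (fun _ _ => Set.mem_univ _)
  simp only [smul_eq_mul, ← mul_sum] at hJ
  have hdeg : ∑ y ∈ C, (ee E ((A ∪ C).erase y) - ee E (A ∪ C)) =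
      -(ee E (A ∪ C) - ee E A + ee E C) := by
    rw [← sum_deg_eq hs hdis, ← sum_neg_distrib]
    refine sum_congr rfl fun y hy => ?_
    rw [← ee_sub_erase hs hd (mem_union_right A hy)]; ring
  rw [hdeg] at hJ
  have hS : Real.exp (Real.log l + (l : ℝ)⁻¹ * -(ee E (A ∪ C) - ee E A + ee E C)) ≤
      ∑ y ∈ C, Real.exp (ee E ((A ∪ C).erase y) - ee E (A ∪ C)) := by
    rw [Real.exp_add, Real.exp_log hl0]
    calc _ ≤ l * ((l : ℝ)⁻¹ * ∑ y ∈ C, Real.exp (ee E ((A ∪ C).erase y) - ee E (A ∪ C))) := by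
          gcongr
      _ = _ := by field_simp
  refine le_trans ?_ (mul_le_mul_of_nonneg_left hS (by positivity))
  rw [← Real.exp_add, ← Real.exp_add, Real.exp_le_exp]
  have hcard : ((A ∪ C).card : ℝ) = A.card + l := by
    rw [card_union_of_disjoint hdis.symm, hC]; push_cast; ring
  have hAl : (A.card : ℝ) ≤ i * l := by
    have : A.card ≤ i * l := hA.trans (Nat.mul_le_mul_left _ hll)
    exact_mod_cast this
  have h1 := hl_step (L := A.card) (i := i) (l := l) (by positivity) (by positivity) hl0 hAl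
  have h2 : ee E C ≤ l / 2 * Real.log l := by have := hiso C; rwa [hC] at this
  have h3 : (hl A.card - ee E A) / l ≤ (hl A.card - ee E A) / l' :=
    div_le_div_of_nonneg_left (sub_nonneg.2 (hiso A)) hl0' (by exact_mod_cast hll)
  refine le_trans ?_ (add_le_add_left (add_le_add_left h3 _) _)
  rw [hcard, div_le_iff₀ hl0]
  have e : ((hl A.card - ee E A) / l + (hl (i + 1) - hl i) +
      (Real.log l + (l : ℝ)⁻¹ * -(ee E (A ∪ C) - ee E A + ee E C))) * l =
      (hl A.card - ee E A) + l * (hl (i + 1) - hl i) + l * Real.log l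
        - (ee E (A ∪ C) - ee E A + ee E C) := by field_simp; ring
  rw [e]; nlinarith

omit [Nonempty Ω] in
lemma closers_sorted (β : Ω → Perm X) (m : ℝ) (hm : 0 < m) (E : Ω → X → X → ℝ)
    (hsymm : ∀ ω x y, E ω x y = E ω y x) (hdiag : ∀ ω x, E ω x x = 0)
    (hq : ∀ ω A, agr β ω A = Real.exp (ee (E ω) A) / m ^ A.card)
    (hiso : ∀ ω A, ee (E ω) A ≤ hl A.card) (γ : Perm X) (T : Finset X) (ls : List ℕ)
    (hs : ls.Pairwise (· ≤ ·)) (l' : ℕ) (hl' : 1 ≤ l') (hls : ∀ l ∈ ls, l' ≤ l) (i : ℕ)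
    (A : Finset X) (hA : A.card ≤ i * l') (U : Ω → ℝ) (hU0 : ∀ ω, 0 ≤ U ω)
    (hU : ∀ ω ω', (∀ x ∈ A, β ω' x = β ω x) → U ω' = U ω) :
    𝔼 ω, U ω * cntH (γ * β ω) T ls A ≤
      (T.card / m) ^ ls.length * Real.exp (hl ((i + ls.length : ℕ) : ℝ) - hl i) *
        𝔼 ω, U ω * Real.exp ((hl A.card - ee (E ω) A) / l') := by
  induction ls generalizing l' i A U with
  | nil =>
    simp only [cntH, List.length_nil, pow_zero, add_zero, sub_self, Real.exp_zero, one_mul]
    refine expect_le_expect fun ω _ => mul_le_mul_of_nonneg_left ?_ (hU0 ω)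
    exact Real.one_le_exp (div_nonneg (sub_nonneg.2 (hiso ω A)) (by positivity))
  | cons l ls ih =>
    rw [List.pairwise_cons] at hs
    have hll : l' ≤ l := hls l (by simp)
    set S0 : Finset (Finset X) := univ.filter (fun C => C ⊆ T ∧ Disjoint C A ∧ C.card = l) with hS0
    have hsplit : ∀ (σ : Perm X) (f : Finset X → ℝ),
        ∑ C ∈ (orbs σ).filter (fun C => C ⊆ T ∧ Disjoint C A ∧ C.card = l), f C =
        ∑ C ∈ S0, ind (C ∈ orbs σ) * f C := by
      intro σ f
      have : (orbs σ).filter (fun C => C ⊆ T ∧ Disjoint C A ∧ C.card = l) =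
          S0.filter (· ∈ orbs σ) := by ext C; simp [hS0, and_comm]
      rw [this, sum_filter]
      exact sum_congr rfl fun C _ => by rw [ind_eq_ite]; split_ifs <;> simp
    have hee : ∀ ω ω', (∀ x ∈ A, β ω' x = β ω x) → ee (E ω') A = ee (E ω) A := by
      intro ω ω' h
      have := agr_congr β h
      rw [hq, hq, div_left_inj' (by positivity)] at this
      exact Real.exp_injective this
    set K := (T.card / m) ^ ls.length * Real.exp (hl ((i + 1 + ls.length : ℕ) : ℝ) - hl (i + 1 : ℕ))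
      with hK
    have hK0 : 0 ≤ K := by positivity
    calc 𝔼 ω, U ω * cntH (γ * β ω) T (l :: ls) A
        = ∑ C ∈ S0, 𝔼 ω, (U ω * ind (C ∈ orbs (γ * β ω))) * cntH (γ * β ω) T ls (A ∪ C) := by
          rw [← expect_sum_comm]
          refine expect_congr rfl fun ω _ => ?_
          rw [cntH, hsplit, mul_sum]
          exact sum_congr rfl fun C _ => by ring
      _ ≤ ∑ C ∈ S0, K * 𝔼 ω, (U ω * ind (C ∈ orbs (γ * β ω))) *
            Real.exp ((hl (A ∪ C).card - ee (E ω) (A ∪ C)) / l) := by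
          refine sum_le_sum fun C hC => ?_
          rw [hS0, mem_filter] at hC
          refine ih hs.2 l (hl'.trans hll) hs.1 (i + 1) (A ∪ C) ?_ _
            (fun ω => mul_nonneg (hU0 ω) (ind_nonneg _)) ?_
          · rw [card_union_of_disjoint hC.2.2.1.symm, hC.2.2.2]
            have := Nat.mul_le_mul_left i hll
            nlinarith
          · intro ω ω' h
            rw [hU ω ω' fun x hx => h x (mem_union_left _ hx)]
            congr 1
            refine ind_congr ⟨fun hc => mem_orbs_of_agree hc fun z hz => ?_,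
              fun hc => mem_orbs_of_agree hc fun z hz => ?_⟩ <;>
            rw [Perm.mul_apply, Perm.mul_apply, h z (mem_union_right _ hz)]
      _ = K * 𝔼 ω, U ω * ∑ C ∈ (orbs (γ * β ω)).filter
            (fun C => C ⊆ T ∧ Disjoint C A ∧ C.card = l),
            Real.exp ((hl (A ∪ C).card - ee (E ω) (A ∪ C)) / l) := by
          rw [← mul_sum, ← expect_sum_comm]
          congr 1
          refine expect_congr rfl fun ω _ => ?_
          rw [hsplit, mul_sum]
          exact sum_congr rfl fun C _ => by ring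
      _ ≤ K * 𝔼 ω, (Real.exp (hl (i + 1) - hl i) / m) *
            ((U ω * Real.exp ((hl A.card - ee (E ω) A) / l')) *
            ∑ C ∈ (orbs (γ * β ω)).filter (fun C => C ⊆ T ∧ Disjoint C A ∧ C.card = l),
              ∑ y ∈ C, agr β ω ((A ∪ C).erase y) / agr β ω (A ∪ C)) := by
          refine mul_le_mul_of_nonneg_left (expect_le_expect fun ω _ => ?_) hK0
          rw [mul_sum, mul_sum, mul_sum]
          refine sum_le_sum fun C hC => ?_
          rw [mem_filter] at hC
          have h1 := closer_pointwise (hsymm ω) (hdiag ω) (hiso ω) hC.2.2.1 hl' hll hC.2.2.2 hA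
          have h2 : ∑ y ∈ C, agr β ω ((A ∪ C).erase y) / agr β ω (A ∪ C) =
              m * ∑ y ∈ C, Real.exp (ee (E ω) ((A ∪ C).erase y) - ee (E ω) (A ∪ C)) := by
            rw [mul_sum]
            refine sum_congr rfl fun y hy => ?_
            have hy' := mem_union_right A hy
            rw [hq, hq, ← card_erase_add_one hy', Real.exp_sub, pow_succ]
            field_simp
          rw [h2]
          calc _ ≤ U ω * (Real.exp ((hl A.card - ee (E ω) A) / l') *
                Real.exp (hl (i + 1) - hl i) *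
                ∑ y ∈ C, Real.exp (ee (E ω) ((A ∪ C).erase y) - ee (E ω) (A ∪ C))) :=
                mul_le_mul_of_nonneg_left h1 (hU0 ω)
            _ = _ := by field_simp
      _ ≤ K * ((Real.exp (hl (i + 1) - hl i) / m) *
            (T.card * 𝔼 ω, U ω * Real.exp ((hl A.card - ee (E ω) A) / l'))) := by
          rw [← mul_expect]
          refine mul_le_mul_of_nonneg_left (mul_le_mul_of_nonneg_left ?_ (by positivity)) hK0
          refine one_step β γ A _ (fun ω => mul_nonneg (hU0 ω) (by positivity)) ?_ T l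
          intro ω ω' h
          rw [hU ω ω' h, hee ω ω' h]
      _ = _ := by
          rw [hK, List.length_cons, show i + (ls.length + 1) = i + 1 + ls.length by ring]
          push_cast
          have : Real.exp (hl (i + 1 + ls.length) - hl i) =
              Real.exp (hl (i + 1 + ls.length) - hl (i + 1)) * Real.exp (hl (i + 1) - hl i) := by
            rw [← Real.exp_add]; congr 1; ring
          rw [this]; ring

end

/-- The closers lemma. -/
theorem closers {Ω X : Type} [Fintype Ω] [Nonempty Ω] [Fintype X] [DecidableEq X]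
    (β : Ω → Perm X) (m : ℝ) (hm : 0 < m) (E : Ω → X → X → ℝ)
    (hsymm : ∀ ω x y, E ω x y = E ω y x) (hdiag : ∀ ω x, E ω x x = 0)
    (hq : ∀ ω A, agr β ω A = Real.exp (ee (E ω) A) / m ^ A.card)
    (hiso : ∀ ω A, ee (E ω) A ≤ A.card / 2 * Real.log A.card)
    (γ : Perm X) (T : Finset X) (a : ℕ → ℝ) (ha : ∀ l, 0 ≤ a l) (μ : ℝ)
    (hμ : ∑ l ∈ Icc 1 (Fintype.card X), a l ≤ μ) :
    𝔼 ω, ∏ C ∈ (orbs (γ * β ω)).filter (· ⊆ T), (1 + a C.card)
      ≤ Real.exp (T.card * μ / m + 3 / 2 * (T.card * μ / m) ^ 2) := by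
  have hμ0 : 0 ≤ μ := (sum_nonneg fun l _ => ha l).trans hμ
  have hlist : ∀ ls : List ℕ, (∀ l ∈ ls, l ∈ Icc 1 (Fintype.card X)) →
      𝔼 ω, cntH (γ * β ω) T ls ∅ ≤ (T.card / m) ^ ls.length * Real.exp (hl ls.length) := by
    intro ls hls
    have hp : (ls.insertionSort (· ≤ ·)).Perm ls := List.perm_insertionSort _ _
    have := closers_sorted β m hm E hsymm hdiag hq hiso γ T (ls.insertionSort (· ≤ ·))
      (List.pairwise_insertionSort _ _) 1 le_rfl
      (fun l hl => (mem_Icc.1 (hls l (hp.subset hl))).1) 0 ∅ (by simp) (fun _ => 1)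
      (fun _ => zero_le_one) (fun _ _ _ => rfl)
    simp only [cntH_perm _ T hp, one_mul, hp.length_eq, zero_add] at this
    simpa [hl, ee, Fintype.expect_const] using this
  set M := Fintype.card (Finset X) + 1
  calc 𝔼 ω, ∏ C ∈ (orbs (γ * β ω)).filter (· ⊆ T), (1 + a C.card)
      ≤ 𝔼 ω, ∑ c ∈ range M, sumL (Icc 1 (Fintype.card X)) a c
          (fun ls => cntH (γ * β ω) T ls ∅) / c.factorial := by
        refine expect_le_expect fun ω _ => ?_
        have := prod_one_add_le_ordSel (fun C : Finset X => a C.card) (fun C => ha _)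
          ((orbs (γ * β ω)).filter (· ⊆ T)) (M := M) (Nat.lt_succ_of_le (card_le_univ _))
        refine this.trans (le_of_eq (sum_congr rfl fun c _ => ?_))
        rw [← ordSel_eq_sumL]
        simp
    _ ≤ ∑ c ∈ range M, (T.card * μ / m) ^ c * Real.exp (hl c) / c.factorial := by
        rw [expect_sum_comm]
        refine sum_le_sum fun c _ => ?_
        rw [← expect_div, sumL_expect]
        refine div_le_div_of_nonneg_right ?_ (by positivity)
        refine (sumL_le _ a ha hμ c _ (B := (T.card / m) ^ c * Real.exp (hl c)) (by positivity)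
          fun ls h1 h2 => h1 ▸ hlist ls h2).trans (le_of_eq ?_)
        rw [← mul_assoc, ← mul_pow]; congr 2; ring
    _ ≤ _ := series_le (by positivity) M

end Crest.Agent.R155
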