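import Crest.Agent.R155.Cycles

/-!
# Row 155: auxiliary facts for the closers lemma (orbits, series, convexity)
-/

set_option autoImplicit false

open Finset Equiv
open scoped BigOperators

namespace Crest.Agent.R155

section Orbits
variable {X : Type} [Fintype X] [DecidableEq X]

lemma orb_eq_image (σ : Perm X) (x : X) :
    orb σ x = (range (Function.minimalPeriod σ x)).image (fun t => (σ ^ t) x) := by
  ext y
  simp only [mem_image, mem_range]
  constructor
  · intro hy
    obtain ⟨t, rfl⟩ := exists_pow_of_mem_orb hy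
    have hpos : 0 < Function.minimalPeriod σ x :=
      Function.minimalPeriod_pos_of_mem_periodicPts (σ.injective.mem_periodicPts x)
    refine ⟨t % Function.minimalPeriod σ x, Nat.mod_lt _ hpos, ?_⟩
    have := Function.iterate_mod_minimalPeriod_eq (f := σ) (x := x) (n := t)
    rwa [Perm.iterate_eq_pow, Perm.iterate_eq_pow] at this
  · rintro ⟨t, _, rfl⟩; exact pow_apply_mem_orb σ x t

lemma card_orb (σ : Perm X) (x : X) : (orb σ x).card = Function.minimalPeriod σ x := by
  rw [orb_eq_image, card_image_of_injOn, card_range]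
  intro s hs t ht h
  simp only [coe_range, Set.mem_Iio] at hs ht
  refine Function.iterate_injOn_Iio_minimalPeriod (f := σ) (x := x) hs ht ?_
  simpa [Perm.iterate_eq_pow] using h

lemma pow_card_orb (σ : Perm X) (x : X) : (σ ^ (orb σ x).card) x = x := by
  rw [card_orb]
  have := Function.isPeriodicPt_minimalPeriod σ x
  rwa [Function.IsPeriodicPt, Function.IsFixedPt, Perm.iterate_eq_pow] at this

lemma pow_ne_of_lt_card_orb (σ : Perm X) (x : X) {t : ℕ} (h0 : 0 < t) (ht : t < (orb σ x).card) :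
    (σ ^ t) x ≠ x := by
  intro h
  rw [card_orb] at ht
  have : Function.IsPeriodicPt σ t x := by
    simpa [Function.IsPeriodicPt, Function.IsFixedPt, Perm.iterate_eq_pow] using h
  exact absurd (this.minimalPeriod_le h0) (not_le.2 ht)

lemma pow_eq_of_agree {σ σ' : Perm X} {x : X}
    (h : ∀ z ∈ (orb σ x).erase (σ⁻¹ x), σ' z = σ z) :
    ∀ t, t < (orb σ x).card → (σ' ^ t) x = (σ ^ t) x := by
  intro t
  induction t with
  | zero => simp
  | succ t ih =>
    intro ht
    rw [pow_succ', pow_succ', Perm.mul_apply, Perm.mul_apply, ih (by omega)]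
    refine h _ (mem_erase.2 ⟨fun he => ?_, pow_apply_mem_orb σ x t⟩)
    refine pow_ne_of_lt_card_orb σ x (Nat.succ_pos t) ht ?_
    rw [pow_succ', Perm.mul_apply, he]; simp

/-- two permutations with cycles of the same length through `x` which agree with a third one
away from the closers have the same cycle -/
lemma orb_match {σ₀ σ₁ σ' : Perm X} {x : X} (hc : (orb σ₀ x).card = (orb σ₁ x).card)
    (h0 : ∀ z ∈ (orb σ₀ x).erase (σ₀⁻¹ x), σ' z = σ₀ z)
    (h1 : ∀ z ∈ (orb σ₁ x).erase (σ₁⁻¹ x), σ' z = σ₁ z) :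
    orb σ₁ x = orb σ₀ x ∧ ∀ z ∈ orb σ₀ x, σ₁ z = σ₀ z := by
  have e : ∀ t, t < (orb σ₀ x).card → (σ₁ ^ t) x = (σ₀ ^ t) x := fun t ht => by
    rw [← pow_eq_of_agree h0 t ht, ← pow_eq_of_agree h1 t (hc ▸ ht)]
  constructor
  · rw [orb_eq_image σ₁, orb_eq_image σ₀, ← card_orb, ← card_orb, ← hc]
    exact image_congr fun t ht => e t (by simpa using ht)
  · intro z hz
    rw [orb_eq_image, ← card_orb] at hz
    obtain ⟨t, ht, rfl⟩ := mem_image.1 hz
    rw [mem_range] at ht
    rcases Nat.lt_or_ge (t + 1) (orb σ₀ x).card with h | h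
    · have := e (t + 1) h
      rwa [pow_succ', pow_succ', Perm.mul_apply, Perm.mul_apply, e t ht] at this
    · have ht' : t + 1 = (orb σ₀ x).card := by omega
      have a0 := pow_card_orb σ₀ x
      have a1 := pow_card_orb σ₁ x
      rw [← hc, ← ht', pow_succ', Perm.mul_apply, e t ht] at a1
      rw [← ht', pow_succ', Perm.mul_apply] at a0
      rw [a0, a1]

lemma mem_orbs_of_agree {σ σ' : Perm X} {C : Finset X} (hC : C ∈ orbs σ)
    (h : ∀ z ∈ C, σ' z = σ z) : C ∈ orbs σ' := by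
  obtain ⟨x, rfl⟩ := mem_orbs.1 hC
  refine mem_orbs.2 ⟨x, Subset.antisymm ?_ ?_⟩
  · refine orb_subset (fun y hy => ?_) (self_mem_orb σ x)
    rw [h y hy, ← orb_eq_of_mem hy]; exact apply_mem_orb σ y
  · intro y hy
    obtain ⟨t, rfl⟩ := exists_pow_of_mem_orb hy
    have : ∀ t : ℕ, (σ' ^ t) x = (σ ^ t) x := by
      intro t
      induction t with
      | zero => simp
      | succ t ih =>
        rw [pow_succ', pow_succ', Perm.mul_apply, Perm.mul_apply, ih,
          h _ (pow_apply_mem_orb σ x t)]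
    rw [← this]; exact pow_apply_mem_orb σ' x t

/-- reindex a sum over closers by the starting points -/
lemma sum_closers_le (σ : Perm X) (T : Finset X) (p : Finset X → Prop) [DecidablePred p]
    (hp : ∀ C, p C → C ⊆ T) (f : Finset X → X → ℝ) (hf : ∀ C y, 0 ≤ f C y) :
    ∑ C ∈ (orbs σ).filter p, ∑ y ∈ C, f C y ≤
      ∑ x ∈ T, ind (p (orb σ x)) * f (orb σ x) (σ⁻¹ x) := by
  have h1 : ∀ C ∈ (orbs σ).filter p, ∑ y ∈ C, f C y =
      ∑ x ∈ C, ind (p (orb σ x)) * f (orb σ x) (σ⁻¹ x) := by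
    intro C hC
    rw [mem_filter] at hC
    refine sum_nbij' (fun y => σ y) (fun x => σ⁻¹ x) ?_ ?_ ?_ ?_ ?_
    · intro y hy
      rw [← eq_orb_of_mem hC.1 hy]; exact apply_mem_orb σ y
    · intro y hy
      rw [← eq_orb_of_mem hC.1 hy]; exact inv_apply_mem_orb σ y
    · intro y _; simp
    · intro y _; simp
    · intro y hy
      have : σ y ∈ C := by rw [← eq_orb_of_mem hC.1 hy]; exact apply_mem_orb σ y
      rw [eq_orb_of_mem hC.1 this, ind_pos hC.2]; simp
  rw [sum_congr rfl h1, ← sum_biUnion (t := fun C => C)]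
  · refine sum_le_sum_of_subset_of_nonneg (biUnion_subset.2 fun C hC => hp C (mem_filter.1 hC).2)
      fun x _ _ => mul_nonneg (ind_nonneg _) (hf _ _)
  · intro C hC C' hC' h
    exact disjoint_of_mem_orbs (mem_filter.1 hC).1 (mem_filter.1 hC').1 h

omit [Fintype X] in
lemma ee_sub_erase {E : X → X → ℝ} (hs : ∀ x y, E x y = E y x) (hd : ∀ x, E x x = 0)
    {F : Finset X} {y : X} (hy : y ∈ F) : ee E F - ee E (F.erase y) = ∑ z ∈ F, E y z := by
  unfold ee
  rw [← add_sum_erase F _ hy]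
  have h1 : ∑ x ∈ F.erase y, ∑ z ∈ F, E x z =
      ∑ x ∈ F.erase y, E x y + ∑ x ∈ F.erase y, ∑ z ∈ F.erase y, E x z := by
    rw [← sum_add_distrib]
    exact sum_congr rfl fun x _ => (add_sum_erase F _ hy).symm
  have h2 : ∑ x ∈ F.erase y, E x y = ∑ z ∈ F, E y z := by
    rw [← add_sum_erase F _ hy, hd, zero_add]
    exact sum_congr rfl fun x _ => hs x y
  rw [h1, h2]; ring

omit [Fintype X] in
lemma sum_deg_eq {E : X → X → ℝ} (hs : ∀ x y, E x y = E y x) {A C : Finset X}
    (h : Disjoint C A) :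
    ∑ y ∈ C, ∑ z ∈ A ∪ C, E y z = ee E (A ∪ C) - ee E A + ee E C := by
  unfold ee
  simp only [sum_union h.symm, sum_add_distrib]
  have : ∑ x ∈ A, ∑ y ∈ C, E x y = ∑ y ∈ C, ∑ x ∈ A, E y x := by
    rw [sum_comm]; exact sum_congr rfl fun y _ => sum_congr rfl fun x _ => hs x y
  rw [this]; ring

end Orbits

/-- `x/2 * log x` -/
noncomputable def hl (x : ℝ) : ℝ := x / 2 * Real.log x

lemma hl_incr {a b c : ℝ} (ha : 0 ≤ a) (hab : a ≤ b) (hc : 0 ≤ c) :
    hl (a + c) - hl a ≤ hl (b + c) - hl b := by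
  rcases eq_or_lt_of_le hc with rfl | hc'
  · simp
  have hpos : 0 < b + c - a := by linarith
  set l := c / (b + c - a) with hl'
  have hl0 : 0 ≤ l := by positivity
  have hl1 : 0 ≤ 1 - l := by
    rw [hl', sub_nonneg, div_le_one hpos]; linarith
  have hlc : l * (b + c - a) = c := by rw [hl']; field_simp
  have h1 := Real.convexOn_mul_log.2 (show a ∈ Set.Ici (0:ℝ) from ha)
    (show b + c ∈ Set.Ici (0:ℝ) by simp only [Set.mem_Ici]; linarith) hl1 hl0 (by ring)
  have h2 := Real.convexOn_mul_log.2 (show a ∈ Set.Ici (0:ℝ) from ha)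
    (show b + c ∈ Set.Ici (0:ℝ) by simp only [Set.mem_Ici]; linarith) hl0 hl1 (by ring)
  simp only [smul_eq_mul] at h1 h2
  have e1 : (1 - l) * a + l * (b + c) = a + c := by linarith
  have e2 : l * a + (1 - l) * (b + c) = b := by linarith
  rw [e1] at h1; rw [e2] at h2
  unfold hl
  nlinarith

lemma hl_mul {i l : ℝ} (hi : 0 ≤ i) (hl0 : 0 < l) : hl (i * l) = l * (hl i + i / 2 * Real.log l) := by
  unfold hl
  rcases eq_or_lt_of_le hi with rfl | hi'
  · simp
  · rw [Real.log_mul hi'.ne' hl0.ne']; ring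

lemma hl_step {L i l : ℝ} (hL : 0 ≤ L) (hi : 0 ≤ i) (hl0 : 0 < l) (h : L ≤ i * l) :
    hl (L + l) - hl L ≤ l * (Real.log l / 2 + (hl (i + 1) - hl i)) := by
  have h1 := hl_incr hL h hl0.le
  have h2 : i * l + l = (i + 1) * l := by ring
  rw [h2, hl_mul (by linarith) hl0, hl_mul hi hl0] at h1
  linarith

lemma even_coef (l : ℕ) :
    ((2 * l : ℕ) : ℝ) ^ l * l.factorial ≤ (3 / 2) ^ l * (2 * l).factorial := by
  induction l with
  | zero => simp
  | succ l ih =>
    rcases Nat.lt_or_ge l 5 with h | h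
    · interval_cases l <;> norm_num [Nat.factorial]
    have hl : (5 : ℝ) ≤ l := by exact_mod_cast h
    have h1 : (2 * (l : ℝ) + 2) ^ l ≤ 2.72 * (2 * l) ^ l := by
      have e1 : 2 * (l : ℝ) + 2 = (1 + 1 / l) * (2 * l) := by field_simp
      have e2 : (1 + 1 / (l : ℝ)) ^ l ≤ 2.72 := by
        calc (1 + 1 / (l : ℝ)) ^ l ≤ (Real.exp (1 / l)) ^ l := by
              gcongr; linarith [Real.add_one_le_exp (1 / (l : ℝ))]
          _ = Real.exp 1 := by rw [← Real.exp_nat_mul]; congr 1; field_simp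
          _ ≤ 2.72 := by linarith [Real.exp_one_lt_d9]
      rw [e1, mul_pow]; gcongr
    have e3 : 2 * (l + 1) = 2 * l + 1 + 1 := by ring
    rw [e3, Nat.factorial_succ, Nat.factorial_succ, Nat.factorial_succ]
    push_cast at ih ⊢
    have e4 : (2 * (l : ℝ) + 1 + 1) = 2 * l + 2 := by ring
    rw [e4, pow_succ, pow_succ]
    have hf : (0 : ℝ) < l.factorial := by exact_mod_cast l.factorial_pos
    have hp : (0 : ℝ) ≤ (2 * l) ^ l * l.factorial := by positivity
    calc (2 * (l : ℝ) + 2) ^ l * (2 * l + 2) * ((l + 1) * l.factorial)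
        ≤ 2.72 * (2 * l) ^ l * (2 * l + 2) * ((l + 1) * l.factorial) := by gcongr
      _ = (2.72 * (l + 1)) * (2 * l + 2) * ((2 * l) ^ l * l.factorial) := by ring
      _ ≤ (3 / 2 * (2 * l + 1)) * (2 * l + 2) * ((3 / 2) ^ l * (2 * l).factorial) := by
        have : 2.72 * ((l : ℝ) + 1) ≤ 3 / 2 * (2 * l + 1) := by linarith
        gcongr ?_ * _ * ?_
      _ = _ := by ring

lemma exp_hl_even (l : ℕ) : Real.exp (hl (2 * l : ℕ)) = ((2 * l : ℕ) : ℝ) ^ l := by
  rcases Nat.eq_zero_or_pos l with rfl | h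
  · simp [hl]
  have : (0 : ℝ) < (2 * l : ℕ) := by exact_mod_cast (by omega : 0 < 2 * l)
  have e : hl (2 * l : ℕ) = l * Real.log (2 * l : ℕ) := by unfold hl; push_cast; ring
  rw [e, Real.exp_nat_mul, Real.exp_log this]

lemma exp_hl_odd (l : ℕ) :
    Real.exp (hl (2 * l + 1 : ℕ)) ≤ ((2 * l : ℕ) : ℝ) ^ l * (2 * l + 1) := by
  rcases Nat.eq_zero_or_pos l with rfl | h
  · simp [hl]
  have hl1 : (1 : ℝ) ≤ l := by exact_mod_cast h
  have hp : (0 : ℝ) < 2 * l + 1 := by positivity
  have hp' : (0 : ℝ) < 2 * l := by positivity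
  have h1 : Real.log (2 * l + 1) ≤ Real.log (2 * l) + 1 / (2 * l) := by
    have : (2 * (l : ℝ) + 1) = (2 * l) * (1 + 1 / (2 * l)) := by field_simp
    rw [this, Real.log_mul hp'.ne' (by positivity)]
    have := Real.log_le_sub_one_of_pos (show (0 : ℝ) < 1 + 1 / (2 * l) by positivity)
    linarith
  have h2 : 1 ≤ Real.log (2 * l + 1) := by
    rw [Real.le_log_iff_exp_le hp]; linarith [Real.exp_one_lt_d9]
  have h3 : hl (2 * l + 1 : ℕ) ≤ l * Real.log (2 * l) + Real.log (2 * l + 1) := by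
    unfold hl; push_cast
    have : (l : ℝ) * Real.log (2 * l + 1) ≤ l * (Real.log (2 * l) + 1 / (2 * l)) := by gcongr
    have e : (l : ℝ) * (1 / (2 * l)) = 1 / 2 := by field_simp
    nlinarith
  refine (Real.exp_le_exp.2 h3).trans (le_of_eq ?_)
  rw [Real.exp_add, Real.exp_nat_mul, Real.exp_log hp, Real.exp_log hp']; push_cast; ring

lemma series_le {x : ℝ} (hx : 0 ≤ x) (M : ℕ) :
    ∑ c ∈ range M, x ^ c * Real.exp (hl c) / c.factorial ≤ Real.exp (x + 3 / 2 * x ^ 2) := by
  have h1 : ∀ M : ℕ, ∑ c ∈ range (2 * M), x ^ c * Real.exp (hl c) / c.factorial ≤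
      (1 + x) * ∑ l ∈ range M, (3 / 2 * x ^ 2) ^ l / l.factorial := by
    intro M
    induction M with
    | zero => simp
    | succ M ih =>
      rw [show 2 * (M + 1) = 2 * M + 1 + 1 by ring, sum_range_succ, sum_range_succ,
        sum_range_succ, mul_add]
      have hf : (0 : ℝ) < M.factorial := by exact_mod_cast M.factorial_pos
      have hf2 : (0 : ℝ) < (2 * M).factorial := by exact_mod_cast (2 * M).factorial_pos
      have hc : ((2 * M : ℕ) : ℝ) ^ M / (2 * M).factorial ≤ (3 / 2) ^ M / M.factorial := by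
        rw [div_le_div_iff₀ hf2 hf]; exact even_coef M
      have a1 : x ^ (2 * M) * Real.exp (hl (2 * M : ℕ)) / (2 * M).factorial ≤
          (3 / 2 * x ^ 2) ^ M / M.factorial := by
        rw [exp_hl_even, mul_div_assoc, mul_pow, ← pow_mul, mul_comm ((3 / 2 : ℝ) ^ M),
          mul_div_assoc]
        gcongr
      have a2 : x ^ (2 * M + 1) * Real.exp (hl (2 * M + 1 : ℕ)) / (2 * M + 1).factorial ≤
          x * ((3 / 2 * x ^ 2) ^ M / M.factorial) := by
        have : Real.exp (hl (2 * M + 1 : ℕ)) / (2 * M + 1).factorial ≤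
            (3 / 2) ^ M / M.factorial := by
          refine le_trans ?_ hc
          rw [Nat.factorial_succ]; push_cast
          rw [div_le_div_iff₀ (by positivity) hf2]
          have := exp_hl_odd M
          push_cast at this
          nlinarith
        calc x ^ (2 * M + 1) * Real.exp (hl (2 * M + 1 : ℕ)) / (2 * M + 1).factorial
            = x ^ (2 * M + 1) * (Real.exp (hl (2 * M + 1 : ℕ)) / (2 * M + 1).factorial) := by ring
          _ ≤ x ^ (2 * M + 1) * ((3 / 2) ^ M / M.factorial) := by gcongr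
          _ = _ := by rw [mul_pow, ← pow_mul]; ring
      linarith
  calc ∑ c ∈ range M, x ^ c * Real.exp (hl c) / c.factorial
      ≤ ∑ c ∈ range (2 * M), x ^ c * Real.exp (hl c) / c.factorial :=
        sum_le_sum_of_subset_of_nonneg (range_subset_range.2 (by omega)) fun _ _ _ => by positivity
    _ ≤ (1 + x) * ∑ l ∈ range M, (3 / 2 * x ^ 2) ^ l / l.factorial := h1 M
    _ ≤ Real.exp x * Real.exp (3 / 2 * x ^ 2) := by
        gcongr
        · linarith [Real.add_one_le_exp x]
        · exact Real.sum_le_exp_of_nonneg (by positivity) M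
    _ = _ := by rw [Real.exp_add]

/-- ordered selections of `c` distinct elements -/
noncomputable def ordSel {ι : Type} [DecidableEq ι] (w : ι → ℝ) : ℕ → Finset ι → ℝ
  | 0, _ => 1
  | c + 1, s => ∑ x ∈ s, w x * ordSel w c (s.erase x)

lemma ordSel_eq {ι : Type} [DecidableEq ι] (w : ι → ℝ) (c : ℕ) (s : Finset ι) :
    ordSel w c s = c.factorial * ∑ t ∈ powersetCard c s, ∏ x ∈ t, w x := by
  induction c generalizing s with
  | zero => simp [ordSel]
  | succ c ih =>
    simp only [ordSel, ih]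
    have h : ∑ x ∈ s, w x * ∑ t ∈ powersetCard c (s.erase x), ∏ y ∈ t, w y =
        ∑ t ∈ powersetCard (c + 1) s, ∑ _x ∈ t, ∏ y ∈ t, w y := by
      simp only [mul_sum]
      rw [sum_sigma', sum_sigma']
      refine sum_nbij' (fun p => ⟨insert p.1 p.2, p.1⟩) (fun p => ⟨p.2, p.1.erase p.2⟩)
        ?_ ?_ ?_ ?_ ?_
      · rintro ⟨x, t⟩ h
        simp only [mem_sigma, mem_powersetCard, subset_erase] at h ⊢
        exact ⟨⟨insert_subset h.1 h.2.1.1, by rw [card_insert_of_notMem h.2.1.2, h.2.2]⟩,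
          mem_insert_self _ _⟩
      · rintro ⟨t, x⟩ h
        simp only [mem_sigma, mem_powersetCard] at h ⊢
        exact ⟨h.1.1 h.2, erase_subset_erase _ h.1.1, by rw [card_erase_of_mem h.2, h.1.2]; rfl⟩
      · rintro ⟨x, t⟩ h
        simp only [mem_sigma, mem_powersetCard, subset_erase] at h
        simp [erase_insert h.2.1.2]
      · rintro ⟨t, x⟩ h
        simp only [mem_sigma, mem_powersetCard] at h
        simp [insert_erase h.2]
      · rintro ⟨x, t⟩ h
        simp only [mem_sigma, mem_powersetCard, subset_erase] at h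
        simp [prod_insert h.2.1.2]
    have h2 : ∑ t ∈ powersetCard (c + 1) s, ∑ _x ∈ t, ∏ y ∈ t, w y =
        (c + 1) * ∑ t ∈ powersetCard (c + 1) s, ∏ y ∈ t, w y := by
      rw [mul_sum]
      refine sum_congr rfl fun t ht => ?_
      rw [sum_const, (mem_powersetCard.1 ht).2]; simp
    calc ∑ x ∈ s, w x * (c.factorial * ∑ t ∈ powersetCard c (s.erase x), ∏ y ∈ t, w y)
        = c.factorial * ∑ x ∈ s, w x * ∑ t ∈ powersetCard c (s.erase x), ∏ y ∈ t, w y := by
          rw [mul_sum]; exact sum_congr rfl fun _ _ => by ring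
      _ = _ := by rw [h, h2, Nat.factorial_succ]; push_cast; ring

lemma prod_one_add_le_ordSel {ι : Type} [DecidableEq ι] (w : ι → ℝ) (hw : ∀ x, 0 ≤ w x)
    (s : Finset ι) {M : ℕ} (hM : s.card < M) :
    ∏ x ∈ s, (1 + w x) ≤ ∑ c ∈ range M, ordSel w c s / c.factorial := by
  rw [prod_one_add, sum_powerset]
  have : ∀ c : ℕ, ordSel w c s / c.factorial = ∑ t ∈ powersetCard c s, ∏ x ∈ t, w x := by
    intro c
    have hf : (0 : ℝ) < c.factorial := by exact_mod_cast c.factorial_pos
    rw [ordSel_eq]; field_simp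
  simp only [this]
  exact sum_le_sum_of_subset_of_nonneg (range_subset_range.2 (by omega))
    fun _ _ _ => sum_nonneg fun t _ => prod_nonneg fun x _ => hw x

/-- weighted sum over all lists of length `c` with entries in `I` -/
noncomputable def sumL (I : Finset ℕ) (a : ℕ → ℝ) : ℕ → (List ℕ → ℝ) → ℝ
  | 0, F => F []
  | c + 1, F => ∑ l ∈ I, a l * sumL I a c (fun ls => F (l :: ls))

lemma sumL_sum {κ : Type} (I : Finset ℕ) (a : ℕ → ℝ) (c : ℕ) (s : Finset κ)
    (F : κ → List ℕ → ℝ) :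
    sumL I a c (fun ls => ∑ k ∈ s, F k ls) = ∑ k ∈ s, sumL I a c (F k) := by
  induction c generalizing F with
  | zero => rfl
  | succ c ih =>
    simp only [sumL, ih, mul_sum]
    exact sum_comm

lemma sumL_expect {Ω : Type} [Fintype Ω] (I : Finset ℕ) (a : ℕ → ℝ) (c : ℕ)
    (F : Ω → List ℕ → ℝ) :
    𝔼 ω, sumL I a c (F ω) = sumL I a c (fun ls => 𝔼 ω, F ω ls) := by
  induction c generalizing F with
  | zero => rfl
  | succ c ih =>
    simp only [sumL]
    rw [expect_sum_comm]
    refine sum_congr rfl fun l _ => ?_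
    rw [← mul_expect, ih]

lemma sumL_le (I : Finset ℕ) (a : ℕ → ℝ) (ha : ∀ l, 0 ≤ a l) {μ : ℝ} (hμ : ∑ l ∈ I, a l ≤ μ)
    (c : ℕ) (F : List ℕ → ℝ) {B : ℝ} (hB : 0 ≤ B)
    (hF : ∀ ls : List ℕ, ls.length = c → (∀ l ∈ ls, l ∈ I) → F ls ≤ B) :
    sumL I a c F ≤ μ ^ c * B := by
  have hμ0 : 0 ≤ μ := (sum_nonneg fun l _ => ha l).trans hμ
  induction c generalizing F with
  | zero => simpa [sumL] using hF [] rfl (by simp)
  | succ c ih =>
    simp only [sumL]
    calc ∑ l ∈ I, a l * sumL I a c (fun ls => F (l :: ls)) ≤ ∑ l ∈ I, a l * (μ ^ c * B) := by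
          refine sum_le_sum fun l hl => mul_le_mul_of_nonneg_left (ih _ fun ls h1 h2 => ?_) (ha l)
          exact hF _ (by simp [h1]) (by
            intro l' hl'
            rcases List.mem_cons.1 hl' with rfl | h
            · exact hl
            · exact h2 _ h)
      _ = (∑ l ∈ I, a l) * (μ ^ c * B) := by rw [sum_mul]
      _ ≤ μ * (μ ^ c * B) := by gcongr
      _ = _ := by ring

end Crest.Agent.R155
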