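import Crest.Agent.R155.Defs

/-!
# Row 155: elementary facts on `orb`, `orbs`, `cyc`
-/

set_option autoImplicit false

open Finset Equiv
open scoped BigOperators

namespace Crest.Agent.R155

variable {X : Type} [Fintype X] [DecidableEq X]

@[simp] lemma mem_orb {σ : Perm X} {x y : X} : y ∈ orb σ x ↔ σ.SameCycle x y := by simp [orb]

lemma self_mem_orb (σ : Perm X) (x : X) : x ∈ orb σ x := mem_orb.2 (Perm.SameCycle.refl σ x)

lemma orb_eq_of_mem {σ : Perm X} {x y : X} (h : y ∈ orb σ x) : orb σ y = orb σ x := by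
  ext z; rw [mem_orb] at h
  simp only [mem_orb]
  exact ⟨fun hz => h.trans hz, fun hz => h.symm.trans hz⟩

lemma orb_mem_orbs (σ : Perm X) (x : X) : orb σ x ∈ orbs σ := mem_image_of_mem _ (mem_univ x)

lemma mem_orbs {σ : Perm X} {C : Finset X} : C ∈ orbs σ ↔ ∃ x, orb σ x = C := by simp [orbs]

lemma eq_orb_of_mem {σ : Perm X} {C : Finset X} (hC : C ∈ orbs σ) {x : X} (hx : x ∈ C) :
    orb σ x = C := by
  obtain ⟨y, rfl⟩ := mem_orbs.1 hC
  exact orb_eq_of_mem hx

lemma nonempty_of_mem_orbs {σ : Perm X} {C : Finset X} (hC : C ∈ orbs σ) : C.Nonempty := by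
  obtain ⟨y, rfl⟩ := mem_orbs.1 hC
  exact ⟨y, self_mem_orb σ y⟩

lemma disjoint_of_mem_orbs {σ : Perm X} {C C' : Finset X} (hC : C ∈ orbs σ) (hC' : C' ∈ orbs σ)
    (h : C ≠ C') : Disjoint C C' := by
  rw [disjoint_left]
  intro x hx hx'
  exact h ((eq_orb_of_mem hC hx).symm.trans (eq_orb_of_mem hC' hx'))

lemma apply_mem_orb (σ : Perm X) (x : X) : σ x ∈ orb σ x := by
  rw [mem_orb]; exact ⟨1, by simp⟩

lemma inv_apply_mem_orb (σ : Perm X) (x : X) : σ⁻¹ x ∈ orb σ x := by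
  rw [mem_orb]; exact ⟨-1, by simp⟩

lemma pow_apply_mem_orb (σ : Perm X) (x : X) (t : ℕ) : (σ ^ t) x ∈ orb σ x := by
  rw [mem_orb]; exact ⟨t, by simp⟩

lemma exists_pow_of_mem_orb {σ : Perm X} {x y : X} (h : y ∈ orb σ x) :
    ∃ t : ℕ, (σ ^ t) x = y := by
  obtain ⟨t, _, ht⟩ := (mem_orb.1 h).exists_pow_eq'
  exact ⟨t, ht⟩

/-- a set mapped into itself contains the orbits of its points -/
lemma orb_subset {σ : Perm X} {T : Finset X} (hT : ∀ y ∈ T, σ y ∈ T) {x : X} (hx : x ∈ T) :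
    orb σ x ⊆ T := by
  intro y hy
  obtain ⟨t, rfl⟩ := exists_pow_of_mem_orb hy
  clear hy
  induction t with
  | zero => simpa
  | succ t ih => rw [pow_succ', Perm.mul_apply]; exact hT _ ih

lemma cyc_mono (σ : Perm X) {T T' : Finset X} (h : T ⊆ T') : cyc σ T ≤ cyc σ T' :=
  card_le_card fun C hC => by
    rw [mem_filter] at hC ⊢
    exact ⟨hC.1, hC.2.trans h⟩

lemma cyc_erase_lt (σ : Perm X) {T : Finset X} {x : X} (h : orb σ x ⊆ T) :
    cyc σ (T.erase x) + 1 ≤ cyc σ T := by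
  refine card_lt_card ⟨fun C hC => ?_, fun hsub => ?_⟩
  · rw [mem_filter] at hC ⊢
    exact ⟨hC.1, hC.2.trans (erase_subset _ _)⟩
  · have := hsub (mem_filter.2 ⟨orb_mem_orbs σ x, h⟩)
    rw [mem_filter] at this
    simpa using this.2 (self_mem_orb σ x)

lemma sum_card_orbs_le (σ : Perm X) (T : Finset X) :
    ∑ C ∈ (orbs σ).filter (· ⊆ T), C.card ≤ T.card := by
  rw [← card_biUnion]
  · exact card_le_card (biUnion_subset.2 fun C hC => (mem_filter.1 hC).2)
  · intro C hC C' hC' h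
    exact disjoint_of_mem_orbs (mem_filter.1 hC).1 (mem_filter.1 hC').1 h

lemma orb_one (x : X) : orb (1 : Perm X) x = {x} := by
  ext y; simp [eq_comm]

lemma cyc_one (T : Finset X) : cyc (1 : Perm X) T = T.card := by
  have : (orbs (1 : Perm X)).filter (· ⊆ T) = T.image (fun x => ({x} : Finset X)) := by
    ext C
    simp only [mem_filter, mem_orbs, orb_one, mem_image]
    constructor
    · rintro ⟨⟨x, rfl⟩, h⟩; exact ⟨x, by simpa using h, rfl⟩
    · rintro ⟨x, hx, rfl⟩; exact ⟨⟨x, rfl⟩, by simpa using hx⟩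
  rw [cyc, this, card_image_of_injective _ singleton_injective]

end Crest.Agent.R155
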