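import Crest.Agent.R155.Window

/-!
# Row 155: random tracked sets with the cylinder property
-/

set_option autoImplicit false

open Finset Equiv
open scoped BigOperators

namespace Crest.Agent.R155

lemma expect_bool (f : Bool → ℝ) : 𝔼 b, f b = (f false + f true) / 2 := by
  rw [Fintype.expect_eq_sum_div_card]; simp [add_comm]

lemma expect_pos_succ (D : ℕ) (g : Pos (D + 1) → ℝ) :
    𝔼 x, g x = ((𝔼 u : Pos D, g (false, u)) + 𝔼 u : Pos D, g (true, u)) / 2 := by
  have h : 𝔼 x, g x = 𝔼 x : Bool × Pos D, g x := rfl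
  rw [h, ← univ_product_univ, expect_product, expect_bool]

lemma prod_sd {P : Type} [Fintype P] [DecidableEq P] (c : P → Bool) (A : Finset (Bool × P))
    (f : Bool × P → ℝ) :
    ∏ x ∈ A, f x = (∏ u ∈ sd c false A, f (xor false (c u), u)) *
      ∏ u ∈ sd c true A, f (xor true (c u), u) := by
  have h1 : ∏ x ∈ A, f x = ∏ x : Bool × P, if x ∈ A then f x else 1 := by simp
  rw [h1, ← Equiv.prod_comp (sw c), Fintype.prod_prod_type, Fintype.prod_bool, mul_comm]
  simp only [sd, prod_filter, sw_apply]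

lemma expect_sides_le {P : Type} [Fintype P] [DecidableEq P] (B : Finset (Bool × P)) {a b : ℝ} :
    𝔼 c : P → Bool, a ^ (sd c false B).card * b ^ (sd c true B).card ≤
      ((a + b) / 2) ^ B.card ∨ a < 0 ∨ b < 0 := by
  rcases lt_or_ge a 0 with ha | ha
  · exact Or.inr (Or.inl ha)
  rcases lt_or_ge b 0 with hb | hb
  · exact Or.inr (Or.inr hb)
  left
  have h1 : ∀ (c : P → Bool) (a b : ℝ), a ^ (sd c false B).card * b ^ (sd c true B).card =
      ∏ u, (if (xor false (c u), u) ∈ B then a else 1) * (if (xor true (c u), u) ∈ B then b else 1) := by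
    intro c a b
    rw [prod_mul_distrib, ← prod_filter, ← prod_filter, prod_const, prod_const]
    rfl
  have h2 : ((a + b) / 2) ^ B.card = ∏ u, (if (false, u) ∈ B then (a + b) / 2 else 1) *
      (if (true, u) ∈ B then (a + b) / 2 else 1) := by
    rw [← card_sd_add (fun _ => false) B, pow_add, h1]; simp
  simp only [h1]
  rw [h2, expect_pi_prod (fun u e => (if (xor false e, u) ∈ B then a else 1) *
    (if (xor true e, u) ∈ B then b else 1))]
  refine prod_le_prod (fun u _ => expect_nonneg fun e _ => ?_) fun u _ => ?_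
  · split_ifs <;> positivity
  · rw [expect_bool]
    by_cases h0 : (false, u) ∈ B <;> by_cases h1 : (true, u) ∈ B <;> simp [h0, h1]
    · nlinarith [sq_nonneg (a - b)]
    · rw [add_comm]

/-- negative dependence of the images of distinct cards under a butterfly -/
lemma bf_prod_le (D : ℕ) (g : Pos D → ℝ) (hg : ∀ x, 0 ≤ g x) (B : Finset (Pos D)) :
    𝔼 ω : Bits D, ∏ b ∈ B, g (bf D ω b) ≤ (𝔼 u, g u) ^ B.card := by
  induction D with
  | zero =>
    have h : 𝔼 u, g u = g () := by
      have : 𝔼 u, g u = 𝔼 u : Unit, g u := rfl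
      rw [this]; simp
    rw [expect_bits_zero, h, ← prod_const]
    exact le_of_eq (prod_congr rfl fun _ _ => rfl)
  | succ D ih =>
    rw [expect_bits_succ, expect_pos_succ]
    have ha : 0 ≤ 𝔼 u : Pos D, g (false, u) := expect_nonneg fun _ _ => hg _
    have hb : 0 ≤ 𝔼 u : Pos D, g (true, u) := expect_nonneg fun _ _ => hg _
    have h := ((expect_sides_le (P := Pos D) B (a := 𝔼 u : Pos D, g (false, u))
      (b := 𝔼 u : Pos D, g (true, u))).resolve_right (by push Not; exact ⟨ha, hb⟩))
    refine le_trans (expect_le_expect fun c _ => ?_) h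
    have e : ∀ f0 f1 : Bits D, ∏ b ∈ B, g (bf (D + 1) (c, f0, f1) b) =
        (∏ u ∈ sd c false B, g (false, bf D f0 u)) * ∏ u ∈ sd c true B, g (true, bf D f1 u) := by
      intro f0 f1
      have := prod_sd c B (fun b => g (bf (D + 1) (c, f0, f1) b))
      refine Eq.trans this ?_
      have hh : ∀ (b : Bool) (u : Pos D),
          (par (bf D f0) (bf D f1) * sw c : Perm (Bool × Pos D)) (xor b (c u), u) =
            (b, (cond b (bf D f1) (bf D f0)) u) := by
        intro b u; simp
      congr 1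
      · exact prod_congr rfl fun u _ => congrArg g (hh false u)
      · exact prod_congr rfl fun u _ => congrArg g (hh true u)
    simp only [e]
    rw [← Fintype.expect_mul_expect]
    exact mul_le_mul (ih (fun u => g (false, u)) (fun _ => hg _) _)
      (ih (fun u => g (true, u)) (fun _ => hg _) _)
      (expect_nonneg fun _ _ => prod_nonneg fun _ _ => hg _) (pow_nonneg ha _)

/-- the image of a set under a random Benes permutation has the cylinder property -/
theorem cyl_ben (D : ℕ) (A : Finset (Pos D)) :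
    Cyl (fun p : Bits D × Bits D => A.image (ben D p.1 p.2)) ((A.card : ℝ) / 2 ^ D) := by
  intro B
  rw [← univ_product_univ, expect_product]
  refine expect_le univ_nonempty fun ω _ => ?_
  have h := bf_prod_le D (fun v => ind ((bf D ω)⁻¹ v ∈ A)) (fun _ => ind_nonneg _) B
  have e : 𝔼 v, ind ((bf D ω)⁻¹ v ∈ A) = (A.card : ℝ) / 2 ^ D := by
    rw [Fintype.expect_equiv (bf D ω)⁻¹ _ (fun u => ind (u ∈ A)) fun _ => rfl,
      Fintype.expect_eq_sum_div_card, card_pos]
    simp [ind_eq_ite]
  rw [e] at h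
  refine le_trans (le_of_eq (expect_congr rfl fun ω' _ => ?_)) h
  rw [← ind_forall_eq_prod]
  refine ind_congr (forall₂_congr fun b _ => ?_)
  simp only [mem_image, ben]
  constructor
  · rintro ⟨a, ha, rfl⟩; simpa using ha
  · intro h; exact ⟨_, h, by simp⟩

/-- `F` is dominated by a polynomial with non-negative coefficients of value `v` at density `x` -/
def Dom {X : Type} (x : ℝ) (F : Finset X → ℝ) (v : ℝ) : Prop :=
  ∃ (ι : Type) (_ : Fintype ι) (c : ι → ℝ) (B : ι → Finset X), (∀ i, 0 ≤ c i) ∧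
    (∀ A, F A ≤ ∑ i, c i * ind (B i ⊆ A)) ∧ ∑ i, c i * x ^ (B i).card ≤ v

lemma Dom.expect_le {Θ X : Type} [Fintype Θ] {S : Θ → Finset X} {x : ℝ} (hS : Cyl S x)
    {F : Finset X → ℝ} {v : ℝ} (h : Dom x F v) : 𝔼 θ, F (S θ) ≤ v := by
  obtain ⟨ι, _, c, B, hc, hF, hv⟩ := h
  refine (expect_le_expect fun θ _ => hF (S θ)).trans (le_trans ?_ hv)
  rw [expect_sum_comm]
  refine sum_le_sum fun i _ => ?_
  rw [← mul_expect]
  exact mul_le_mul_of_nonneg_left (hS _) (hc i)

lemma Dom.mono {X : Type} {x : ℝ} {F : Finset X → ℝ} {v v' : ℝ} (h : Dom x F v) (hv : v ≤ v') :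
    Dom x F v' := by
  obtain ⟨ι, _, c, B, hc, hF, h⟩ := h
  exact ⟨ι, inferInstance, c, B, hc, hF, h.trans hv⟩

lemma Dom.one {X : Type} (x : ℝ) : Dom x (fun _ : Finset X => 1) 1 :=
  ⟨Unit, inferInstance, fun _ => 1, fun _ => ∅, fun _ => zero_le_one,
    fun A => by simp [ind], by simp⟩

lemma Dom.mul_sd {P : Type} [Fintype P] [DecidableEq P] (e : P → Bool) {x : ℝ} (hx : 0 ≤ x)
    {F0 F1 : Finset P → ℝ} {v0 v1 : ℝ} (hF1 : ∀ A, 0 ≤ F1 A) (h0 : Dom x F0 v0)
    (h1 : Dom x F1 v1) : Dom x (fun A => F0 (sd e false A) * F1 (sd e true A)) (v0 * v1) := by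
  obtain ⟨ι, _, c, B, hc, hF, hv⟩ := h0
  obtain ⟨ι', _, c', B', hc', hF', hv'⟩ := h1
  have hinj : ∀ b : Bool, Function.Injective (fun u : P => (xor b (e u), u)) :=
    fun b u u' h => congrArg Prod.snd h
  refine ⟨ι × ι', inferInstance, fun p => c p.1 * c' p.2, fun p =>
    (B p.1).image (fun u => (xor false (e u), u)) ∪ (B' p.2).image (fun u => (xor true (e u), u)),
    fun p => mul_nonneg (hc _) (hc' _), fun A => ?_, ?_⟩
  · refine (mul_le_mul (hF _) (hF' _) (hF1 _) (sum_nonneg fun i _ =>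
      mul_nonneg (hc i) (ind_nonneg _))).trans (le_of_eq ?_)
    rw [sum_mul_sum, Fintype.sum_prod_type]
    refine sum_congr rfl fun i _ => sum_congr rfl fun i' _ => ?_
    rw [mul_mul_mul_comm, ← ind_and]
    congr 1
    refine ind_congr ?_
    rw [union_subset_iff, image_subset_iff, image_subset_iff]
    simp only [subset_iff, mem_sd]
  · refine le_trans (le_of_eq ?_) (mul_le_mul hv hv' (sum_nonneg fun i _ =>
      mul_nonneg (hc' i) (pow_nonneg hx _)) ((sum_nonneg fun i _ =>
      mul_nonneg (hc i) (pow_nonneg hx _)).trans hv))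
    rw [sum_mul_sum, Fintype.sum_prod_type]
    refine sum_congr rfl fun i _ => sum_congr rfl fun i' _ => ?_
    rw [card_union_of_disjoint, card_image_of_injective _ (hinj _),
      card_image_of_injective _ (hinj _), pow_add]
    · ring
    · rw [disjoint_left]
      intro z hz hz'
      obtain ⟨u, _, rfl⟩ := mem_image.1 hz
      obtain ⟨u', _, h⟩ := mem_image.1 hz'
      obtain rfl : u' = u := congrArg Prod.snd h
      simp at h

lemma Dom.cyc {P : Type} [Fintype P] [DecidableEq P] (σ g : Perm P) (x : ℝ) {t : ℝ}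
    (ht : 0 ≤ t) :
    Dom x (fun A : Finset (Bool × P) => Real.exp (t * cyc σ ((tp A).image g)))
      (∏ C ∈ orbs σ, (1 + (Real.exp t - 1) * (x ^ 2) ^ C.card)) := by
  have hz : 0 ≤ Real.exp t - 1 := sub_nonneg.2 (Real.one_le_exp ht)
  refine ⟨(orbs σ).powerset, inferInstance, fun s => (Real.exp t - 1) ^ s.1.card,
    fun s => univ ×ˢ ((s.1.biUnion id).image ⇑(g⁻¹)), fun s => pow_nonneg hz _, fun A => ?_, ?_⟩
  · have e : Real.exp (t * R155.cyc σ ((tp A).image g)) =
        ∏ C ∈ orbs σ, (1 + (Real.exp t - 1) * ind (C ⊆ (tp A).image g)) := by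
      rw [R155.cyc, mul_comm, Real.exp_nat_mul, ← prod_const, prod_filter]
      refine prod_congr rfl fun C _ => ?_
      rw [ind_eq_ite]; split_ifs <;> simp
    simp only
    rw [e, prod_one_add, ← sum_coe_sort]
    refine sum_le_sum fun s _ => ?_
    rw [prod_mul_distrib, prod_const, ← ind_forall_eq_prod]
    refine mul_le_mul_of_nonneg_left (ind_mono fun h => ?_) (pow_nonneg hz _)
    rintro ⟨b, u⟩ hb
    obtain ⟨v, hv, rfl⟩ := mem_image.1 (mem_product.1 hb).2
    obtain ⟨C, hC, hvC⟩ := mem_biUnion.1 hv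
    obtain ⟨u, hu, rfl⟩ := mem_image.1 (h C hC hvC)
    rw [mem_tp] at hu
    cases b
    · simpa using hu.1
    · simpa using hu.2
  · rw [prod_one_add, ← sum_coe_sort (orbs σ).powerset]
    refine le_of_eq (sum_congr rfl fun s _ => ?_)
    rw [prod_mul_distrib, prod_const, prod_pow_eq_pow_sum, card_product,
      card_image_of_injective _ (Equiv.injective _), card_biUnion, ← pow_mul]
    · simp
    · intro C hC C' hC' h
      exact disjoint_of_mem_orbs (mem_powerset.1 s.2 hC) (mem_powerset.1 s.2 hC') h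

/-- product over the loops of level `j` of the averaged weights -/
noncomputable def valL (j : ℕ) (z w : ℝ) : (D : ℕ) → Bits D → Bits D → ℝ
  | 0, _, _ => 1
  | D + 1, ω, ω' =>
    if j = D + 1 then ∏ C ∈ orbs (loopP D ω ω'), (1 + z * w ^ C.card)
    else valL j z w D ω.2.1 ω'.2.1 * valL j z w D ω.2.2 ω'.2.2

lemma valL_nonneg (j : ℕ) {z w : ℝ} (hz : 0 ≤ z) (hw : 0 ≤ w) (D : ℕ) (ω ω' : Bits D) :
    0 ≤ valL j z w D ω ω' := by
  induction D with
  | zero => simp [valL]
  | succ D ih =>
    unfold valL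
    split_ifs
    · exact prod_nonneg fun _ _ => by positivity
    · exact mul_nonneg (ih _ _) (ih _ _)

lemma dom_lam (j : ℕ) {x t : ℝ} (hx : 0 ≤ x) (ht : 0 ≤ t) (D : ℕ) (ω ω' : Bits D) :
    Dom x (fun A => Real.exp (t * lam j D ω ω' A)) (valL j (Real.exp t - 1) (x ^ 2) D ω ω') := by
  induction D with
  | zero => simpa [lam, valL] using Dom.one x
  | succ D ih =>
    by_cases h : j = D + 1
    · simp only [lam, valL, if_pos h]
      exact Dom.cyc _ _ x ht
    · simp only [lam, valL, if_neg h]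
      push_cast
      simp only [mul_add, Real.exp_add]
      exact Dom.mul_sd ω.1 hx (F0 := fun A => Real.exp (t * lam j D ω.2.1 ω'.2.1 A))
        (F1 := fun A => Real.exp (t * lam j D ω.2.2 ω'.2.2 A)) (fun _ => (Real.exp_pos _).le)
        (ih _ _) (ih _ _)

lemma pb_self (D : ℕ) (ω : Bits D) : pb D D ω = bf D ω := by
  induction D with
  | zero => rfl
  | succ D ih => simp only [pb, bf, ih]

lemma expect_valL_le (j : ℕ) (hj : 1 ≤ j) {z w μ : ℝ} (hz : 0 ≤ z) (hw : 0 ≤ w)
    (hμ : z * ∑ l ∈ Icc 1 (2 ^ (j - 1)), w ^ l ≤ μ) (D : ℕ) (hD : j ≤ D) :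
    𝔼 ω, 𝔼 ω', valL j z w D ω ω' ≤ Real.exp ((μ + 3 / 2 * μ ^ 2) * 2 ^ (D - j)) := by
  induction D with
  | zero => omega
  | succ D ih =>
    rw [expect_two_succ]
    refine expect_le univ_nonempty fun e _ => ?_
    by_cases h : j = D + 1
    · subst h
      refine expect_le univ_nonempty fun f0 _ => ?_
      rw [expect_comm]
      refine expect_le univ_nonempty fun f1 _ => ?_
      rw [expect_comm]
      refine expect_le univ_nonempty fun f1' _ => ?_
      have h1 := closers_pb D D le_rfl (ben D f1 f1' * (bf D f0)⁻¹) univ (fun l => z * w ^ l)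
        (fun l => by positivity) μ (by rw [← mul_sum]; simpa using hμ)
      have e1 : ((univ : Finset (Pos D)).card : ℝ) * μ / 2 ^ D = μ := by
        rw [card_univ, card_pos]; push_cast; field_simp
      rw [e1] at h1
      simp only [Nat.sub_self, pow_zero, mul_one, valL, if_pos]
      refine le_trans (le_of_eq (expect_congr rfl fun f _ => ?_)) h1
      rw [filter_true_of_mem fun _ _ => subset_univ _, pb_self, loopP, ben.eq_def D f0,
        mul_inv_rev, inv_inv, mul_assoc]
    · simp only [valL, if_neg h]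
      rw [← expect_two_mul, show D + 1 - j = D - j + 1 by omega, pow_succ 2 (D - j), ← mul_assoc, mul_two,
        Real.exp_add]
      exact mul_le_mul (ih (by omega)) (ih (by omega))
        (expect_nonneg fun _ _ => expect_nonneg fun _ _ => valL_nonneg j hz hw _ _ _)
        (Real.exp_pos _).le

/-- loops of level `j`, averaged over the tracked set first -/
theorem level_lo {Θ : Type} [Fintype Θ] [Nonempty Θ] (D : ℕ) (S : Θ → Finset (Pos D)) (x : ℝ)
    (hx : 0 ≤ x) (hS : Cyl S x) (j : ℕ) (hj : 1 ≤ j) (hD : j ≤ D) (t : ℝ) (ht : 0 ≤ t) (μ : ℝ)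
    (hμ : (Real.exp t - 1) * ∑ l ∈ Icc 1 (2 ^ (j - 1)), (x ^ 2) ^ l ≤ μ) :
    𝔼 θ : Θ, 𝔼 ω : Bits D, 𝔼 ω' : Bits D, Real.exp (t * lam j D ω ω' (S θ))
      ≤ Real.exp ((μ + 3 / 2 * μ ^ 2) * 2 ^ (D - j)) := by
  refine le_trans ?_ (expect_valL_le j hj (sub_nonneg.2 (Real.one_le_exp ht)) (sq_nonneg x) hμ D hD)
  rw [expect_comm]
  refine expect_le_expect fun ω _ => ?_
  rw [expect_comm]
  exact expect_le_expect fun ω' _ => (dom_lam j hx ht D ω ω').expect_le hS

lemma dom_trk (j : ℕ) {x t : ℝ} (hx : 0 ≤ x) (ht : 0 ≤ t) (D : ℕ) (ω : Bits D) :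
    Dom x (fun A => Real.exp (t * trk j D ω A))
      (Real.exp ((Real.exp t - 1) * x ^ 2 * 2 ^ D / 2)) := by
  have hz : 0 ≤ Real.exp t - 1 := sub_nonneg.2 (Real.one_le_exp ht)
  induction D with
  | zero =>
    simp only [trk, Nat.cast_zero, mul_zero, Real.exp_zero]
    exact (Dom.one x).mono (Real.one_le_exp (by positivity))
  | succ D ih =>
    by_cases h : j = D + 1
    · simp only [trk, if_pos h]
      have h1 := Dom.cyc (P := Pos D) 1 1 x ht
      simp only [cyc_one, Perm.coe_one, image_id] at h1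
      refine h1.mono ?_
      have e : orbs (1 : Perm (Pos D)) = univ.image (fun u => ({u} : Finset (Pos D))) :=
        image_congr fun u _ => orb_one u
      rw [e, prod_image fun _ _ _ _ h => singleton_injective h]
      simp only [card_singleton, pow_one, prod_const, card_univ, card_pos]
      calc (1 + (Real.exp t - 1) * x ^ 2) ^ 2 ^ D
          ≤ (Real.exp ((Real.exp t - 1) * x ^ 2)) ^ 2 ^ D := by
            gcongr; linarith [Real.add_one_le_exp ((Real.exp t - 1) * x ^ 2)]
        _ = _ := by rw [← Real.exp_nat_mul]; congr 1; push_cast; ring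
    · simp only [trk, if_neg h]
      push_cast
      simp only [mul_add, Real.exp_add]
      refine (Dom.mul_sd ω.1 hx (F0 := fun A => Real.exp (t * trk j D ω.2.1 A))
        (F1 := fun A => Real.exp (t * trk j D ω.2.2 A)) (fun _ => (Real.exp_pos _).le)
        (ih _) (ih _)).mono (le_of_eq ?_)
      rw [← Real.exp_add]; congr 1; ring

/-- exponential moment of the number of tracked pairs -/
theorem trk_moment {Θ : Type} [Fintype Θ] [Nonempty Θ] (D : ℕ) (S : Θ → Finset (Pos D)) (x : ℝ)
    (hx : 0 ≤ x) (hS : Cyl S x) (j : ℕ) (t : ℝ) (ht : 0 ≤ t) (ω : Bits D) :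
    𝔼 θ : Θ, Real.exp (t * trk j D ω (S θ)) ≤ Real.exp ((Real.exp t - 1) * x ^ 2 * 2 ^ D / 2) :=
  (dom_trk j hx ht D ω).expect_le hS

end Crest.Agent.R155
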