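import Mathlib

/-!
# Row 155 (Thorp shuffle): basic definitions

`Pos D` = binary words of length `D` (first letter = top bit); `Bits D` = switch settings of a
butterfly network on `Pos D`; `bf` = butterfly permutation (= `D` Thorp shuffles);
`ben ω ω' = (bf ω')⁻¹ * bf ω` = Benes network permutation.
-/

set_option autoImplicit false

open Finset Equiv
open scoped BigOperators

namespace Crest.Agent.R155

/-- indicator of a proposition -/
noncomputable def ind (p : Prop) : ℝ := by classical exact if p then 1 else 0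

lemma ind_pos {p : Prop} (h : p) : ind p = 1 := by simp [ind, h]
lemma ind_neg {p : Prop} (h : ¬ p) : ind p = 0 := by simp [ind, h]
lemma ind_nonneg (p : Prop) : 0 ≤ ind p := by unfold ind; split_ifs <;> norm_num
lemma ind_le_one (p : Prop) : ind p ≤ 1 := by unfold ind; split_ifs <;> norm_num
lemma ind_congr {p q : Prop} (h : p ↔ q) : ind p = ind q := by rw [propext h]
lemma ind_mono {p q : Prop} (h : p → q) : ind p ≤ ind q := by
  by_cases hp : p
  · rw [ind_pos hp, ind_pos (h hp)]
  · rw [ind_neg hp]; exact ind_nonneg _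
lemma ind_and (p q : Prop) : ind (p ∧ q) = ind p * ind q := by
  by_cases hp : p <;> by_cases hq : q <;> simp [ind, hp, hq]
lemma ind_eq_ite (p : Prop) [Decidable p] : ind p = if p then 1 else 0 := by
  by_cases hp : p <;> simp [ind, hp]

/-! ### Positions, bits -/

/-- binary words of length `D` -/
def Pos : ℕ → Type
  | 0 => Unit
  | D + 1 => Bool × Pos D

/-- switch settings of a butterfly of depth `D` -/
def Bits : ℕ → Type
  | 0 => Unit
  | D + 1 => (Pos D → Bool) × Bits D × Bits D

instance Pos.instDecEq : (D : ℕ) → DecidableEq (Pos D)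
  | 0 => inferInstanceAs (DecidableEq Unit)
  | D + 1 => letI := Pos.instDecEq D; inferInstanceAs (DecidableEq (Bool × Pos D))

instance Pos.instFintype : (D : ℕ) → Fintype (Pos D)
  | 0 => inferInstanceAs (Fintype Unit)
  | D + 1 => letI := Pos.instFintype D; inferInstanceAs (Fintype (Bool × Pos D))

instance Pos.instInhabited : (D : ℕ) → Inhabited (Pos D)
  | 0 => inferInstanceAs (Inhabited Unit)
  | D + 1 => letI := Pos.instInhabited D; inferInstanceAs (Inhabited (Bool × Pos D))

instance Bits.instFintype : (D : ℕ) → Fintype (Bits D)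
  | 0 => inferInstanceAs (Fintype Unit)
  | D + 1 => letI := Bits.instFintype D
    inferInstanceAs (Fintype ((Pos D → Bool) × Bits D × Bits D))

instance Bits.instInhabited : (D : ℕ) → Inhabited (Bits D)
  | 0 => inferInstanceAs (Inhabited Unit)
  | D + 1 => letI := Bits.instInhabited D
    inferInstanceAs (Inhabited ((Pos D → Bool) × Bits D × Bits D))

lemma card_pos (D : ℕ) : Fintype.card (Pos D) = 2 ^ D := by
  induction D with
  | zero => rfl
  | succ D ih =>
    have : Fintype.card (Pos (D + 1)) = Fintype.card (Bool × Pos D) := rfl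
    rw [this, Fintype.card_prod, ih, Fintype.card_bool]; ring

/-- expectation over the bits of depth `D+1`, split into the top switches and the two halves -/
lemma expect_bits_succ (D : ℕ) (F : Bits (D + 1) → ℝ) :
    𝔼 ω, F ω = 𝔼 c : Pos D → Bool, 𝔼 f0 : Bits D, 𝔼 f1 : Bits D, F (c, f0, f1) := by
  have h : 𝔼 ω, F ω = 𝔼 ω : (Pos D → Bool) × Bits D × Bits D, F ω := rfl
  rw [h, ← univ_product_univ, expect_product]
  refine expect_congr rfl fun c _ => ?_
  rw [← univ_product_univ, expect_product]

lemma expect_bits_zero (F : Bits 0 → ℝ) : 𝔼 ω, F ω = F () := by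
  have h : 𝔼 ω, F ω = 𝔼 ω : Unit, F ω := rfl
  rw [h]; simp

lemma sum_pos_succ (D : ℕ) (F : Pos (D + 1) → ℝ) :
    ∑ x, F x = ∑ u : Pos D, F (false, u) + ∑ u : Pos D, F (true, u) := by
  have h : ∑ x, F x = ∑ x : Bool × Pos D, F x := rfl
  rw [h, Fintype.sum_prod_type, Fintype.sum_bool, add_comm]

/-! ### One layer of switches, two parallel permutations -/

section Layer
variable {P : Type}

/-- one layer of switches: the pair `(false,u),(true,u)` is swapped iff `c u` -/
def sw (c : P → Bool) : Perm (Bool × P) where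
  toFun x := (xor x.1 (c x.2), x.2)
  invFun x := (xor x.1 (c x.2), x.2)
  left_inv x := by simp
  right_inv x := by simp

/-- `g0` on the half `false`, `g1` on the half `true` -/
def par (g0 g1 : Perm P) : Perm (Bool × P) where
  toFun x := (x.1, (cond x.1 g1 g0) x.2)
  invFun x := (x.1, (cond x.1 g1 g0).symm x.2)
  left_inv x := by simp
  right_inv x := by simp

@[simp] lemma sw_apply (c : P → Bool) (b : Bool) (u : P) : sw c (b, u) = (xor b (c u), u) := rfl
@[simp] lemma par_apply (g0 g1 : Perm P) (b : Bool) (u : P) :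
    par g0 g1 (b, u) = (b, (cond b g1 g0) u) := rfl
lemma sw_inv (c : P → Bool) : (sw c)⁻¹ = sw c := rfl
lemma sw_mul_self (c : P → Bool) : sw c * sw c = 1 := by ext x <;> simp [sw]
lemma par_mul (g0 g1 h0 h1 : Perm P) : par g0 g1 * par h0 h1 = par (g0 * h0) (g1 * h1) := by
  ext ⟨b, u⟩ <;> cases b <;> simp
lemma par_one : par (1 : Perm P) 1 = 1 := by ext ⟨b, u⟩ <;> cases b <;> simp
lemma par_inv (g0 g1 : Perm P) : (par g0 g1)⁻¹ = par g0⁻¹ g1⁻¹ := by
  rw [inv_eq_iff_mul_eq_one, par_mul]; simp [par_one]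

variable [Fintype P] [DecidableEq P]

/-- the input switches whose card sent to the half `b` is tracked -/
def sd (c : P → Bool) (b : Bool) (A : Finset (Bool × P)) : Finset P :=
  univ.filter fun u => (xor b (c u), u) ∈ A

/-- the input switches both of whose cards are tracked -/
def tp (A : Finset (Bool × P)) : Finset P :=
  univ.filter fun u => (false, u) ∈ A ∧ (true, u) ∈ A

@[simp] lemma mem_sd {c : P → Bool} {b : Bool} {A : Finset (Bool × P)} {u : P} :
    u ∈ sd c b A ↔ (xor b (c u), u) ∈ A := by simp [sd]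
@[simp] lemma mem_tp {A : Finset (Bool × P)} {u : P} :
    u ∈ tp A ↔ (false, u) ∈ A ∧ (true, u) ∈ A := by simp [tp]

lemma card_sd_add (c : P → Bool) (A : Finset (Bool × P)) :
    (sd c false A).card + (sd c true A).card = A.card := by
  have h1 : A.card = ∑ x : Bool × P, if x ∈ A then 1 else 0 := by simp
  rw [h1, ← Equiv.sum_comp (sw c), Fintype.sum_prod_type, Fintype.sum_bool, add_comm]
  simp only [sd, card_filter, sw_apply]
  rfl

lemma tp_eq_inter (c : P → Bool) (A : Finset (Bool × P)) :
    tp A = sd c false A ∩ sd c true A := by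
  ext u; cases h : c u <;> simp [h, and_comm]

end Layer

/-! ### Cycles -/

section Cycles
variable {X : Type} [Fintype X] [DecidableEq X]

/-- the cycle (orbit) of `x` under `σ`, fixed points included -/
def orb (σ : Perm X) (x : X) : Finset X := univ.filter fun y => σ.SameCycle x y

/-- the set of all cycles of `σ`, fixed points included -/
def orbs (σ : Perm X) : Finset (Finset X) := univ.image (orb σ)

/-- the number of cycles of `σ` contained in `T` -/
def cyc (σ : Perm X) (T : Finset X) : ℕ := ((orbs σ).filter (· ⊆ T)).card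

/-- half the sum of `E` over ordered pairs in `A` -/
noncomputable def ee (E : X → X → ℝ) (A : Finset X) : ℝ := (∑ x ∈ A, ∑ y ∈ A, E x y) / 2

/-- the probability that an independent copy of the random permutation `β` agrees with `β ω`
on `A` -/
noncomputable def agr {Ω : Type} [Fintype Ω] (β : Ω → Perm X) (ω : Ω) (A : Finset X) : ℝ :=
  𝔼 ω' : Ω, ind (∀ x ∈ A, β ω' x = β ω x)

end Cycles

/-! ### Butterflies -/

/-- the butterfly permutation -/
def bf : (D : ℕ) → Bits D → Perm (Pos D)
  | 0, _ => 1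
  | D + 1, ω => (par (bf D ω.2.1) (bf D ω.2.2) * sw ω.1 : Perm (Bool × Pos D))

/-- the first `r` layers of the butterfly -/
def pb : (D : ℕ) → ℕ → Bits D → Perm (Pos D)
  | 0, _, _ => 1
  | _ + 1, 0, _ => 1
  | D + 1, r + 1, ω => (par (pb D r ω.2.1) (pb D r ω.2.2) * sw ω.1 : Perm (Bool × Pos D))

/-- the butterfly without its first `r` layers -/
def rs : (D : ℕ) → ℕ → Bits D → Perm (Pos D)
  | 0, _, _ => 1
  | D + 1, 0, ω => bf (D + 1) ω
  | D + 1, r + 1, ω => (par (rs D r ω.2.1) (rs D r ω.2.2) : Perm (Bool × Pos D))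

/-- first `r` layers from `ω'`, the others from `ω` -/
def mix : (D : ℕ) → ℕ → Bits D → Bits D → Bits D
  | 0, _, ω, _ => ω
  | _ + 1, 0, ω, _ => ω
  | D + 1, r + 1, ω, ω' => (ω'.1, mix D r ω.2.1 ω'.2.1, mix D r ω.2.2 ω'.2.2)

/-- number of times two cards use the same switch during the first `r` layers -/
def meet : (D : ℕ) → ℕ → Bits D → Pos D → Pos D → ℕ
  | 0, _, _, _, _ => 0
  | _ + 1, 0, _, _, _ => 0
  | D + 1, r + 1, ω, x, y =>
    if x.2 = y.2 then (if x.1 = y.1 then 0 else 1)
    else if xor x.1 (ω.1 x.2) = xor y.1 (ω.1 y.2) then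
      meet D r (cond (xor x.1 (ω.1 x.2)) ω.2.2 ω.2.1) x.2 y.2
    else 0

/-- the Benes permutation with input bits `ω` and output bits `ω'` -/
def ben (D : ℕ) (ω ω' : Bits D) : Perm (Pos D) := (bf D ω')⁻¹ * bf D ω

/-- the loop permutation of the outer layer of a Benes network (acting on output switches) -/
def loopP (D : ℕ) (ω ω' : Bits (D + 1)) : Perm (Pos D) :=
  ben D ω.2.2 ω'.2.2 * (ben D ω.2.1 ω'.2.1)⁻¹

/-- the output switches reached through the half `true` from fully tracked input switches -/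
def loopT (D : ℕ) (ω ω' : Bits (D + 1)) (A : Finset (Pos (D + 1))) : Finset (Pos D) :=
  (tp (P := Pos D) A).image (ben D ω.2.2 ω'.2.2)

/-- number of fully tracked loops in the blocks of level `j` (blocks of `2 ^ j` cards) -/
def lam (j : ℕ) : (D : ℕ) → Bits D → Bits D → Finset (Pos D) → ℕ
  | 0, _, _, _ => 0
  | D + 1, ω, ω', A =>
    if j = D + 1 then cyc (loopP D ω ω') (loopT D ω ω' A)
    else lam j D ω.2.1 ω'.2.1 (sd ω.1 false A) + lam j D ω.2.2 ω'.2.2 (sd ω.1 true A)

/-- number of fully tracked input switches in the blocks of level `j` -/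
def trk (j : ℕ) : (D : ℕ) → Bits D → Finset (Pos D) → ℕ
  | 0, _, _ => 0
  | D + 1, ω, A =>
    if j = D + 1 then (tp (P := Pos D) A).card
    else trk j D ω.2.1 (sd ω.1 false A) + trk j D ω.2.2 (sd ω.1 true A)

/-- total number of fully tracked loops -/
def Lam (D : ℕ) (ω ω' : Bits D) (A : Finset (Pos D)) : ℕ := ∑ j ∈ Icc 1 D, lam j D ω ω' A

/-- probability that the Benes permutation agrees with `τ` on `A` -/
noncomputable def kb (D : ℕ) (A : Finset (Pos D)) (τ : Pos D → Pos D) : ℝ :=
  𝔼 ω : Bits D, 𝔼 ω' : Bits D, ind (∀ x ∈ A, ben D ω ω' x = τ x)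

/-- product of `K` factors, the last one on the left -/
def prodR {Ω G : Type} [Monoid G] (f : Ω → G) : (K : ℕ) → (Fin K → Ω) → G
  | 0, _ => 1
  | K + 1, ωs => f (ωs (Fin.last K)) * prodR f K (fun i => ωs i.castSucc)

/-- collision probability of `K` butterfly rounds -/
noncomputable def coll (D K : ℕ) : ℝ :=
  𝔼 ωs : Fin K → Bits D, 𝔼 ωs' : Fin K → Bits D, ind (prodR (bf D) K ωs = prodR (bf D) K ωs')

/-- a random set `S` has the cylinder property with density `x` -/
def Cyl {Θ X : Type} [Fintype Θ] (S : Θ → Finset X) (x : ℝ) : Prop :=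
  ∀ B : Finset X, 𝔼 θ : Θ, ind (B ⊆ S θ) ≤ x ^ B.card

/-! ### unfolding lemmas -/

lemma bf_succ (D : ℕ) (c : Pos D → Bool) (f0 f1 : Bits D) :
    bf (D + 1) (c, f0, f1) = (par (bf D f0) (bf D f1) * sw c : Perm (Bool × Pos D)) := rfl

lemma ben_succ (D : ℕ) (c c' : Pos D → Bool) (f0 f1 f0' f1' : Bits D) :
    ben (D + 1) (c, f0, f1) (c', f0', f1') =
      (sw c' * par (ben D f0 f0') (ben D f1 f1') * sw c : Perm (Bool × Pos D)) := by
  have : ben (D + 1) (c, f0, f1) (c', f0', f1') =
      ((par (bf D f0') (bf D f1') * sw c')⁻¹ * (par (bf D f0) (bf D f1) * sw c) :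
        Perm (Bool × Pos D)) := rfl
  rw [this, mul_inv_rev, sw_inv, par_inv, mul_assoc, mul_assoc, ← mul_assoc (par _ _), par_mul]
  rfl

end Crest.Agent.R155
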