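import Mathlib

/-!
# Row 155: Dyson's lemma `tr (Aᵀ^K A^K) ≤ tr ((Aᵀ A)^K)` and Young's inequality for traces
-/

set_option autoImplicit false

open Finset
open scoped BigOperators Matrix

namespace Crest.Agent.R155

section dy

variable {X : Type} [Fintype X] [DecidableEq X]

/-- value of a word in `A` (`true`) and `Aᵀ` (`false`) -/
def dyEv (A : Matrix X X ℝ) (w : List Bool) : Matrix X X ℝ :=
  (w.map fun b => cond b A Aᵀ).prod

/-- the transposed word -/
def dyT (w : List Bool) : List Bool := (w.map not).reverse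

/-- the alternating word -/
def dyAlt : Bool → ℕ → List Bool
  | _, 0 => []
  | b, p + 1 => b :: dyAlt (!b) p

theorem dyEv_nil (A : Matrix X X ℝ) : dyEv A [] = 1 := rfl

theorem dyEv_cons (A : Matrix X X ℝ) (b : Bool) (w : List Bool) :
    dyEv A (b :: w) = cond b A Aᵀ * dyEv A w := by
  simp [dyEv]

theorem dyEv_append (A : Matrix X X ℝ) (u v : List Bool) :
    dyEv A (u ++ v) = dyEv A u * dyEv A v := by
  simp [dyEv]

theorem dyT_cons (b : Bool) (w : List Bool) : dyT (b :: w) = dyT w ++ [!b] := by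
  simp [dyT]

theorem dyT_append (u v : List Bool) : dyT (u ++ v) = dyT v ++ dyT u := by
  simp [dyT]

theorem dyT_length (w : List Bool) : (dyT w).length = w.length := by
  simp [dyT]

theorem dyEv_T (A : Matrix X X ℝ) (w : List Bool) : dyEv A (dyT w) = (dyEv A w)ᵀ := by
  induction w with
  | nil => simp [dyT, dyEv]
  | cons b w ih =>
    rw [dyT_cons, dyEv_append, ih, dyEv_cons, dyEv_cons, dyEv_nil, Matrix.transpose_mul, mul_one]
    cases b <;> simp

theorem dy_rot (A : Matrix X X ℝ) (u v : List Bool) :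
    (dyEv A (u ++ v)).trace = (dyEv A (v ++ u)).trace := by
  rw [dyEv_append, dyEv_append, Matrix.trace_mul_comm]

theorem dyAlt_length (b : Bool) (p : ℕ) : (dyAlt b p).length = p := by
  induction p generalizing b with
  | zero => rfl
  | succ p ih => simp [dyAlt, ih]

theorem dyAlt_snoc (b : Bool) (p : ℕ) : dyAlt b (2 * p) ++ [b] = dyAlt b (2 * p + 1) := by
  induction p with
  | zero => rfl
  | succ p ih =>
    have e1 : dyAlt b (2 * (p + 1)) = b :: (!b) :: dyAlt b (2 * p) := by
      show dyAlt b (2 * p + 1 + 1) = _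
      simp [dyAlt]
    have e2 : dyAlt b (2 * (p + 1) + 1) = b :: (!b) :: dyAlt b (2 * p + 1) := by
      show dyAlt b (2 * p + 1 + 1 + 1) = _
      simp [dyAlt]
    rw [e1, e2, ← ih]
    rfl

theorem dyAlt_T (b : Bool) (p : ℕ) : dyAlt b p ++ dyT (dyAlt b p) = dyAlt b (2 * p) := by
  induction p generalizing b with
  | zero => rfl
  | succ p ih =>
    have e1 : dyAlt b (2 * (p + 1)) = b :: dyAlt (!b) (2 * p + 1) := rfl
    rw [e1, ← dyAlt_snoc, ← ih, dyAlt, dyT_cons]
    simp

theorem dyAlt_prefix (b : Bool) (p q : ℕ) : ∃ r, dyAlt b (p + q) = dyAlt b p ++ r := by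
  induction p generalizing b with
  | zero => exact ⟨_, by rw [Nat.zero_add]; rfl⟩
  | succ p ih =>
    obtain ⟨r, hr⟩ := ih (!b)
    refine ⟨r, ?_⟩
    rw [show p + 1 + q = (p + q) + 1 by omega, dyAlt, hr, dyAlt]
    rfl

theorem dyEv_alt (A : Matrix X X ℝ) (b : Bool) (p : ℕ) :
    dyEv A (dyAlt b (2 * p)) = (cond b A Aᵀ * cond (!b) A Aᵀ) ^ p := by
  induction p with
  | zero => simp [dyAlt, dyEv]
  | succ p ih =>
    have e1 : dyAlt b (2 * (p + 1)) = b :: (!b) :: dyAlt b (2 * p) := by
      show dyAlt b (2 * p + 1 + 1) = _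
      simp [dyAlt]
    rw [e1, dyEv_cons, dyEv_cons, ih, pow_succ', mul_assoc]

omit [DecidableEq X] in
theorem dy_tr_sq (U : Matrix X X ℝ) : (U * Uᵀ).trace = ∑ p : X × X, U p.1 p.2 ^ 2 := by
  simp [Matrix.trace, Matrix.mul_apply, Fintype.sum_prod_type, sq]

omit [DecidableEq X] in
theorem dy_cs (U V : Matrix X X ℝ) :
    (U * V).trace ^ 2 ≤ (U * Uᵀ).trace * (Vᵀ * V).trace := by
  have h1 : (U * V).trace = ∑ p : X × X, U p.1 p.2 * Vᵀ p.1 p.2 := by
    simp [Matrix.trace, Matrix.mul_apply, Fintype.sum_prod_type]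
  have h2 := dy_tr_sq Vᵀ
  rw [Matrix.transpose_transpose] at h2
  rw [h1, dy_tr_sq, h2]
  exact Finset.sum_mul_sq_le_sq_mul_sq _ _ _

theorem dy_half (A : Matrix X X ℝ) {K : ℕ} {mx : ℝ}
    (hmx : ∀ w : List Bool, w.length = 2 * K → |(dyEv A w).trace| ≤ mx) (u v : List Bool)
    (hu : u.length = K) (hv : v.length = K) (h : |(dyEv A (u ++ v)).trace| = mx) :
    (dyEv A (u ++ dyT u)).trace = mx := by
  have ha := hmx (u ++ dyT u) (by rw [List.length_append, dyT_length]; omega)
  have hb := hmx (dyT v ++ v) (by rw [List.length_append, dyT_length]; omega)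
  have hc := dy_cs (dyEv A u) (dyEv A v)
  rw [← sq_abs, ← dyEv_append, h] at hc
  rw [dyEv_append, dyEv_T] at ha hb ⊢
  have ha0 : 0 ≤ (dyEv A u * (dyEv A u)ᵀ).trace := by
    rw [dy_tr_sq]; positivity
  have ha1 := (le_abs_self _).trans ha
  have hb1 := (le_abs_self _).trans hb
  refine le_antisymm ha1 (not_lt.1 fun hlt => ?_)
  have := mul_le_mul_of_nonneg_left hb1 ha0
  nlinarith

theorem dy_step (A : Matrix X X ℝ) {K : ℕ} {mx : ℝ}
    (hmx : ∀ w : List Bool, w.length = 2 * K → |(dyEv A w).trace| ≤ mx) {p : ℕ} (hp : p ≤ K)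
    (b : Bool) (r : List Bool) (hr : r.length + p = 2 * K)
    (h : |(dyEv A (dyAlt b p ++ r)).trace| = mx) :
    ∃ r' : List Bool, r'.length + 2 * p = 2 * K ∧ (dyEv A (dyAlt b (2 * p) ++ r')).trace = mx := by
  obtain ⟨r1, r2, rfl, h1⟩ : ∃ r1 r2 : List Bool, r = r1 ++ r2 ∧ r1.length = K :=
    ⟨r.take K, r.drop K, (List.take_append_drop K r).symm, by
      rw [List.length_take]; omega⟩
  rw [List.length_append] at hr
  rw [← List.append_assoc, dy_rot, ← List.append_assoc] at h
  have := dy_half A hmx _ _ (by rw [List.length_append, dyAlt_length]; omega) h1 h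
  refine ⟨dyT r2 ++ r2, by rw [List.length_append, dyT_length]; omega, ?_⟩
  rw [← this, ← dyAlt_T, dyT_append, List.append_assoc r2, dy_rot A r2]
  simp only [List.append_assoc]

end dy

/-- Dyson's lemma. -/
theorem dyson {X : Type} [Fintype X] [DecidableEq X] (A : Matrix X X ℝ) (K : ℕ) :
    (Aᵀ ^ K * A ^ K).trace ≤ ((Aᵀ * A) ^ K).trace := by
  obtain ⟨w0, hw0, hmx⟩ := Set.exists_max_image {l : List Bool | l.length = 2 * K}
    (fun w => |(dyEv A w).trace|) (List.finite_length_eq Bool (2 * K))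
    ⟨List.replicate (2 * K) true, by simp⟩
  have hw0' : w0.length = 2 * K := hw0
  have key : ∀ p, p ≤ K → ∃ (b : Bool) (r : List Bool), r.length + p = 2 * K ∧
      |(dyEv A (dyAlt b p ++ r)).trace| = |(dyEv A w0).trace| := by
    intro p
    induction p with
    | zero => exact fun _ => ⟨true, w0, hw0', rfl⟩
    | succ p ih =>
      intro hp
      rcases Nat.eq_zero_or_pos p with rfl | hp0
      · cases w0 with
        | nil => simp at hw0'; omega
        | cons b r => exact ⟨b, r, hw0', rfl⟩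
      · obtain ⟨b, r, hr, h⟩ := ih (by omega)
        obtain ⟨r', hr', h'⟩ := dy_step A hmx (by omega) b r hr h
        obtain ⟨q, hq⟩ := dyAlt_prefix b (p + 1) (p - 1)
        rw [show p + 1 + (p - 1) = 2 * p by omega] at hq
        have hl := congrArg List.length hq
        rw [List.length_append, dyAlt_length, dyAlt_length] at hl
        refine ⟨b, q ++ r', by rw [List.length_append]; omega, ?_⟩
        rw [← List.append_assoc, ← hq, h', abs_abs]
  obtain ⟨b, r, hr, h⟩ := key K le_rfl
  obtain ⟨r', hr', h'⟩ := dy_step A hmx le_rfl b r hr h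
  obtain rfl : r' = [] := List.length_eq_zero_iff.1 (by omega)
  rw [List.append_nil, dyEv_alt] at h'
  have h1 := hmx (List.replicate K false ++ List.replicate K true) (by simp; omega)
  have h2 : dyEv A (List.replicate K false ++ List.replicate K true) = Aᵀ ^ K * A ^ K := by
    simp [dyEv]
  rw [h2] at h1
  refine (le_abs_self _).trans (h1.trans (h'.symm.trans_le (le_of_eq ?_)))
  cases b with
  | false => rfl
  | true =>
    show ((A * Aᵀ) ^ K).trace = _
    cases K with
    | zero => simp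
    | succ K =>
      rw [pow_succ, ← mul_assoc, mul_pow_mul, Matrix.trace_mul_comm, ← mul_assoc, ← pow_succ']

end Crest.Agent.R155
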