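import Mathlib

/-!
# Row 155: Hölder's inequality in exponential form and along a filtration
-/

set_option autoImplicit false

open Finset
open scoped BigOperators

namespace Crest.Agent.R155

theorem holder_exp {Ω ι : Type} [Fintype Ω] [Nonempty Ω] (J : Finset ι) (X : ι → Ω → ℝ)
    (g p : ι → ℝ) (hp : ∀ j ∈ J, 0 ≤ p j) (hsum : ∑ j ∈ J, p j ≤ 1)
    (hX : ∀ j ∈ J, 𝔼 ω, Real.exp (X j ω) ≤ Real.exp (g j)) :
    𝔼 ω, Real.exp (∑ j ∈ J, p j * X j ω) ≤ Real.exp (∑ j ∈ J, p j * g j) := by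
  classical
  have hpt : ∀ ω, Real.exp (∑ j ∈ J, p j * X j ω) ≤ Real.exp (∑ j ∈ J, p j * g j) *
      (∑ j ∈ J, p j * (Real.exp (X j ω) * Real.exp (-g j)) + (1 - ∑ j ∈ J, p j)) := by
    intro ω
    set c := ∑ j ∈ J, p j * (X j ω - g j) with hc
    have e1 : ∑ j ∈ J, p j * X j ω = ∑ j ∈ J, p j * g j + c := by
      rw [hc, ← Finset.sum_add_distrib]
      exact Finset.sum_congr rfl fun j _ => by ring
    rw [e1, Real.exp_add]
    refine mul_le_mul_of_nonneg_left ?_ (Real.exp_pos _).le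
    -- tangent line of `exp` at `c`
    have ht : ∀ y, Real.exp c * (1 + (y - c)) ≤ Real.exp y := by
      intro y
      have h1 := Real.add_one_le_exp (y - c)
      have h2 : Real.exp y = Real.exp c * Real.exp (y - c) := by rw [← Real.exp_add]; ring_nf
      rw [h2]
      exact mul_le_mul_of_nonneg_left (by linarith) (Real.exp_pos _).le
    have h3 : ∑ j ∈ J, p j * (Real.exp c * (1 + (X j ω - g j - c))) ≤
        ∑ j ∈ J, p j * (Real.exp (X j ω) * Real.exp (-g j)) := by
      refine Finset.sum_le_sum fun j hj => mul_le_mul_of_nonneg_left ?_ (hp j hj)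
      rw [← Real.exp_add, ← sub_eq_add_neg]
      exact ht _
    have h4 : (1 - ∑ j ∈ J, p j) * (Real.exp c * (1 + (0 - c))) ≤ (1 - ∑ j ∈ J, p j) * 1 := by
      refine mul_le_mul_of_nonneg_left ?_ (by linarith)
      simpa using ht 0
    have h5 : ∑ j ∈ J, p j * (Real.exp c * (1 + (X j ω - g j - c))) =
        Real.exp c * ((1 - c) * ∑ j ∈ J, p j + c) := by
      rw [Finset.mul_sum, hc, ← Finset.sum_add_distrib, Finset.mul_sum]
      exact Finset.sum_congr rfl fun j _ => by ring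
    rw [h5] at h3
    nlinarith
  refine (Finset.expect_le_expect fun ω _ => hpt ω).trans ?_
  rw [← Finset.mul_expect, Finset.expect_add_distrib, Finset.expect_const Finset.univ_nonempty,
    Finset.expect_sum_comm]
  have h6 : ∑ j ∈ J, 𝔼 ω, p j * (Real.exp (X j ω) * Real.exp (-g j)) ≤ ∑ j ∈ J, p j := by
    refine Finset.sum_le_sum fun j hj => ?_
    rw [← Finset.mul_expect, ← Finset.expect_mul]
    have h7 : (𝔼 ω, Real.exp (X j ω)) * Real.exp (-g j) ≤ 1 := by
      calc _ ≤ Real.exp (g j) * Real.exp (-g j) :=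
            mul_le_mul_of_nonneg_right (hX j hj) (Real.exp_pos _).le
        _ = 1 := by rw [← Real.exp_add]; simp
    simpa using mul_le_mul_of_nonneg_left h7 (hp j hj)
  have h8 := Real.exp_pos (∑ j ∈ J, p j * g j)
  nlinarith

theorem finner_chain {Ω ι : Type} [Fintype Ω] [Nonempty Ω] (m : ℕ → Ω → Ω → Ω) (R : ℕ)
    (h0 : ∀ ω ω', m 0 ω ω' = ω)
    (h1 : ∀ r (f : Ω → ℝ), 𝔼 ω, 𝔼 ω', f (m r ω ω') = 𝔼 ω, f ω)
    (h2 : ∀ r ω ω' ω'', m r (m (r + 1) ω ω') ω'' = m (r + 1) ω (m r ω' ω''))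
    (J : Finset ι) (X : ι → Ω → ℝ) (g p : ι → ℝ) (a b : ι → ℕ) (hp : ∀ j ∈ J, 0 ≤ p j)
    (hab : ∀ j ∈ J, a j ≤ b j) (hbR : ∀ j ∈ J, b j ≤ R)
    (hinv : ∀ j ∈ J, ∀ r ≤ a j, ∀ ω ω', X j (m r ω ω') = X j ω)
    (hG : ∀ j ∈ J, ∀ ω, 𝔼 ω', Real.exp (X j (m (b j) ω ω')) ≤ Real.exp (g j))
    (hbud : ∀ r < R, ∑ j ∈ J.filter (fun j => a j ≤ r ∧ r < b j), p j ≤ 1) :
    𝔼 ω, Real.exp (∑ j ∈ J, p j * X j ω) ≤ Real.exp (∑ j ∈ J, p j * g j) := by
  classical
  have hpos : ∀ f : Ω → ℝ, 0 < 𝔼 ω, Real.exp (f ω) := fun f =>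
    Finset.expect_pos (fun _ _ => Real.exp_pos _) Finset.univ_nonempty
  have hconst : ∀ c : ℝ, 𝔼 _ω : Ω, c = c := fun c => Finset.expect_const Finset.univ_nonempty c
  let Y : ι → ℕ → Ω → ℝ := fun j r ω =>
    if r < b j then Real.log (𝔼 ω', Real.exp (X j (m r ω ω'))) else g j
  have hY1 : ∀ j r ω, r < b j → Y j r ω = Real.log (𝔼 ω', Real.exp (X j (m r ω ω'))) :=
    fun j r ω h => if_pos h
  have hY2 : ∀ j r ω, ¬ r < b j → Y j r ω = g j := fun j r ω h => if_neg h
  -- below the activation level, `X j ω ≤ Y j r ω`, with equality while `r < b j`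
  have hlow : ∀ j ∈ J, ∀ r ≤ a j, ∀ ω, r < b j → Y j r ω = X j ω := by
    intro j hj r hr ω h
    rw [hY1 j r ω h]
    simp only [hinv j hj r hr ω, hconst, Real.log_exp]
  have hlow' : ∀ j ∈ J, ∀ r ≤ a j, ∀ ω, X j ω ≤ Y j r ω := by
    intro j hj r hr ω
    by_cases h : r < b j
    · exact (hlow j hj r hr ω h).ge
    · rw [hY2 j r ω h]
      have h3 := hG j hj ω
      have hb : b j ≤ a j := by omega
      simp only [hinv j hj (b j) hb ω, hconst] at h3
      exact Real.exp_le_exp.1 h3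
  have key : ∀ r ≤ R, 𝔼 ω, Real.exp (∑ j ∈ J, p j * X j ω) ≤
      𝔼 ω, Real.exp (∑ j ∈ J, p j * Y j r ω) := by
    intro r
    induction r with
    | zero =>
      intro _
      refine Finset.expect_le_expect fun ω _ => Real.exp_le_exp.2 ?_
      exact Finset.sum_le_sum fun j hj =>
        mul_le_mul_of_nonneg_left (hlow' j hj 0 (Nat.zero_le _) ω) (hp j hj)
    | succ r ih =>
      intro hr
      refine (ih (by omega)).trans ?_
      rw [← h1 (r + 1) (fun ω => Real.exp (∑ j ∈ J, p j * Y j r ω))]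
      refine Finset.expect_le_expect fun ω _ => ?_
      set A := J.filter (fun j => a j ≤ r ∧ r < b j) with hA
      set B := J.filter (fun j => ¬ (a j ≤ r ∧ r < b j)) with hB
      have hsplit : ∀ f : ι → ℝ, ∑ j ∈ J, f j = ∑ j ∈ A, f j + ∑ j ∈ B, f j := fun f =>
        (Finset.sum_filter_add_sum_filter_not J _ f).symm
      have hBle : ∀ ω', ∑ j ∈ B, p j * Y j r (m (r + 1) ω ω') ≤ ∑ j ∈ B, p j * Y j (r + 1) ω := by
        intro ω'
        refine Finset.sum_le_sum fun j hj => ?_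
        obtain ⟨hj, hj2⟩ := Finset.mem_filter.1 hj
        refine mul_le_mul_of_nonneg_left ?_ (hp j hj)
        by_cases hb : r < b j
        · have ha : r + 1 ≤ a j := by
            by_contra hc
            exact hj2 ⟨by omega, hb⟩
          rw [hlow j hj r (by omega) _ hb, hinv j hj (r + 1) ha]
          exact hlow' j hj (r + 1) ha ω
        · rw [hY2 j r _ hb, hY2 j (r + 1) _ (by omega)]
      have hAle := holder_exp A (fun j ω' => Y j r (m (r + 1) ω ω')) (fun j => Y j (r + 1) ω) p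
        (fun j hj => hp j (Finset.mem_filter.1 hj).1) (hbud r (by omega)) (by
          intro j hj
          obtain ⟨hj, -, hb⟩ := Finset.mem_filter.1 hj
          have e1 : ∀ ω', Real.exp (Y j r (m (r + 1) ω ω')) =
              𝔼 ω'', Real.exp (X j (m (r + 1) ω (m r ω' ω''))) := by
            intro ω'
            rw [hY1 j r _ hb, Real.exp_log (hpos _)]
            simp only [h2]
          simp only [e1]
          rw [h1 r (fun η => Real.exp (X j (m (r + 1) ω η)))]
          by_cases hb2 : r + 1 < b j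
          · rw [hY1 j (r + 1) _ hb2, Real.exp_log (hpos _)]
          · rw [hY2 j (r + 1) _ hb2]
            have : r + 1 = b j := by omega
            rw [this]
            exact hG j hj ω)
      calc 𝔼 ω', Real.exp (∑ j ∈ J, p j * Y j r (m (r + 1) ω ω'))
          ≤ 𝔼 ω', Real.exp (∑ j ∈ A, p j * Y j r (m (r + 1) ω ω')) *
              Real.exp (∑ j ∈ B, p j * Y j (r + 1) ω) := by
            refine Finset.expect_le_expect fun ω' _ => ?_
            rw [← Real.exp_add, hsplit]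
            exact Real.exp_le_exp.2 (by linarith [hBle ω'])
        _ ≤ Real.exp (∑ j ∈ A, p j * Y j (r + 1) ω) *
              Real.exp (∑ j ∈ B, p j * Y j (r + 1) ω) := by
            rw [← Finset.expect_mul]
            exact mul_le_mul_of_nonneg_right hAle (Real.exp_pos _).le
        _ = Real.exp (∑ j ∈ J, p j * Y j (r + 1) ω) := by rw [← Real.exp_add, ← hsplit]
  refine (key R le_rfl).trans (le_of_eq ?_)
  have e : ∀ ω, ∑ j ∈ J, p j * Y j R ω = ∑ j ∈ J, p j * g j := fun ω =>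
    Finset.sum_congr rfl fun j hj => by rw [hY2 j R ω (by have := hbR j hj; omega)]
  simp only [e, hconst]

end Crest.Agent.R155
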