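import Crest.Agent.R155.Window
import Crest.Agent.R155.Finner

/-!
# Row 155: loops of one level, conditionally on the input bits
-/

set_option autoImplicit false

open Finset Equiv
open scoped BigOperators

namespace Crest.Agent.R155

/-- cost per tracked pair at level `j`: window `wn`, cut-off `l`, exponent `t` -/
noncomputable def hiC (j wn l : ℕ) (t : ℝ) : ℝ :=
  t / (l + 1) + ((Real.exp t - 1) * l / 2 / 2 ^ wn) *
    (1 + 3 / 2 * 2 ^ (j - 1) * ((Real.exp t - 1) * l / 2 / 2 ^ wn))

lemma mix_zero (D : ℕ) (ω ω' : Bits D) : mix D 0 ω ω' = ω := by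
  cases D <;> rfl

lemma mix_swap (D r : ℕ) (ω ω' : Bits D) : mix D r (mix D r ω ω') (mix D r ω' ω) = ω := by
  induction D generalizing r with
  | zero => rfl
  | succ D ih =>
    cases r with
    | zero => rfl
    | succ r =>
      obtain ⟨c, f0, f1⟩ := ω
      simp only [mix, ih]

lemma mix_mix (D r : ℕ) (ω ω' ω'' : Bits D) :
    mix D r (mix D (r + 1) ω ω') ω'' = mix D (r + 1) ω (mix D r ω' ω'') := by
  induction D generalizing r with
  | zero => rfl
  | succ D ih =>
    cases r with
    | zero => rfl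
    | succ r => simp only [mix, ih]

lemma expect_mix (D r : ℕ) (f : Bits D → ℝ) : 𝔼 ω, 𝔼 ω', f (mix D r ω ω') = 𝔼 ω, f ω := by
  have hinv : Function.Involutive
      (fun p : Bits D × Bits D => (mix D r p.1 p.2, mix D r p.2 p.1)) := by
    intro p; simp [mix_swap]
  have h := Fintype.expect_bijective _ hinv.bijective
    (fun p : Bits D × Bits D => f (mix D r p.1 p.2)) (fun p => f p.1) fun _ => rfl
  rw [← univ_product_univ, expect_product, expect_product] at h
  simpa using h

lemma bf_mix (D r : ℕ) (ω ω' : Bits D) : bf D (mix D r ω ω') = rs D r ω * pb D r ω' := by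
  induction D generalizing r with
  | zero => rfl
  | succ D ih =>
    cases r with
    | zero => simp [mix, rs, pb]
    | succ r =>
      simp only [mix, rs, pb, bf, ih]
      rw [← par_mul, mul_assoc]
      rfl

lemma lam_mix_of_le (j D r : ℕ) (hD : j ≤ D) (hr : r ≤ D - j + 1) (ω ω' ω'' : Bits D)
    (A : Finset (Pos D)) : lam j D ω (mix D r ω' ω'') A = lam j D ω ω' A := by
  induction D generalizing r with
  | zero => rfl
  | succ D ih =>
    cases r with
    | zero => rfl
    | succ r =>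
      by_cases h : j = D + 1
      · obtain rfl : r = 0 := by omega
        simp only [lam, if_pos h, loopP, loopT, mix, mix_zero]
      · simp only [lam, if_neg h, mix]
        rw [ih r (by omega) (by omega), ih r (by omega) (by omega)]

/-- weights for cycles with a cut-off -/
noncomputable def cutW (t : ℝ) (l k : ℕ) : ℝ := (Real.exp t - 1) * max 0 (1 - (k : ℝ) / (l + 1))

lemma cutW_nonneg {t : ℝ} (ht : 0 ≤ t) (l k : ℕ) : 0 ≤ cutW t l k :=
  mul_nonneg (sub_nonneg.2 (Real.one_le_exp ht)) (le_max_left _ _)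

lemma exp_le_cutW {t : ℝ} (ht : 0 ≤ t) (l k : ℕ) :
    Real.exp t ≤ Real.exp (t * k / (l + 1)) * (1 + cutW t l k) := by
  set s : ℝ := k / (l + 1) with hs
  have hs0 : 0 ≤ s := by positivity
  have e : Real.exp t = Real.exp (t * k / (l + 1)) * Real.exp (t * (1 - s)) := by
    rw [← Real.exp_add, mul_div_assoc, ← hs]; congr 1; ring
  rw [e]
  refine mul_le_mul_of_nonneg_left ?_ (Real.exp_pos _).le
  rcases le_total s 1 with h | h
  · have := convexOn_exp.2 (Set.mem_univ (0 : ℝ)) (Set.mem_univ t) hs0 (sub_nonneg.2 h) (by ring)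
    simp only [smul_eq_mul, mul_zero, zero_add, Real.exp_zero] at this
    rw [cutW, ← hs, max_eq_right (sub_nonneg.2 h), mul_comm t]
    linarith
  · have : Real.exp (t * (1 - s)) ≤ 1 :=
      Real.exp_le_one_iff.2 (mul_nonpos_of_nonneg_of_nonpos ht (by linarith))
    linarith [cutW_nonneg ht l k]

lemma sum_cutW_le {t : ℝ} (ht : 0 ≤ t) (l N : ℕ) :
    ∑ k ∈ Icc 1 N, cutW t l k ≤ (Real.exp t - 1) * l / 2 := by
  have h1 : ∀ n : ℕ, ∑ k ∈ Icc 1 n, (1 - (k : ℝ) / (l + 1)) = n - n * (n + 1) / (2 * (l + 1)) := by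
    intro n
    induction n with
    | zero => simp
    | succ n ih => rw [sum_Icc_succ_top (by omega), ih]; push_cast; field_simp; ring
  have h2 : ∑ k ∈ Icc 1 N, max 0 (1 - (k : ℝ) / (l + 1)) ≤ l / 2 := by
    have hl : (0 : ℝ) < l + 1 := by positivity
    calc ∑ k ∈ Icc 1 N, max 0 (1 - (k : ℝ) / (l + 1))
        = ∑ k ∈ (Icc 1 N).filter (· ≤ l), max 0 (1 - (k : ℝ) / (l + 1)) := by
          refine (sum_filter_of_ne fun k _ hk => ?_).symm
          by_contra h
          refine hk (max_eq_left ?_)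
          have : (l : ℝ) + 1 ≤ k := by exact_mod_cast (by omega : l + 1 ≤ k)
          rw [sub_nonpos, le_div_iff₀ hl]; linarith
      _ ≤ ∑ k ∈ Icc 1 l, max 0 (1 - (k : ℝ) / (l + 1)) :=
          sum_le_sum_of_subset_of_nonneg (fun k hk => by
            simp only [mem_filter, mem_Icc] at hk ⊢; omega) fun _ _ _ => le_max_left _ _
      _ = ∑ k ∈ Icc 1 l, (1 - (k : ℝ) / (l + 1)) := by
          refine sum_congr rfl fun k hk => max_eq_right ?_
          have : (k : ℝ) ≤ l := by exact_mod_cast (mem_Icc.1 hk).2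
          rw [sub_nonneg, div_le_one hl]; linarith
      _ = l / 2 := by rw [h1]; field_simp; ring
  unfold cutW
  rw [← mul_sum, mul_div_assoc]
  exact mul_le_mul_of_nonneg_left h2 (sub_nonneg.2 (Real.one_le_exp ht))

lemma exp_cyc_le {X : Type} [Fintype X] [DecidableEq X] (σ : Perm X) (T : Finset X) {t : ℝ}
    (ht : 0 ≤ t) (l : ℕ) :
    Real.exp (t * cyc σ T) ≤ Real.exp (t * T.card / (l + 1)) *
      ∏ C ∈ (orbs σ).filter (· ⊆ T), (1 + cutW t l C.card) := by
  calc Real.exp (t * cyc σ T) = ∏ _C ∈ (orbs σ).filter (· ⊆ T), Real.exp t := by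
        rw [prod_const, ← Real.exp_nat_mul, mul_comm]; rfl
    _ ≤ ∏ C ∈ (orbs σ).filter (· ⊆ T),
          Real.exp (t * C.card / (l + 1)) * (1 + cutW t l C.card) :=
        prod_le_prod (fun _ _ => (Real.exp_pos _).le) fun C _ => exp_le_cutW ht l _
    _ ≤ _ := by
        rw [prod_mul_distrib, ← Real.exp_sum]
        refine mul_le_mul_of_nonneg_right (Real.exp_le_exp.2 ?_)
          (prod_nonneg fun C _ => by linarith [cutW_nonneg ht l C.card])
        rw [← sum_div, ← mul_sum]
        have : ∑ C ∈ (orbs σ).filter (· ⊆ T), (C.card : ℝ) ≤ T.card := by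
          exact_mod_cast sum_card_orbs_le σ T
        gcongr

lemma cyc_moment (D wn l : ℕ) (hw : wn ≤ D) {t : ℝ} (ht : 0 ≤ t) (γ : Perm (Pos D))
    (T : Finset (Pos D)) :
    𝔼 f : Bits D, Real.exp (t * cyc (γ * pb D wn f) T) ≤
      Real.exp (hiC (D + 1) wn l t * T.card) := by
  have h1 := closers_pb D wn hw γ T (cutW t l) (cutW_nonneg ht l) _ (sum_cutW_le ht l _)
  refine (expect_le_expect fun f _ => exp_cyc_le _ T ht l).trans ?_
  rw [← mul_expect]
  refine (mul_le_mul_of_nonneg_left h1 (Real.exp_pos _).le).trans ?_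
  rw [← Real.exp_add, Real.exp_le_exp, hiC, Nat.add_sub_cancel]
  have hT : (T.card : ℝ) ≤ 2 ^ D := by
    have := card_le_univ T; rw [card_pos] at this; exact_mod_cast this
  have hz : 0 ≤ Real.exp t - 1 := sub_nonneg.2 (Real.one_le_exp ht)
  set y := (Real.exp t - 1) * l / 2 / 2 ^ wn with hy
  have hy0 : 0 ≤ y := by positivity
  have e : T.card * ((Real.exp t - 1) * l / 2) / 2 ^ wn = T.card * y := by rw [hy]; ring
  rw [e]
  have : (T.card * y) ^ 2 ≤ 2 ^ D * y * (T.card * y) := by rw [sq]; gcongr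
  have e2 : t * T.card / (l + 1) = t / (l + 1) * T.card := by ring
  rw [e2]; nlinarith

theorem level_hi (j wn l : ℕ) (hj : wn + 1 ≤ j) (t : ℝ) (ht : 0 ≤ t) (D : ℕ) (hD : j ≤ D)
    (ω ω' : Bits D) (A : Finset (Pos D)) :
    𝔼 ω'' : Bits D, Real.exp (t * lam j D ω (mix D (D - j + 1 + wn) ω' ω'') A)
      ≤ Real.exp (hiC j wn l t * trk j D ω A) := by
  induction D with
  | zero => omega
  | succ D ih =>
    rw [expect_bits_succ]
    refine expect_le univ_nonempty fun c'' _ => ?_
    by_cases h : j = D + 1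
    · subst h
      rw [show D + 1 - (D + 1) + 1 + wn = wn + 1 by omega, expect_comm]
      refine expect_le univ_nonempty fun f1'' _ => ?_
      simp only [lam, trk, if_pos, mix, loopP, loopT]
      have h1 := cyc_moment D wn l (by omega) ht
        (ben D ω.2.2 (mix D wn ω'.2.2 f1'') * (bf D ω.2.1)⁻¹ * rs D wn ω'.2.1)
        ((tp (P := Pos D) A).image (ben D ω.2.2 (mix D wn ω'.2.2 f1'')))
      rw [card_image_of_injective _ (Equiv.injective _)] at h1
      refine le_trans (le_of_eq (expect_congr rfl fun f _ => ?_)) h1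
      rw [ben.eq_def D ω.2.1, mul_inv_rev, inv_inv, bf_mix]
      simp only [mul_assoc]
    · rw [show D + 1 - j + 1 + wn = (D - j + 1 + wn) + 1 by omega]
      simp only [lam, trk, if_neg h, mix]
      push_cast
      simp only [mul_add, Real.exp_add]
      rw [← Fintype.expect_mul_expect]
      exact mul_le_mul (ih (by omega) _ _ _) (ih (by omega) _ _ _)
        (expect_nonneg fun _ _ => (Real.exp_pos _).le) (Real.exp_pos _).le

/-- all levels in `J` at once -/
theorem finner_levels (D : ℕ) (J : Finset ℕ) (hJ : J ⊆ Icc 1 D) (t : ℕ → ℝ) (wn l : ℕ → ℕ)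
    (d : ℝ) (hd : 0 ≤ d) (ht : ∀ j ∈ J, 0 < t j) (hw : ∀ j ∈ J, wn j + 1 ≤ j)
    (hbud : ∀ i, ∑ j ∈ J.filter (fun j => j - 1 - wn j < i ∧ i < j), d / t j ≤ 1)
    (ω : Bits D) (A : Finset (Pos D)) :
    𝔼 ω' : Bits D, Real.exp (d * ∑ j ∈ J, (lam j D ω ω' A : ℝ))
      ≤ Real.exp (d * ∑ j ∈ J, hiC j (wn j) (l j) (t j) / t j * trk j D ω A) := by
  have hD : ∀ j ∈ J, j ≤ D := fun j hj => (mem_Icc.1 (hJ hj)).2
  have h := finner_chain (mix D) D (mix_zero D) (expect_mix D) (mix_mix D) J
    (fun j ω' => t j * lam j D ω ω' A) (fun j => hiC j (wn j) (l j) (t j) * trk j D ω A)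
    (fun j => d / t j) (fun j => D - j + 1) (fun j => D - j + 1 + wn j)
    (fun j hj => div_nonneg hd (ht j hj).le) (fun j _ => by omega)
    (fun j hj => by have := hw j hj; have := hD j hj; omega)
    (fun j hj r hr ω' ω'' => by rw [lam_mix_of_le j D r (hD j hj) hr])
    (fun j hj ω' => level_hi j (wn j) (l j) (hw j hj) (t j) (ht j hj).le D (hD j hj) ω ω' A)
    (fun r hr => le_trans (le_of_eq (sum_congr (filter_congr fun j hj => by
      have := hw j hj; have := hD j hj; omega) fun _ _ => rfl)) (hbud (D - r)))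
  have e1 : ∀ ω', ∑ j ∈ J, d / t j * (t j * lam j D ω ω' A) =
      d * ∑ j ∈ J, (lam j D ω ω' A : ℝ) := by
    intro ω'
    rw [mul_sum]
    exact sum_congr rfl fun j hj => by have := ht j hj; field_simp
  have e2 : ∑ j ∈ J, d / t j * (hiC j (wn j) (l j) (t j) * trk j D ω A) =
      d * ∑ j ∈ J, hiC j (wn j) (l j) (t j) / t j * trk j D ω A := by
    rw [mul_sum]
    exact sum_congr rfl fun j _ => by ring
  simpa only [e1, e2] using h

theorem two_mul_trk_le (j D : ℕ) (ω : Bits D) (A : Finset (Pos D)) :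
    2 * trk j D ω A ≤ A.card := by
  induction D with
  | zero => simp [trk]
  | succ D ih =>
    have h3 : (sd ω.1 false A).card + (sd ω.1 true A).card = A.card := card_sd_add ω.1 A
    by_cases h : j = D + 1
    · simp only [trk, if_pos h]
      have h0 : (tp (P := Pos D) A).card ≤ (sd ω.1 false A).card := by
        rw [tp_eq_inter ω.1]; exact card_le_card inter_subset_left
      have h1 : (tp (P := Pos D) A).card ≤ (sd ω.1 true A).card := by
        rw [tp_eq_inter ω.1]; exact card_le_card inter_subset_right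
      omega
    · simp only [trk, if_neg h]
      have := ih ω.2.1 (sd ω.1 false A)
      have := ih ω.2.2 (sd ω.1 true A)
      omega

end Crest.Agent.R155
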