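import Crest.Agent.R155.Num
import Crest.Agent.R155.Cyl

/-!
# Row 155: exponential moments of the total number of loops
-/

set_option autoImplicit false

open Finset Equiv
open scoped BigOperators

namespace Crest.Agent.R155

lemma tH_pos' {D j : ℕ} (hj : j ∈ Icc 41 D) : 0 < tH j := tH_pos (by have := (mem_Icc.1 hj).1; omega)

lemma sum_Icc_split (D : ℕ) (f : ℕ → ℝ) :
    ∑ j ∈ Icc 1 D, f j = ∑ j ∈ Icc 1 (min D 40), f j + ∑ j ∈ Icc 41 D, f j := by
  rw [← sum_union]
  · refine sum_congr ?_ fun _ _ => rfl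
    ext j; simp only [mem_Icc, mem_union]; omega
  · rw [disjoint_left]; intro j h1 h2; simp only [mem_Icc] at h1 h2; omega

theorem momentII (D : ℕ) :
    𝔼 ω : Bits D, 𝔼 ω' : Bits D, Real.exp (1 / 199 * Real.log 2 * Lam D ω ω' univ)
      ≤ Real.exp (1 / 199 * (159 / 100 * 2 ^ D)) := by
  refine expect_le univ_nonempty fun ω _ => ?_
  have hl2 : 0 < Real.log 2 := Real.log_pos (by norm_num)
  set t : ℕ → ℝ := fun j => if j ≤ 40 then Real.log (zII j) else tH j with ht
  set wn : ℕ → ℕ := fun j => if j ≤ 40 then j - 1 else wH j with hwn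
  set l : ℕ → ℕ := fun j => if j ≤ 40 then lII j else lH j with hl
  have htpos : ∀ j, 0 < t j := fun j => by
    simp only [ht]; split_ifs with h
    · exact Real.log_pos (one_lt_zII j)
    · exact tH_pos (by omega)
  have h := finner_levels D (Icc 1 D) subset_rfl t wn l (1 / 199 * Real.log 2) (by positivity)
    (fun j _ => htpos j) (fun j hj => by
      have := (mem_Icc.1 hj).1
      simp only [hwn, wH]; split_ifs <;> omega) (fun i => ?_) ω univ
  · refine le_trans (le_of_eq (expect_congr rfl fun ω' _ => by simp [Lam])) (h.trans ?_)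
    rw [Real.exp_le_exp]
    have h1 : ∑ j ∈ Icc 1 D, hiC j (wn j) (l j) (t j) / t j * trk j D ω univ ≤
        (∑ j ∈ Icc 1 D, hiC j (wn j) (l j) (t j) / t j) * (2 ^ D / 2) := by
      rw [sum_mul]
      refine sum_le_sum fun j _ => mul_le_mul_of_nonneg_left ?_
        (div_nonneg (hiC_nonneg _ _ _ (htpos j).le) (htpos j).le)
      have := two_mul_trk_le j D ω univ
      rw [card_univ, card_pos] at this
      have : (2 : ℝ) * trk j D ω univ ≤ 2 ^ D := by exact_mod_cast this
      linarith
    have h2 : ∑ j ∈ Icc 1 D, hiC j (wn j) (l j) (t j) / t j ≤ 89 / 20 + 1 / 20 := by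
      rw [sum_Icc_split]
      refine add_le_add (le_trans ?_ loII_cost) (le_trans (le_of_eq ?_) (hi_cost D))
      · calc _ = ∑ j ∈ Icc 1 (min D 40),
              hiC j (j - 1) (lII j) (Real.log (zII j)) / Real.log (zII j) :=
              sum_congr rfl fun j hj => by
                have : j ≤ 40 := by have := (mem_Icc.1 hj).2; omega
                simp only [ht, hwn, hl, if_pos this]
          _ ≤ _ := sum_le_sum_of_subset_of_nonneg (Icc_subset_Icc_right (min_le_right _ _))
              fun j _ _ => div_nonneg (hiC_nonneg _ _ _ (Real.log_pos (one_lt_zII j)).le)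
                (Real.log_pos (one_lt_zII j)).le
      · refine sum_congr rfl fun j hj => ?_
        have : ¬ j ≤ 40 := by have := (mem_Icc.1 hj).1; omega
        simp only [ht, hwn, hl, if_neg this]
    have h3 : (0 : ℝ) < 2 ^ D := by positivity
    have h4 := Real.log_two_lt_d9
    calc _ ≤ 1 / 199 * Real.log 2 * ((89 / 20 + 1 / 20) * (2 ^ D / 2)) := by
          refine mul_le_mul_of_nonneg_left (h1.trans ?_) (by positivity)
          gcongr
      _ ≤ _ := by nlinarith
  · rw [sum_filter, sum_Icc_split, ← sum_filter, ← sum_filter]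
    have h1 : ∑ j ∈ (Icc 1 (min D 40)).filter (fun j => j - 1 - wn j < i ∧ i < j),
        1 / 199 * Real.log 2 / t j ≤ 1 / 199 * 175 := by
      refine le_trans ?_ (mul_le_mul_of_nonneg_left loII_budget (by norm_num))
      rw [mul_sum]
      calc _ = ∑ j ∈ (Icc 1 (min D 40)).filter (fun j => j - 1 - wn j < i ∧ i < j),
            1 / 199 * (Real.log 2 / Real.log (zII j)) :=
            sum_congr rfl fun j hj => by
              have : j ≤ 40 := by have := (mem_Icc.1 (mem_filter.1 hj).1).2; omega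
              simp only [ht, if_pos this]; ring
        _ ≤ _ := sum_le_sum_of_subset_of_nonneg (fun j hj => by
              simp only [mem_filter, mem_Icc] at hj ⊢; omega) fun j _ _ => by
              have := Real.log_pos (one_lt_zII j); positivity
    have h2 : ∑ j ∈ (Icc 41 D).filter (fun j => j - 1 - wn j < i ∧ i < j),
        1 / 199 * Real.log 2 / t j ≤ 1 / 199 * 24 := by
      refine le_trans (le_of_eq ?_) (mul_le_mul_of_nonneg_left (hi_budget D i) (by norm_num))
      rw [mul_sum]
      refine sum_congr (filter_congr fun j hj => ?_) fun j hj => ?_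
      · have : ¬ j ≤ 40 := by have := (mem_Icc.1 hj).1; omega
        simp only [hwn, if_neg this]
      · have : ¬ j ≤ 40 := by have := (mem_Icc.1 (mem_filter.1 hj).1).1; omega
        simp only [ht, if_neg this]; ring
    linarith

/-- the high levels for a random tracked set -/
lemma moment_hi {Θ : Type} [Fintype Θ] [Nonempty Θ] (D : ℕ) (S : Θ → Finset (Pos D)) (x : ℝ)
    (hx : 0 ≤ x) (hS : Cyl S x) :
    𝔼 θ : Θ, 𝔼 ω : Bits D, 𝔼 ω' : Bits D,
      Real.exp (1 / 24 * Real.log 2 * ∑ j ∈ Icc 41 D, (lam j D ω ω' (S θ) : ℝ))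
      ≤ Real.exp (1 / 480 * Real.log 2 * x ^ 2 * 2 ^ D) := by
  have hl2 : 0 < Real.log 2 := Real.log_pos (by norm_num)
  rw [expect_comm]
  refine expect_le univ_nonempty fun ω _ => ?_
  have h1 : ∀ θ, 𝔼 ω' : Bits D,
      Real.exp (1 / 24 * Real.log 2 * ∑ j ∈ Icc 41 D, (lam j D ω ω' (S θ) : ℝ)) ≤
      Real.exp (∑ j ∈ Icc 41 D, (20 * (hiC j (wH j) (lH j) (tH j) / tH j)) *
        (1 / 480 * Real.log 2 * trk j D ω (S θ))) := by
    intro θ
    refine (finner_levels D (Icc 41 D) (Icc_subset_Icc_left (by norm_num)) tH wH lH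
      (1 / 24 * Real.log 2) (by positivity) (fun j hj => tH_pos' hj) (fun j hj => by
        have := (mem_Icc.1 hj).1
        simp only [wH]; omega) (fun i => ?_) ω (S θ)).trans (le_of_eq ?_)
    · have := hi_budget D i
      simp only [mul_div_assoc, ← mul_sum]
      linarith
    · rw [mul_sum]; congr 1
      exact sum_congr rfl fun j _ => by ring
  set τ := 1 / 480 * Real.log 2 with hτ
  have hτ0 : 0 ≤ τ := by positivity
  have hτ1 : τ ≤ 1 := by have := Real.log_two_lt_d9; rw [hτ]; linarith
  have hq : ∑ j ∈ Icc 41 D, 20 * (hiC j (wH j) (lH j) (tH j) / tH j) ≤ 1 := by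
    rw [← mul_sum]; linarith [hi_cost D]
  have h2 := holder_exp (Icc 41 D) (fun j θ => τ * trk j D ω (S θ))
    (fun _ => (Real.exp τ - 1) * x ^ 2 * 2 ^ D / 2)
    (fun j => 20 * (hiC j (wH j) (lH j) (tH j) / tH j))
    (fun j hj => by
      have := hiC_nonneg j (wH j) (lH j) (tH_pos' hj).le
      have := tH_pos' hj
      positivity) hq
    (fun j _ => trk_moment D S x hx hS j τ hτ0 ω)
  refine (expect_le_expect fun θ _ => h1 θ).trans (h2.trans ?_)
  rw [Real.exp_le_exp, ← sum_mul]
  have h3 : Real.exp τ - 1 ≤ 2 * τ := by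
    have := Real.abs_exp_sub_one_le (x := τ) (by rw [abs_of_nonneg hτ0]; exact hτ1)
    rw [abs_of_nonneg hτ0] at this
    exact (le_abs_self _).trans this
  have h4 : 0 ≤ Real.exp τ - 1 := sub_nonneg.2 (Real.one_le_exp hτ0)
  calc _ ≤ 1 * ((Real.exp τ - 1) * x ^ 2 * 2 ^ D / 2) := by gcongr
    _ ≤ 1 * ((2 * τ) * x ^ 2 * 2 ^ D / 2) := by gcongr
    _ = _ := by ring

theorem momentI {Θ : Type} [Fintype Θ] [Nonempty Θ] (D : ℕ) (S : Θ → Finset (Pos D)) (x : ℝ)
    (hx : 0 ≤ x) (hx' : x ^ 2 ≤ 25 / 64) (hS : Cyl S x) :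
    𝔼 θ : Θ, 𝔼 ω : Bits D, 𝔼 ω' : Bits D, Real.exp (1 / 72 * Real.log 2 * Lam D ω ω' (S θ))
      ≤ Real.exp (1 / 72 * (6 / 5 * x ^ 2 * 2 ^ D)) := by
  have hl2 : 0 < Real.log 2 := Real.log_pos (by norm_num)
  have hprod : ∀ F : Θ → Bits D → Bits D → ℝ, 𝔼 θ, 𝔼 ω, 𝔼 ω', F θ ω ω' =
      𝔼 p : Θ × Bits D × Bits D, F p.1 p.2.1 p.2.2 := by
    intro F
    rw [← univ_product_univ, expect_product]
    refine expect_congr rfl fun θ _ => ?_
    rw [← univ_product_univ, expect_product]
  set μ : ℕ → ℝ := fun j => (zI j - 1) * uI j * x ^ 2 with hμ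
  have hlz : ∀ j, 0 < Real.log (zI j) := fun j => Real.log_pos (one_lt_zI j)
  have huI : ∀ j, 0 ≤ uI j := fun j => by unfold uI; split_ifs <;> norm_num
  have h0 : 0 ∉ Icc 1 (min D 40) := by simp
  have hne : ∀ j ∈ Icc 1 (min D 40), j ≠ 0 := fun j hj => by have := (mem_Icc.1 hj).1; omega
  have h := holder_exp (Ω := Θ × Bits D × Bits D) (insert 0 (Icc 1 (min D 40)))
    (fun j p => if j = 0 then
      1 / 24 * Real.log 2 * ∑ j ∈ Icc 41 D, (lam j D p.2.1 p.2.2 (S p.1) : ℝ)
      else Real.log (zI j) * lam j D p.2.1 p.2.2 (S p.1))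
    (fun j => if j = 0 then 1 / 480 * Real.log 2 * x ^ 2 * 2 ^ D
      else (μ j + 3 / 2 * μ j ^ 2) * 2 ^ (D - j))
    (fun j => if j = 0 then 1 / 3 else 1 / 72 * (Real.log 2 / Real.log (zI j)))
    (fun j _ => by have := hlz j; split_ifs <;> positivity) ?_ ?_
  · rw [hprod]
    refine le_trans (le_of_eq (expect_congr rfl fun p _ => ?_)) (h.trans ?_)
    · have e : ∑ j ∈ Icc 1 (min D 40), (if j = 0 then 1 / 3 else
          1 / 72 * (Real.log 2 / Real.log (zI j))) * (if j = 0 then
          1 / 24 * Real.log 2 * ∑ j ∈ Icc 41 D, (lam j D p.2.1 p.2.2 (S p.1) : ℝ)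
          else Real.log (zI j) * lam j D p.2.1 p.2.2 (S p.1)) =
          1 / 72 * Real.log 2 * ∑ j ∈ Icc 1 (min D 40), (lam j D p.2.1 p.2.2 (S p.1) : ℝ) := by
        rw [mul_sum (Icc 1 (min D 40))]
        refine sum_congr rfl fun j hj => ?_
        have := hlz j
        simp only [if_neg (hne j hj)]; field_simp
      rw [sum_insert h0, e, Lam]; push_cast
      rw [sum_Icc_split]; congr 1; ring
    · rw [Real.exp_le_exp, sum_insert h0]
      have h1 : ∑ j ∈ Icc 1 (min D 40), (if j = 0 then 1 / 3 else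
          1 / 72 * (Real.log 2 / Real.log (zI j))) * (if j = 0 then
          1 / 480 * Real.log 2 * x ^ 2 * 2 ^ D else (μ j + 3 / 2 * μ j ^ 2) * 2 ^ (D - j)) ≤
          1 / 72 * Real.log 2 * x ^ 2 * 2 ^ D * (8 / 5) := by
        refine le_trans ?_ (mul_le_mul_of_nonneg_left loI_cost (by positivity))
        rw [mul_sum]
        refine le_trans (sum_le_sum fun j hj => ?_)
          (sum_le_sum_of_subset_of_nonneg (Icc_subset_Icc_right (min_le_right D 40))
          fun j _ _ => ?_)
        · have hz := one_lt_zI j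
          have hlz' := hlz j
          have hu := huI j
          have hjD : j ≤ D := by have := (mem_Icc.1 hj).2; omega
          have e : (2 : ℝ) ^ D = 2 ^ (D - j) * 2 ^ j := by rw [← pow_add]; congr 1; omega
          simp only [if_neg (hne j hj)]
          have hzu : 0 ≤ (zI j - 1) * uI j := mul_nonneg (by linarith) hu
          have h2 : μ j + 3 / 2 * μ j ^ 2 ≤
              x ^ 2 * ((zI j - 1) * uI j * (1 + 3 / 2 * ((zI j - 1) * uI j) * (25 / 64))) := by
            simp only [hμ]
            generalize (zI j - 1) * uI j = y at hzu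
            have : y * x ^ 2 * (y * x ^ 2) ≤ y * x ^ 2 * (y * (25 / 64)) := by gcongr
            nlinarith
          calc _ ≤ 1 / 72 * (Real.log 2 / Real.log (zI j)) * ((x ^ 2 * ((zI j - 1) * uI j *
                (1 + 3 / 2 * ((zI j - 1) * uI j) * (25 / 64)))) * 2 ^ (D - j)) := by gcongr
            _ = _ := by rw [e]; field_simp
        · have hz := one_lt_zI j
          have hlz' := hlz j
          have hzu : 0 ≤ (zI j - 1) * uI j := mul_nonneg (by linarith) (huI j)
          positivity
      have h4 := Real.log_two_lt_d9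
      have h3 : (0 : ℝ) ≤ x ^ 2 * 2 ^ D := by positivity
      simp only [if_pos]
      nlinarith
  · rw [sum_insert h0, sum_congr rfl (g := fun j => 1 / 72 * (Real.log 2 / Real.log (zI j)))
      fun j hj => if_neg (hne j hj), ← mul_sum]
    have : ∑ j ∈ Icc 1 (min D 40), Real.log 2 / Real.log (zI j) ≤ 48 :=
      le_trans (sum_le_sum_of_subset_of_nonneg (Icc_subset_Icc_right (min_le_right D 40))
        fun j _ _ => by have := hlz j; positivity) loI_budget
    simp only [if_pos]
    linarith
  · intro j hj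
    rcases mem_insert.1 hj with rfl | hj
    · simp only [if_pos]
      have := moment_hi D S x hx hS
      rwa [hprod] at this
    · simp only [if_neg (hne j hj)]
      have := level_lo D S x hx hS j (mem_Icc.1 hj).1 (by have := (mem_Icc.1 hj).2; omega)
        (Real.log (zI j)) (hlz j).le (μ j) (by
          rw [Real.exp_log (by linarith [one_lt_zI j]), hμ]
          simp only
          rw [mul_assoc]
          exact mul_le_mul_of_nonneg_left (geom_le_uI j (sq_nonneg x) hx')
            (by linarith [one_lt_zI j]))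
      rwa [hprod] at this

end Crest.Agent.R155
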