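import Crest.Agent.R155.Levels

/-!
# Row 155: numerical parameters
-/

set_option autoImplicit false

open Finset
open scoped BigOperators

namespace Crest.Agent.R155

/-! ### high levels `j > 40` -/

/-- exponent of a high level -/
noncomputable def tH (j : ℕ) : ℝ := ((j / 8 : ℕ) : ℝ) * Real.log 2
/-- window of a high level -/
def wH (j : ℕ) : ℕ := j - 1 - j / 16
/-- cut-off of a high level -/
def lH (j : ℕ) : ℕ := 2 ^ (j / 5) - 1

theorem tH_pos {j : ℕ} (hj : 40 < j) : 0 < tH j := by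
  have h : (1 : ℝ) ≤ ((j / 8 : ℕ) : ℝ) := by exact_mod_cast (by omega : 1 ≤ j / 8)
  have := Real.log_two_gt_d9
  unfold tH
  positivity

theorem num_harm (a : ℕ) (ha : 8 ≤ a) (n : ℕ) (hn : a ≤ n) :
    ∑ j ∈ Ioc a n, 1 / ((j : ℝ) - 7) ≤ Real.log ((n : ℝ) - 7) - Real.log ((a : ℝ) - 7) := by
  induction n, hn using Nat.le_induction with
  | base => simp
  | succ n hn ih =>
    rw [Finset.sum_Ioc_succ_top hn]
    have h8 : (8 : ℝ) ≤ n := by exact_mod_cast ha.trans hn
    have h1 : (0 : ℝ) < (n : ℝ) - 7 := by linarith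
    have h2 : (0 : ℝ) < (n : ℝ) + 1 - 7 := by linarith
    have h3 := Real.one_sub_inv_le_log_of_pos (div_pos h2 h1)
    rw [Real.log_div h2.ne' h1.ne'] at h3
    have h4 : 1 - (((n : ℝ) + 1 - 7) / ((n : ℝ) - 7))⁻¹ = 1 / ((n : ℝ) + 1 - 7) := by
      field_simp; ring
    push_cast
    linarith

theorem hi_budget (D i : ℕ) :
    ∑ j ∈ (Icc 41 D).filter (fun j => j - 1 - wH j < i ∧ i < j), Real.log 2 / tH j ≤ 24 := by
  have hl := Real.log_two_gt_d9
  set a := max i 40 with ha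
  have ha1 : 40 ≤ a := le_max_right _ _
  have ha2 : i ≤ a := le_max_left _ _
  have hsub : (Icc 41 D).filter (fun j => j - 1 - wH j < i ∧ i < j) ⊆ Ioc a (20 * a - 133) := by
    intro j hj
    simp only [Finset.mem_filter, Finset.mem_Icc, wH] at hj
    rw [Finset.mem_Ioc]
    omega
  have hterm : ∀ j ∈ Ioc a (20 * a - 133), Real.log 2 / tH j ≤ 8 * (1 / ((j : ℝ) - 7)) := by
    intro j hj
    have hj1 : 40 < j := by have := (Finset.mem_Ioc.1 hj).1; omega
    have h1 : (j : ℝ) ≤ 8 * ((j / 8 : ℕ) : ℝ) + 7 := by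
      exact_mod_cast (by omega : j ≤ 8 * (j / 8) + 7)
    have h2 : (41 : ℝ) ≤ j := by exact_mod_cast hj1
    have h3 : (0 : ℝ) < ((j / 8 : ℕ) : ℝ) := by linarith
    have h4 : Real.log 2 / tH j = 1 / ((j / 8 : ℕ) : ℝ) := by
      unfold tH
      have : Real.log 2 ≠ 0 := by linarith
      field_simp
    rw [h4, mul_one_div, div_le_div_iff₀ h3 (by linarith)]
    linarith
  have h1 := Finset.sum_le_sum_of_subset_of_nonneg (f := fun j => Real.log 2 / tH j) hsub
    (fun j hj _ => div_nonneg (by linarith)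
      (tH_pos (by have := (Finset.mem_Ioc.1 hj).1; omega)).le)
  have h2 := Finset.sum_le_sum hterm
  rw [← Finset.mul_sum] at h2
  have h3 := num_harm a (by omega) (20 * a - 133) (by omega)
  have ha3 : (40 : ℝ) ≤ a := by exact_mod_cast ha1
  have h4 : ((20 * a - 133 : ℕ) : ℝ) - 7 = 20 * ((a : ℝ) - 7) := by
    rw [Nat.cast_sub (by omega)]; push_cast; ring
  rw [h4, Real.log_mul (by norm_num) (by linarith)] at h3
  have h5 : Real.log 20 ≤ 3 := by
    rw [Real.log_le_iff_le_exp (by norm_num)]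
    have h6 := Real.exp_one_gt_d9
    have h7 : Real.exp 3 = Real.exp 1 ^ 3 := by rw [← Real.exp_nat_mul]; norm_num
    rw [h7]
    have h8 : (2.7182818283 : ℝ) ^ 3 ≤ Real.exp 1 ^ 3 := pow_le_pow_left₀ (by norm_num) h6.le 3
    refine le_trans (by norm_num) h8
  linarith

theorem num_hi_term {j : ℕ} (hj : 40 < j) :
    hiC j (wH j) (lH j) (tH j) / tH j ≤ 13 / 10 * (1 / 2 ^ (j / 5)) := by
  have ht := tH_pos hj
  have hl := Real.log_two_gt_d9
  have ht2 : 17 / 5 ≤ tH j := by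
    have h : (5 : ℝ) ≤ ((j / 8 : ℕ) : ℝ) := by exact_mod_cast (by omega : 5 ≤ j / 8)
    unfold tH
    nlinarith
  have hexp : Real.exp (tH j) = 2 ^ (j / 8) := by
    unfold tH
    rw [Real.exp_nat_mul, Real.exp_log (by norm_num)]
  have hl1 : ((lH j : ℕ) : ℝ) = 2 ^ (j / 5) - 1 := by
    unfold lH
    rw [Nat.cast_sub Nat.one_le_two_pow]; push_cast; ring
  have f1 : (2 : ℝ) ^ (j / 8) * 2 ^ (j / 5) * 2 ^ (j / 5) * 8 ≤ 2 ^ wH j := by
    rw [show (8 : ℝ) = 2 ^ 3 by norm_num, ← pow_add, ← pow_add, ← pow_add]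
    exact pow_le_pow_right₀ (by norm_num) (by unfold wH; omega)
  have f2 : (2 : ℝ) ^ (j - 1) * (2 ^ (j / 8) * 2 ^ (j / 5)) ^ 2 * 2 ^ (j / 5) ≤
      2 * (2 ^ wH j) ^ 2 := by
    rw [← pow_add, ← pow_mul, ← pow_add, ← pow_add, ← pow_mul, ← pow_succ']
    exact pow_le_pow_right₀ (by norm_num) (by unfold wH; omega)
  unfold hiC
  rw [hexp, hl1]
  have hA : (1 : ℝ) ≤ 2 ^ (j / 8) := one_le_pow₀ (by norm_num)
  have hQ : (1 : ℝ) ≤ 2 ^ (j / 5) := one_le_pow₀ (by norm_num)
  have hW : (0 : ℝ) < 2 ^ wH j := by positivity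
  have hJ : (0 : ℝ) < 2 ^ (j - 1) := by positivity
  generalize (2 : ℝ) ^ (j / 8) = A at *
  generalize (2 : ℝ) ^ (j / 5) = Q at *
  generalize (2 : ℝ) ^ wH j = W at *
  generalize (2 : ℝ) ^ (j - 1) = J at *
  generalize tH j = t at *
  set y := (A - 1) * (Q - 1) / 2 / W with hy
  have hQ0 : 0 < Q := by linarith
  have hy0 : 0 ≤ y := by
    have : 0 ≤ (A - 1) * (Q - 1) := mul_nonneg (by linarith) (by linarith)
    positivity
  have hy1 : y ≤ A * Q / 2 / W := by
    have : (A - 1) * (Q - 1) ≤ A * Q := by nlinarith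
    rw [hy]; gcongr
  have g1 : y * Q ≤ 1 / 16 := by
    calc y * Q ≤ A * Q / 2 / W * Q := by gcongr
      _ = A * Q * Q * 8 / W / 16 := by ring
      _ ≤ 1 / 16 := by
        have : A * Q * Q * 8 / W ≤ 1 := (div_le_one hW).2 f1
        linarith
  have g2 : J * y ^ 2 * Q ≤ 1 / 2 := by
    calc J * y ^ 2 * Q ≤ J * (A * Q / 2 / W) ^ 2 * Q := by gcongr
      _ = J * (A * Q) ^ 2 * Q / (2 * W ^ 2) / 2 := by field_simp
      _ ≤ 1 / 2 := by
        have : J * (A * Q) ^ 2 * Q / (2 * W ^ 2) ≤ 1 := (div_le_one (by positivity)).2 f2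
        linarith
  have g3 : y * (1 + 3 / 2 * J * y) ≤ 13 / 16 * (1 / Q) := by
    rw [mul_one_div, le_div_iff₀ hQ0]
    nlinarith
  rw [div_le_iff₀ ht, sub_add_cancel]
  have hq : 0 < 1 / Q := by positivity
  have e : t / Q = t * (1 / Q) := by ring
  rw [e]
  nlinarith

theorem num_hi_geom (q : ℕ) :
    ∑ j ∈ Ico 41 (5 * (q + 9)), (1 / 2 ^ (j / 5) : ℝ) ≤ 9 / 256 - 10 / 2 ^ (q + 9) := by
  induction q with
  | zero =>
    have : ∑ j ∈ Ico 41 (5 * (0 + 9)), (1 / 2 ^ (j / 5) : ℝ) =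
        ∑ _j ∈ Ico 41 (5 * (0 + 9)), (1 / 2 ^ 8 : ℝ) := by
      refine Finset.sum_congr rfl fun j hj => ?_
      rw [Finset.mem_Ico] at hj
      rw [show j / 5 = 8 by omega]
    rw [this, Finset.sum_const, Nat.card_Ico]
    norm_num
  | succ q ih =>
    rw [← Finset.sum_Ico_consecutive _ (by omega : 41 ≤ 5 * (q + 9))
      (by omega : 5 * (q + 9) ≤ 5 * (q + 1 + 9))]
    have : ∑ j ∈ Ico (5 * (q + 9)) (5 * (q + 1 + 9)), (1 / 2 ^ (j / 5) : ℝ) =
        ∑ _j ∈ Ico (5 * (q + 9)) (5 * (q + 1 + 9)), (1 / 2 ^ (q + 9) : ℝ) := by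
      refine Finset.sum_congr rfl fun j hj => ?_
      rw [Finset.mem_Ico] at hj
      rw [show j / 5 = q + 9 by omega]
    rw [this, Finset.sum_const, Nat.card_Ico, show 5 * (q + 1 + 9) - 5 * (q + 9) = 5 by omega,
      show q + 1 + 9 = q + 9 + 1 by omega, pow_succ (2 : ℝ) (q + 9)]
    have e : (10 : ℝ) / (2 ^ (q + 9) * 2) = 5 * (1 / 2 ^ (q + 9)) := by field_simp; norm_num
    have e2 : (10 : ℝ) / 2 ^ (q + 9) = 10 * (1 / 2 ^ (q + 9)) := by ring
    rw [e, nsmul_eq_mul]
    rw [e2] at ih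
    push_cast
    linarith

theorem hi_cost (D : ℕ) : ∑ j ∈ Icc 41 D, hiC j (wH j) (lH j) (tH j) / tH j ≤ 1 / 20 := by
  have h1 := Finset.sum_le_sum (s := Icc 41 D)
    fun j hj => num_hi_term (j := j) (by have := (Finset.mem_Icc.1 hj).1; omega)
  rw [← Finset.mul_sum] at h1
  have h2 : ∑ j ∈ Icc 41 D, (1 / 2 ^ (j / 5) : ℝ) ≤
      ∑ j ∈ Ico 41 (5 * (D + 9)), (1 / 2 ^ (j / 5) : ℝ) := by
    refine Finset.sum_le_sum_of_subset_of_nonneg (fun j hj => ?_) fun _ _ _ => by positivity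
    rw [Finset.mem_Icc] at hj
    rw [Finset.mem_Ico]
    omega
  have h3 := num_hi_geom D
  have h4 : (0 : ℝ) ≤ 10 / 2 ^ (D + 9) := by positivity
  linarith

theorem hiC_nonneg (j wn l : ℕ) {t : ℝ} (ht : 0 ≤ t) : 0 ≤ hiC j wn l t := by
  have h : 0 ≤ Real.exp t - 1 := by linarith [Real.add_one_le_exp t]
  unfold hiC
  positivity

/-! ### low levels, all cards tracked -/

/-- `exp` of the exponent of a low level (regime II) -/
noncomputable def zII (j : ℕ) : ℝ :=
  if j ≤ 9 then 18 / 17 else if j ≤ 12 then 12 / 11 else if j ≤ 15 then 8 / 7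
  else if j ≤ 18 then 6 / 5 else if j ≤ 21 then 4 / 3 else if j ≤ 25 then 3 / 2
  else if j ≤ 32 then 2 else 4

/-- cut-off of a low level (regime II) -/
def lII (j : ℕ) : ℕ :=
  [0, 0, 1, 2, 3, 4, 5, 8, 10, 14, 16, 21, 28, 31, 39, 51, 56, 71, 91, 99, 122, 149, 164, 210,
    255, 325, 310, 399, 499, 599, 799, 999, 1299, 999, 1199, 1499, 1899, 2399, 2999, 3999,
    4999].getD j 0

theorem one_lt_zII (j : ℕ) : 1 < zII j := by
  unfold zII
  split_ifs <;> norm_num

theorem num_log_ge {x z : ℝ} (hx : 0 ≤ x) (hz : z = 1 + x) : 2 * x / (x + 2) ≤ Real.log z := by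
  rw [hz]; exact Real.le_log_one_add_of_nonneg hx

theorem num_log_pow (k : ℕ) : (k : ℝ) * (693 / 1000) ≤ Real.log (2 ^ k) := by
  rw [Real.log_pow]
  have := Real.log_two_gt_d9
  exact mul_le_mul_of_nonneg_left (by linarith) (Nat.cast_nonneg k)

/-- rational lower bound for `log (zII j)` -/
noncomputable def numLII (j : ℕ) : ℝ :=
  if j ≤ 9 then 2 / 35 else if j ≤ 12 then 2 / 23 else if j ≤ 15 then 2 / 15
  else if j ≤ 18 then 2 / 11 else if j ≤ 21 then 2 / 7 else if j ≤ 25 then 2 / 5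
  else if j ≤ 32 then 693 / 1000 else 693 / 500

theorem numLII_pos (j : ℕ) : 0 < numLII j := by
  unfold numLII
  split_ifs <;> norm_num

theorem numLII_le (j : ℕ) : numLII j ≤ Real.log (zII j) := by
  unfold numLII zII
  split_ifs
  · exact le_trans (by norm_num) (num_log_ge (x := 1 / 17) (by norm_num) (by norm_num))
  · exact le_trans (by norm_num) (num_log_ge (x := 1 / 11) (by norm_num) (by norm_num))
  · exact le_trans (by norm_num) (num_log_ge (x := 1 / 7) (by norm_num) (by norm_num))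
  · exact le_trans (by norm_num) (num_log_ge (x := 1 / 5) (by norm_num) (by norm_num))
  · exact le_trans (by norm_num) (num_log_ge (x := 1 / 3) (by norm_num) (by norm_num))
  · exact le_trans (by norm_num) (num_log_ge (x := 1 / 2) (by norm_num) (by norm_num))
  · have := num_log_pow 1
    norm_num at this ⊢
    linarith
  · have := num_log_pow 2
    norm_num at this ⊢
    linarith

theorem num_budget_term {z L : ℝ} (hL : 0 < L) (h : L ≤ Real.log z) :
    Real.log 2 / Real.log z ≤ (6932 / 10000) / L := by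
  have := Real.log_two_lt_d9
  exact div_le_div₀ (by norm_num) (by linarith) hL h

theorem num_sum_Icc (a b : ℕ) (f : ℕ → ℝ) :
    ∑ j ∈ Icc a b, f j = ∑ i ∈ range (b + 1 - a), f (a + i) := by
  rw [← Finset.sum_Ico_eq_sum_range, Finset.Ico_add_one_right_eq_Icc]

theorem loII_budget : ∑ j ∈ Icc 2 40, Real.log 2 / Real.log (zII j) ≤ 175 := by
  refine (Finset.sum_le_sum fun j _ => num_budget_term (numLII_pos j) (numLII_le j)).trans ?_
  rw [num_sum_Icc]
  simp only [Nat.reduceAdd, Nat.reduceSub, Finset.sum_range_succ, Finset.sum_range_zero, numLII,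
    Nat.reduceLeDiff, if_true, if_false]
  norm_num

theorem loII_cost :
    ∑ j ∈ Icc 1 40, hiC j (j - 1) (lII j) (Real.log (zII j)) / Real.log (zII j) ≤ 89 / 20 := by
  have hterm : ∀ j ∈ Icc 1 40,
      hiC j (j - 1) (lII j) (Real.log (zII j)) / Real.log (zII j) ≤
      1 / ((lII j : ℝ) + 1) + ((zII j - 1) * lII j / 2 / 2 ^ (j - 1)) *
        (1 + 3 / 2 * 2 ^ (j - 1) * ((zII j - 1) * lII j / 2 / 2 ^ (j - 1))) / numLII j := by
    intro j _
    have h1 := one_lt_zII j
    have h2 := numLII_pos j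
    have h3 := numLII_le j
    have h4 : 0 < zII j - 1 := by linarith
    have h5 : 0 < Real.log (zII j) := by linarith
    unfold hiC
    rw [Real.exp_log (by linarith), add_div]
    refine add_le_add (le_of_eq (by field_simp)) ?_
    exact div_le_div_of_nonneg_left (by positivity) h2 h3
  refine (Finset.sum_le_sum hterm).trans ?_
  rw [num_sum_Icc]
  simp only [Nat.reduceAdd, Nat.reduceSub, Finset.sum_range_succ, Finset.sum_range_zero, numLII,
    zII, lII, List.getD_cons_succ, List.getD_cons_zero, Nat.reduceLeDiff, if_true, if_false]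
  norm_num

/-! ### low levels, a random tracked set -/

/-- `exp` of the exponent of a low level (regime I) -/
noncomputable def zI (j : ℕ) : ℝ :=
  if j ≤ 3 then 11 / 10 else if j ≤ 5 then 7 / 6 else if j ≤ 7 then 4 / 3
  else if j ≤ 12 then 2 else if j ≤ 16 then 4 else if j ≤ 24 then 16 else 256

/-- bound for `∑_{l ≤ 2^(j-1)} w^l / w` when `w ≤ 25/64` -/
noncomputable def uI (j : ℕ) : ℝ := if j = 1 then 1 else 64 / 39

theorem one_lt_zI (j : ℕ) : 1 < zI j := by
  unfold zI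
  split_ifs <;> norm_num

/-- rational lower bound for `log (zI j)` -/
noncomputable def numLI (j : ℕ) : ℝ :=
  if j ≤ 3 then 2 / 21 else if j ≤ 5 then 2 / 13 else if j ≤ 7 then 2 / 7
  else if j ≤ 12 then 693 / 1000 else if j ≤ 16 then 693 / 500 else if j ≤ 24 then 693 / 250
  else 693 / 125

theorem numLI_pos (j : ℕ) : 0 < numLI j := by
  unfold numLI
  split_ifs <;> norm_num

theorem numLI_le (j : ℕ) : numLI j ≤ Real.log (zI j) := by
  unfold numLI zI
  split_ifs
  · exact le_trans (by norm_num) (num_log_ge (x := 1 / 10) (by norm_num) (by norm_num))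
  · exact le_trans (by norm_num) (num_log_ge (x := 1 / 6) (by norm_num) (by norm_num))
  · exact le_trans (by norm_num) (num_log_ge (x := 1 / 3) (by norm_num) (by norm_num))
  · have := num_log_pow 1
    norm_num at this ⊢
    linarith
  · have := num_log_pow 2
    norm_num at this ⊢
    linarith
  · have := num_log_pow 4
    norm_num at this ⊢
    linarith
  · have := num_log_pow 8
    norm_num at this ⊢
    linarith

theorem loI_budget : ∑ j ∈ Icc 1 40, Real.log 2 / Real.log (zI j) ≤ 48 := by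
  refine (Finset.sum_le_sum fun j _ => num_budget_term (numLI_pos j) (numLI_le j)).trans ?_
  rw [num_sum_Icc]
  simp only [Nat.reduceAdd, Nat.reduceSub, Finset.sum_range_succ, Finset.sum_range_zero, numLI,
    Nat.reduceLeDiff, if_true, if_false]
  norm_num

theorem loI_cost :
    ∑ j ∈ Icc 1 40, (zI j - 1) * uI j * (1 + 3 / 2 * ((zI j - 1) * uI j) * (25 / 64))
      / Real.log (zI j) / 2 ^ j ≤ 8 / 5 := by
  have hterm : ∀ j ∈ Icc 1 40,
      (zI j - 1) * uI j * (1 + 3 / 2 * ((zI j - 1) * uI j) * (25 / 64))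
        / Real.log (zI j) / 2 ^ j ≤
      (zI j - 1) * uI j * (1 + 3 / 2 * ((zI j - 1) * uI j) * (25 / 64)) / numLI j / 2 ^ j := by
    intro j _
    have h1 := one_lt_zI j
    have h2 := numLI_pos j
    have h3 := numLI_le j
    have h4 : 0 < zI j - 1 := by linarith
    have h5 : 0 < uI j := by unfold uI; split_ifs <;> norm_num
    exact div_le_div_of_nonneg_right (div_le_div_of_nonneg_left (by positivity) h2 h3)
      (by positivity)
  refine (Finset.sum_le_sum hterm).trans ?_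
  rw [num_sum_Icc]
  simp only [Nat.reduceAdd, Nat.reduceSub, Finset.sum_range_succ, Finset.sum_range_zero, numLI,
    zI, uI, Nat.reduceLeDiff, Nat.reduceEqDiff, if_true, if_false]
  norm_num

theorem geom_le_uI (j : ℕ) {w : ℝ} (hw0 : 0 ≤ w) (hw : w ≤ 25 / 64) :
    ∑ l ∈ Icc 1 (2 ^ (j - 1)), w ^ l ≤ uI j * w := by
  have key : ∀ N : ℕ, ∑ l ∈ Icc 1 N, w ^ l ≤ 64 / 39 * (w - w ^ (N + 1)) := by
    intro N
    induction N with
    | zero => simp
    | succ N ih =>
      rw [Finset.sum_Icc_succ_top (by omega), pow_succ w (N + 1)]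
      have : 0 ≤ w ^ (N + 1) := pow_nonneg hw0 _
      nlinarith
  unfold uI
  split_ifs with h
  · subst h; simp
  · have h1 := key (2 ^ (j - 1))
    have : 0 ≤ w ^ (2 ^ (j - 1) + 1) := pow_nonneg hw0 _
    linarith

end Crest.Agent.R155
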