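import Mathlib

/-!
# Row 155: orthogonal representations of a finite symmetric group, definitions

`ρ : Perm α →* Module.End ℝ V` preserving the inner product.  For a finset `B` of points,
`fixer B` is the group `S_B` of permutations fixing every point outside `B`, `Fix ρ B` the
subspace of `S_B`-invariant vectors, `tw ρ = sign ⊗ ρ`.
-/

set_option autoImplicit false

open Finset Equiv
open scoped BigOperators RealInnerProductSpace

namespace Crest.Agent.R155

variable {α : Type} [Fintype α] [DecidableEq α]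

/-- `g` fixes every point outside `B` -/
def Supp (B : Finset α) (g : Perm α) : Prop := ∀ z, z ∉ B → g z = z

instance (B : Finset α) : DecidablePred (Supp B) := fun g =>
  inferInstanceAs (Decidable (∀ z, z ∉ B → g z = z))

/-- the permutations fixing every point outside `B` -/
def fixer (B : Finset α) : Finset (Perm α) := univ.filter (Supp B)

@[simp] lemma mem_fixer {B : Finset α} {g : Perm α} : g ∈ fixer B ↔ Supp B g := by simp [fixer]

omit [Fintype α] [DecidableEq α] in
lemma Supp.one (B : Finset α) : Supp B 1 := fun _ _ => rfl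
omit [Fintype α] [DecidableEq α] in
lemma Supp.mul {B : Finset α} {g h : Perm α} (hg : Supp B g) (hh : Supp B h) : Supp B (g * h) :=
  fun z hz => by rw [Perm.mul_apply, hh z hz, hg z hz]
omit [Fintype α] [DecidableEq α] in
lemma Supp.inv {B : Finset α} {g : Perm α} (hg : Supp B g) : Supp B g⁻¹ :=
  fun z hz => by rw [Perm.inv_eq_iff_eq]; exact (hg z hz).symm
omit [Fintype α] [DecidableEq α] in
lemma Supp.mono {B C : Finset α} {g : Perm α} (hg : Supp B g) (h : B ⊆ C) : Supp C g :=
  fun z hz => hg z fun hb => hz (h hb)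
omit [Fintype α] in
lemma Supp.swap {B : Finset α} {x y : α} (hx : x ∈ B) (hy : y ∈ B) : Supp B (swap x y) :=
  fun _ hz => swap_apply_of_ne_of_ne (fun h => hz (h ▸ hx)) (fun h => hz (h ▸ hy))
omit [Fintype α] [DecidableEq α] in
lemma Supp.apply_mem {B : Finset α} {g : Perm α} (hg : Supp B g) {z : α} (hz : z ∈ B) :
    g z ∈ B := by
  by_contra h
  have := hg _ h
  rw [g.injective this] at h
  exact h hz

lemma card_fixer (B : Finset α) : (fixer B).card = B.card.factorial := by
  have e := Equiv.Perm.subtypeEquivSubtypePerm (fun z : α => z ∈ B)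
  have h1 := Fintype.card_congr e
  rw [Fintype.card_perm, Fintype.card_coe] at h1
  rw [h1, Fintype.card_subtype]
  rfl

variable {V : Type} [NormedAddCommGroup V] [InnerProductSpace ℝ V]

/-- the representation preserves the inner product -/
def Orth (ρ : Perm α →* Module.End ℝ V) : Prop := ∀ g u v, ⟪ρ g u, ρ g v⟫ = ⟪u, v⟫

/-- the vectors invariant under `S_B` -/
def Fix (ρ : Perm α →* Module.End ℝ V) (B : Finset α) : Submodule ℝ V where
  carrier := {v | ∀ g, Supp B g → ρ g v = v}
  add_mem' := fun {a b} ha hb g hg => by rw [map_add, ha g hg, hb g hg]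
  zero_mem' := fun g _ => map_zero _
  smul_mem' := fun c a ha g hg => by rw [map_smul, ha g hg]

omit [Fintype α] [DecidableEq α] in
lemma mem_Fix {ρ : Perm α →* Module.End ℝ V} {B : Finset α} {v : V} :
    v ∈ Fix ρ B ↔ ∀ g, Supp B g → ρ g v = v := Iff.rfl

/-- `W` is invariant under `S_U` -/
def InvOn (ρ : Perm α →* Module.End ℝ V) (U : Finset α) (W : Submodule ℝ V) : Prop :=
  ∀ g, Supp U g → ∀ v ∈ W, ρ g v ∈ W

/-- the sign of a permutation as a real number -/
def sgnR (g : Perm α) : ℝ := ((Perm.sign g : ℤ) : ℝ)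

lemma sgnR_one : sgnR (1 : Perm α) = 1 := by simp [sgnR]
lemma sgnR_mul (g h : Perm α) : sgnR (g * h) = sgnR g * sgnR h := by simp [sgnR]
lemma sgnR_mul_self (g : Perm α) : sgnR g * sgnR g = 1 := by
  rcases Int.units_eq_one_or (Perm.sign g) with h | h <;> simp [sgnR, h]
lemma sgnR_inv (g : Perm α) : sgnR g⁻¹ = sgnR g := by simp [sgnR]
lemma sgnR_swap {x y : α} (h : x ≠ y) : sgnR (swap x y) = -1 := by simp [sgnR, h]
lemma sgnR_le_one (g : Perm α) : sgnR g ≤ 1 := by
  rcases Int.units_eq_one_or (Perm.sign g) with h | h <;> simp [sgnR, h]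

/-- the representation twisted by the sign -/
def tw (ρ : Perm α →* Module.End ℝ V) : Perm α →* Module.End ℝ V where
  toFun g := sgnR g • ρ g
  map_one' := by rw [sgnR_one, one_smul, map_one]
  map_mul' g h := by rw [sgnR_mul, map_mul, smul_mul_smul_comm]

lemma tw_apply (ρ : Perm α →* Module.End ℝ V) (g : Perm α) (v : V) :
    tw ρ g v = sgnR g • ρ g v := rfl

lemma tw_tw (ρ : Perm α →* Module.End ℝ V) : tw (tw ρ) = ρ := by
  ext g v
  rw [tw_apply, tw_apply, smul_smul, sgnR_mul_self, one_smul]

lemma Orth.tw {ρ : Perm α →* Module.End ℝ V} (h : Orth ρ) : Orth (tw ρ) := fun g u v => by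
  rw [tw_apply, tw_apply, real_inner_smul_left, real_inner_smul_right, ← mul_assoc,
    sgnR_mul_self, one_mul, h]

lemma InvOn.tw {ρ : Perm α →* Module.End ℝ V} {U : Finset α} {W : Submodule ℝ V}
    (h : InvOn ρ U W) : InvOn (tw ρ) U W := fun g hg v hv => W.smul_mem _ (h g hg v hv)

/-- the average of `ρ` over `S_B` -/
noncomputable def avgOp (ρ : Perm α →* Module.End ℝ V) (B : Finset α) : Module.End ℝ V :=
  ((B.card.factorial : ℝ)⁻¹) • ∑ g ∈ fixer B, ρ g

/-- no non-zero vector of `W` is invariant under `S_B` for a set `B ⊆ U` with more than `a`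
points -/
def NoLine (ρ : Perm α →* Module.End ℝ V) (U : Finset α) (W : Submodule ℝ V) (a : ℕ) : Prop :=
  ∀ B ⊆ U, a < B.card → W ⊓ Fix ρ B = ⊥

/-- lower bound for the dimension of representations without long rows and columns -/
noncomputable def bigD (n : ℕ) : ℝ := 2 ^ n / (2 ^ 25 * ((n : ℝ) + 1) ^ 3)

end Crest.Agent.R155
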