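import Crest.Agent.R155.RepDefs

/-!
# Row 155: traces on invariant subspaces (helpers for `rep_main`)
-/

set_option autoImplicit false
set_option linter.unusedSectionVars false

open Finset Equiv
open scoped BigOperators RealInnerProductSpace

namespace Crest.Agent.R155

variable {α : Type} [Fintype α] [DecidableEq α]
variable {V : Type} [NormedAddCommGroup V] [InnerProductSpace ℝ V] [FiniteDimensional ℝ V]

/-- the orthogonal projection onto `W` as a linear map -/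
noncomputable def rmP (W : Submodule ℝ V) : Module.End ℝ V :=
  (W.starProjection : V →L[ℝ] V).toLinearMap

lemma rmP_apply (W : Submodule ℝ V) (v : V) : rmP W v = W.starProjection v := rfl

lemma rmP_mem (W : Submodule ℝ V) (v : V) : rmP W v ∈ W := W.starProjection_apply_mem v

lemma rmP_id {W : Submodule ℝ V} {v : V} (hv : v ∈ W) : rmP W v = v :=
  Submodule.starProjection_eq_self_iff.2 hv

lemma rmP_top : rmP (⊤ : Submodule ℝ V) = 1 := by
  ext v
  exact rmP_id trivial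

lemma rmP_bot : rmP (⊥ : Submodule ℝ V) = 0 := by
  ext v
  have := rmP_mem (⊥ : Submodule ℝ V) v
  simpa using this

lemma rmP_add {W1 W : Submodule ℝ V} (h : W1 ≤ W) : rmP W = rmP W1 + rmP (W1ᗮ ⊓ W) := by
  ext v
  rw [LinearMap.add_apply, rmP_apply W]
  apply Submodule.eq_starProjection_of_mem_of_inner_eq_zero
  · exact W.add_mem (h (rmP_mem W1 v)) (rmP_mem (W1ᗮ ⊓ W) v).2
  · intro w hw
    have hw1 : rmP W1 w ∈ W1 := rmP_mem W1 w
    have hw2 : w - rmP W1 w ∈ W1ᗮ ⊓ W :=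
      ⟨W1.sub_starProjection_mem_orthogonal w, W.sub_mem hw (h hw1)⟩
    have e : w = rmP W1 w + (w - rmP W1 w) := by abel
    have a1 : ⟪v - rmP W1 v, rmP W1 w⟫ = 0 := W1.starProjection_inner_eq_zero v _ hw1
    have a2 : ⟪rmP (W1ᗮ ⊓ W) v, rmP W1 w⟫ = 0 :=
      Submodule.inner_left_of_mem_orthogonal hw1 (rmP_mem (W1ᗮ ⊓ W) v).1
    have a3 : ⟪v - rmP (W1ᗮ ⊓ W) v, w - rmP W1 w⟫ = 0 :=
      (W1ᗮ ⊓ W).starProjection_inner_eq_zero v _ hw2
    have a4 : ⟪rmP W1 v, w - rmP W1 w⟫ = 0 :=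
      Submodule.inner_right_of_mem_orthogonal (rmP_mem W1 v) hw2.1
    rw [e, inner_add_right]
    have b1 : v - (rmP W1 v + rmP (W1ᗮ ⊓ W) v) = (v - rmP W1 v) - rmP (W1ᗮ ⊓ W) v := by abel
    have b2 : v - (rmP W1 v + rmP (W1ᗮ ⊓ W) v) = (v - rmP (W1ᗮ ⊓ W) v) - rmP W1 v := by abel
    have c1 : ⟪v - (rmP W1 v + rmP (W1ᗮ ⊓ W) v), rmP W1 w⟫ = 0 := by
      rw [b1, inner_sub_left, a1, a2, sub_zero]
    have c2 : ⟪v - (rmP W1 v + rmP (W1ᗮ ⊓ W) v), w - rmP W1 w⟫ = 0 := by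
      rw [b2, inner_sub_left, a3, a4, sub_zero]
    rw [c1, c2, add_zero]

/-- the trace of `X` on `W` -/
noncomputable def rmTau (X : Module.End ℝ V) (W : Submodule ℝ V) : ℝ :=
  LinearMap.trace ℝ V (X * rmP W)

lemma rmTau_top (X : Module.End ℝ V) : rmTau X ⊤ = LinearMap.trace ℝ V X := by
  rw [rmTau, rmP_top, mul_one]

lemma rmTau_bot (X : Module.End ℝ V) : rmTau X ⊥ = 0 := by
  rw [rmTau, rmP_bot, mul_zero, map_zero]

lemma rmTau_add {W1 W : Submodule ℝ V} (h : W1 ≤ W) (X : Module.End ℝ V) :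
    rmTau X W = rmTau X W1 + rmTau X (W1ᗮ ⊓ W) := by
  rw [rmTau, rmP_add h, mul_add, map_add]; rfl

/-- invariant under the representation and under `Z` -/
def RmGood (ρ : Perm α →* Module.End ℝ V) (Z : Module.End ℝ V) (W : Submodule ℝ V) : Prop :=
  InvOn ρ univ W ∧ ∀ v ∈ W, Z v ∈ W

/-- minimal non-zero good subspace -/
def RmMin (ρ : Perm α →* Module.End ℝ V) (Z : Module.End ℝ V) (W : Submodule ℝ V) : Prop :=
  RmGood ρ Z W ∧ W ≠ ⊥ ∧ ∀ W1 ≤ W, RmGood ρ Z W1 → W1 = ⊥ ∨ W1 = W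

omit [DecidableEq α] in
lemma rm_supp_univ (g : Perm α) : Supp univ g := fun z hz => absurd (mem_univ z) hz

omit [FiniteDimensional ℝ V] in
lemma RmGood.top (ρ : Perm α →* Module.End ℝ V) (Z : Module.End ℝ V) : RmGood ρ Z ⊤ :=
  ⟨fun _ _ _ _ => trivial, fun _ _ => trivial⟩

omit [FiniteDimensional ℝ V] in
lemma RmGood.inf {ρ : Perm α →* Module.End ℝ V} {Z : Module.End ℝ V} {W1 W2 : Submodule ℝ V}
    (h1 : RmGood ρ Z W1) (h2 : RmGood ρ Z W2) : RmGood ρ Z (W1 ⊓ W2) :=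
  ⟨fun g hg v hv => ⟨h1.1 g hg v hv.1, h2.1 g hg v hv.2⟩,
    fun v hv => ⟨h1.2 v hv.1, h2.2 v hv.2⟩⟩

omit [FiniteDimensional ℝ V] in
lemma RmGood.orth {ρ : Perm α →* Module.End ℝ V} (hρ : Orth ρ) {Z : Module.End ℝ V}
    (hZs : Z.IsSymmetric) {W : Submodule ℝ V} (h : RmGood ρ Z W) : RmGood ρ Z Wᗮ := by
  refine ⟨fun g _ v hv => ?_, fun v hv => ?_⟩
  · rw [Submodule.mem_orthogonal] at hv ⊢
    intro u hu
    have e : ρ g (ρ g⁻¹ u) = u := by
      rw [← Module.End.mul_apply, ← map_mul, mul_inv_cancel, map_one, Module.End.one_apply]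
    rw [← e, hρ g]
    exact hv _ (h.1 g⁻¹ (rm_supp_univ _) u hu)
  · rw [Submodule.mem_orthogonal] at hv ⊢
    intro u hu
    rw [← hZs u v]
    exact hv _ (h.2 u hu)

/-- induction principle: an inequality between traces holds on every good subspace as soon as it
holds on minimal ones -/
lemma rm_induction {ρ : Perm α →* Module.End ℝ V} (hρ : Orth ρ) {Z : Module.End ℝ V}
    (hZs : Z.IsSymmetric) (F : Submodule ℝ V → ℝ) (hbot : 0 ≤ F ⊥)
    (hadd : ∀ W1 W : Submodule ℝ V, W1 ≤ W → F W = F W1 + F (W1ᗮ ⊓ W))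
    (hmin : ∀ W, RmMin ρ Z W → 0 ≤ F W) : ∀ W, RmGood ρ Z W → 0 ≤ F W := by
  intro W
  induction h : Module.finrank ℝ W using Nat.strong_induction_on generalizing W with
  | _ d ih =>
    intro hW
    by_cases h0 : W = ⊥
    · rw [h0]; exact hbot
    by_cases hm : ∀ W1 ≤ W, RmGood ρ Z W1 → W1 = ⊥ ∨ W1 = W
    · exact hmin W ⟨hW, h0, hm⟩
    push Not at hm
    obtain ⟨W1, hle, hg, hne0, hneW⟩ := hm
    have hlt : W1 < W := lt_of_le_of_ne hle hneW
    have hlt2 : W1ᗮ ⊓ W < W := by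
      refine lt_of_le_of_ne inf_le_right fun he => hne0 ?_
      have : W ≤ W1ᗮ := he ▸ inf_le_left
      have h2 : W1 ≤ W1 ⊓ W1ᗮ := le_inf le_rfl (hle.trans this)
      rw [Submodule.inf_orthogonal_eq_bot] at h2
      exact le_bot_iff.1 h2
    rw [hadd W1 W hle]
    exact add_nonneg (ih _ (h ▸ Submodule.finrank_lt_finrank_of_lt hlt) W1 rfl hg)
      (ih _ (h ▸ Submodule.finrank_lt_finrank_of_lt hlt2) _ rfl ((hg.orth hρ hZs).inf hW))

/-- on a minimal good subspace `Z` is a scalar -/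
lemma RmMin.scalar {ρ : Perm α →* Module.End ℝ V} {Z : Module.End ℝ V}
    (hZs : Z.IsSymmetric) (hZc : ∀ g, Z * ρ g = ρ g * Z)
    (hZ0 : ∀ v, 0 ≤ ⟪Z v, v⟫) (hZ1 : ∀ v, ⟪Z v, v⟫ ≤ ⟪v, v⟫) {W : Submodule ℝ V}
    (h : RmMin ρ Z W) : ∃ η : ℝ, 0 ≤ η ∧ η ≤ 1 ∧ ∀ v ∈ W, Z v = η • v := by
  have : Nontrivial W := Submodule.nontrivial_iff_ne_bot.2 h.2.1
  have hs := hZs.restrict_invariant (V := W) h.1.2
  obtain ⟨w, hw⟩ := hs.hasEigenvalue_iSup_of_finiteDimensional.exists_hasEigenvector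
  have hw0 : (w : V) ≠ 0 := fun e => hw.2 (Subtype.ext e)
  obtain ⟨η, hwe⟩ : ∃ η : ℝ, Z w = η • (w : V) := by
    have := hw.apply_eq_smul
    exact ⟨_, congrArg Subtype.val this⟩
  have hpos : 0 < ⟪(w : V), (w : V)⟫ := real_inner_self_pos.2 hw0
  have h0 := hZ0 w
  have h1 := hZ1 w
  rw [hwe, real_inner_smul_left] at h0 h1
  refine ⟨η, by nlinarith, by nlinarith, ?_⟩
  have hg : RmGood ρ Z (Module.End.eigenspace Z η) := by
    refine ⟨fun g _ v hv => ?_, fun v hv => ?_⟩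
    · rw [Module.End.mem_eigenspace_iff] at hv ⊢
      rw [← Module.End.mul_apply, hZc g, Module.End.mul_apply, hv, map_smul]
    · rw [Module.End.mem_eigenspace_iff] at hv ⊢
      rw [hv, map_smul, hv]
  rcases h.2.2 _ inf_le_right (hg.inf h.1) with hb | hb
  · exfalso
    have : (w : V) ∈ Module.End.eigenspace Z η ⊓ W :=
      ⟨Module.End.mem_eigenspace_iff.2 hwe, w.2⟩
    rw [hb] at this
    exact hw0 this
  · intro v hv
    rw [← hb] at hv
    exact Module.End.mem_eigenspace_iff.1 hv.1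

omit [FiniteDimensional ℝ V] in
lemma rm_pow_apply {Z : Module.End ℝ V} {W : Submodule ℝ V} {η : ℝ}
    (h : ∀ v ∈ W, Z v = η • v) (k : ℕ) : ∀ v ∈ W, (Z ^ k) v = η ^ k • v := by
  induction k with
  | zero => intro v _; simp
  | succ k ih =>
    intro v hv
    rw [pow_succ, Module.End.mul_apply, h v hv, map_smul, ih v hv, smul_smul, pow_succ, mul_comm]

lemma rmTau_proj {Z : Module.End ℝ V} {W : Submodule ℝ V} {η : ℝ}
    (h : ∀ v ∈ W, Z v = η • v) (k : ℕ) {A : Module.End ℝ V} {F : Submodule ℝ V} (hF : F ≤ W)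
    (hA1 : ∀ v ∈ W, A v ∈ F) (hA2 : ∀ v ∈ F, A v = v) :
    rmTau (Z ^ k * A) W = η ^ k * Module.finrank ℝ F := by
  have hp : LinearMap.IsProj F (A * rmP W) :=
    ⟨fun x => hA1 _ (rmP_mem W x), fun x hx => by
      rw [Module.End.mul_apply, rmP_id (hF hx), hA2 x hx]⟩
  have e : Z ^ k * A * rmP W = η ^ k • (A * rmP W) := by
    ext v
    rw [mul_assoc, Module.End.mul_apply, LinearMap.smul_apply]
    exact rm_pow_apply h k _ (hF (hp.map_mem v))
  rw [rmTau, e, map_smul, hp.trace, smul_eq_mul]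

lemma rmTau_pow {Z : Module.End ℝ V} {W : Submodule ℝ V} {η : ℝ}
    (h : ∀ v ∈ W, Z v = η • v) (k : ℕ) :
    rmTau (Z ^ k) W = η ^ k * Module.finrank ℝ W := by
  have := rmTau_proj h k (A := 1) (F := W) le_rfl (fun v hv => hv) (fun v _ => rfl)
  rwa [mul_one] at this

omit [FiniteDimensional ℝ V] in
lemma avgOp_apply (σ : Perm α →* Module.End ℝ V) (T : Finset α) (v : V) :
    avgOp σ T v = ((T.card.factorial : ℝ)⁻¹) • ∑ g ∈ fixer T, σ g v := by
  rw [avgOp, LinearMap.smul_apply, LinearMap.sum_apply]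

omit [FiniteDimensional ℝ V] in
lemma avgOp_mem_Fix (σ : Perm α →* Module.End ℝ V) (T : Finset α) (v : V) :
    avgOp σ T v ∈ Fix σ T := by
  intro h hh
  rw [avgOp_apply, map_smul, map_sum]
  congr 1
  refine Finset.sum_bij' (fun g _ => h * g) (fun g _ => h⁻¹ * g) ?_ ?_ ?_ ?_ ?_
  · intro g hg; exact mem_fixer.2 (hh.mul (mem_fixer.1 hg))
  · intro g hg; exact mem_fixer.2 (hh.inv.mul (mem_fixer.1 hg))
  · intro g _; simp
  · intro g _; simp
  · intro g _; rw [map_mul, Module.End.mul_apply]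

omit [FiniteDimensional ℝ V] in
lemma avgOp_of_mem_Fix {σ : Perm α →* Module.End ℝ V} {T : Finset α} {v : V}
    (hv : v ∈ Fix σ T) : avgOp σ T v = v := by
  rw [avgOp_apply, Finset.sum_congr rfl fun g hg => hv g (mem_fixer.1 hg), Finset.sum_const,
    card_fixer, ← Nat.cast_smul_eq_nsmul ℝ, smul_smul, inv_mul_cancel₀, one_smul]
  exact_mod_cast (Nat.factorial_pos _).ne'

omit [FiniteDimensional ℝ V] in
lemma avgOp_mem {σ : Perm α →* Module.End ℝ V} {W : Submodule ℝ V} (hW : InvOn σ univ W)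
    (T : Finset α) {v : V} (hv : v ∈ W) : avgOp σ T v ∈ W := by
  rw [avgOp_apply]
  exact W.smul_mem _ (W.sum_mem fun g _ => hW g (rm_supp_univ g) v hv)

lemma rmTau_avg {σ : Perm α →* Module.End ℝ V} {Z : Module.End ℝ V} {W : Submodule ℝ V}
    (hW : InvOn σ univ W) {η : ℝ} (h : ∀ v ∈ W, Z v = η • v) (k : ℕ) (T : Finset α) :
    rmTau (Z ^ k * avgOp σ T) W = η ^ k * Module.finrank ℝ (W ⊓ Fix σ T : Submodule ℝ V) :=
  rmTau_proj h k inf_le_left (fun v hv => ⟨avgOp_mem hW T hv, avgOp_mem_Fix σ T v⟩)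
    (fun _ hv => avgOp_of_mem_Fix hv.2)

lemma rm_finrank_sup_le {ι : Type} (s : Finset ι) (f : ι → Submodule ℝ V) :
    Module.finrank ℝ (s.sup f : Submodule ℝ V) ≤ ∑ x ∈ s, Module.finrank ℝ (f x) := by
  classical
  induction s using Finset.induction_on with
  | empty => simp
  | insert a s ha ih =>
    rw [Finset.sup_insert, Finset.sum_insert ha]
    exact (Submodule.finrank_add_le_finrank_add_finrank _ _).trans (Nat.add_le_add_left ih _)

omit [FiniteDimensional ℝ V] [Fintype α] in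
lemma rm_map_Fix (σ : Perm α →* Module.End ℝ V) (g : Perm α) {B : Finset α} {v : V}
    (hv : v ∈ Fix σ B) : σ g v ∈ Fix σ (B.image g) := by
  intro h hh
  have hs : Supp B (g⁻¹ * h * g) := by
    intro z hz
    have : g z ∉ B.image g := by
      intro hm
      obtain ⟨y, hy, e⟩ := Finset.mem_image.1 hm
      exact hz (g.injective e ▸ hy)
    rw [Perm.mul_apply, Perm.mul_apply, hh _ this]
    simp
  have e : h * g = g * (g⁻¹ * h * g) := by group
  rw [← Module.End.mul_apply, ← map_mul, e, map_mul, Module.End.mul_apply, hv _ hs]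

omit [FiniteDimensional ℝ V] in
/-- a minimal invariant subspace is spanned by its lines of a given length -/
lemma rm_le_sup {σ : Perm α →* Module.End ℝ V} {W : Submodule ℝ V} (hW : InvOn σ univ W)
    (hmin : ∀ W1 ≤ W, InvOn σ univ W1 → W1 = ⊥ ∨ W1 = W) {B : Finset α}
    (hB : W ⊓ Fix σ B ≠ ⊥) :
    (powersetCard B.card (univ : Finset α)).sup (fun C => W ⊓ Fix σ C) = W := by
  have hle : (powersetCard B.card (univ : Finset α)).sup (fun C => W ⊓ Fix σ C) ≤ W :=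
    Finset.sup_le fun _ _ => inf_le_left
  have hinv : InvOn σ univ
      ((powersetCard B.card (univ : Finset α)).sup (fun C => W ⊓ Fix σ C)) := by
    intro g hg
    have : (powersetCard B.card (univ : Finset α)).sup (fun C => W ⊓ Fix σ C) ≤
        ((powersetCard B.card (univ : Finset α)).sup (fun C => W ⊓ Fix σ C)).comap (σ g) := by
      refine Finset.sup_le fun C hC v hv => ?_
      have hm : C.image g ∈ powersetCard B.card (univ : Finset α) := by
        rw [mem_powersetCard] at hC ⊢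
        exact ⟨subset_univ _, by rw [card_image_of_injective _ g.injective, hC.2]⟩
      exact Finset.le_sup (f := fun C => W ⊓ Fix σ C) hm
        ⟨hW g hg v hv.1, rm_map_Fix σ g hv.2⟩
    exact fun v hv => this hv
  rcases hmin _ hle hinv with h | h
  · exfalso
    have hm : B ∈ powersetCard B.card (univ : Finset α) :=
      mem_powersetCard.2 ⟨subset_univ _, rfl⟩
    have := Finset.le_sup (f := fun C => W ⊓ Fix σ C) hm
    rw [h] at this
    exact hB (le_bot_iff.1 this)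
  · exact h

end Crest.Agent.R155
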