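import Crest.Agent.R155.RepPeel
import Crest.Agent.R155.RepMain0

/-!
# Row 155: the trace inequality
-/

set_option autoImplicit false

open Finset Equiv
open scoped BigOperators RealInnerProductSpace Matrix

namespace Crest.Agent.R155

variable {α : Type} [Fintype α] [DecidableEq α]

section helpers

variable {V : Type} [NormedAddCommGroup V] [InnerProductSpace ℝ V] [FiniteDimensional ℝ V]

/-- the long-line case, dimension bounds -/
lemma rm_long {σ : Perm α →* Module.End ℝ V} (hσ : Orth σ) {W : Submodule ℝ V}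
    (hW : InvOn σ univ W) (hmin : ∀ W1 ≤ W, InvOn σ univ W1 → W1 = ⊥ ∨ W1 = W) {B : Finset α}
    (hB : W ⊓ Fix σ B ≠ ⊥) (hno : NoLine σ univ W B.card) {j : ℕ}
    (hj : B.card + j = Fintype.card α) (hja : j ≤ B.card) {ij : ℕ} (hij : j ≤ ij)
    {T : Finset α} (hT : T.card + ij = Fintype.card α) :
    (ij.choose j : ℝ) ≤ (j + 1) * Module.finrank ℝ (W ⊓ Fix σ T : Submodule ℝ V) ∧
    (Module.finrank ℝ W : ℝ) * ij.choose j ≤
      (Fintype.card α).choose j * ((j + 1) * Module.finrank ℝ (W ⊓ Fix σ T : Submodule ℝ V)) := by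
  have hg := gram_bound hσ hW (a := B.card) (b := j) hno (T := T) (U' := univ) (B := B)
    (subset_univ _) subset_rfl (by rw [card_univ, hj]) hja (by omega) (subset_univ _) rfl
  have e : B.card + j - T.card = ij := by omega
  rw [e] at hg
  have hm : 1 ≤ Module.finrank ℝ (W ⊓ Fix σ B : Submodule ℝ V) := by
    rw [Nat.one_le_iff_ne_zero]
    exact fun h => hB (Submodule.finrank_eq_zero.1 h)
  have hm' : (1 : ℝ) ≤ Module.finrank ℝ (W ⊓ Fix σ B : Submodule ℝ V) := by exact_mod_cast hm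
  have hc : (0 : ℝ) ≤ ij.choose j := Nat.cast_nonneg _
  have hdim : Module.finrank ℝ W ≤
      (Fintype.card α).choose j * Module.finrank ℝ (W ⊓ Fix σ B : Submodule ℝ V) := by
    have h1 := rm_finrank_sup_le (powersetCard B.card (univ : Finset α)) (fun C => W ⊓ Fix σ C)
    rw [rm_le_sup hW hmin hB] at h1
    refine h1.trans (le_of_eq ?_)
    rw [Finset.sum_congr rfl (g := fun _ => Module.finrank ℝ (W ⊓ Fix σ B : Submodule ℝ V))
      fun C hC => finrank_inf_Fix_eq σ hW (subset_univ _) (subset_univ _)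
        (mem_powersetCard.1 hC).2]
    rw [Finset.sum_const, card_powersetCard, card_univ, smul_eq_mul, ← hj, Nat.choose_symm_add]
  have hdim' : (Module.finrank ℝ W : ℝ) ≤
      (Fintype.card α).choose j * Module.finrank ℝ (W ⊓ Fix σ B : Submodule ℝ V) := by
    exact_mod_cast hdim
  refine ⟨by nlinarith, ?_⟩
  calc (Module.finrank ℝ W : ℝ) * ij.choose j
      ≤ ((Fintype.card α).choose j * Module.finrank ℝ (W ⊓ Fix σ B : Submodule ℝ V)) *
          ij.choose j := by gcongr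
    _ = (Fintype.card α).choose j *
          (ij.choose j * Module.finrank ℝ (W ⊓ Fix σ B : Submodule ℝ V)) := by ring
    _ ≤ _ := by gcongr

/-- scalar inequality for the long-line case -/
lemma rm_scalar_long {η d f c N Φ J : ℝ} {K k g : ℕ} (h0 : 0 ≤ η) (h1 : η ≤ 1) (hk : k * g ≤ K)
    (hg : 1 ≤ g) (hc : 0 < c) (hJ : 0 ≤ J) (hd : 0 ≤ d)
    (ha : c ≤ J * f) (hb : d * c ≤ N * (J * f)) (hΦ : η ^ k * f ≤ Φ) :
    η ^ K * d ≤ N * (J * Φ / c) ^ (g - 1) * (J / c) * (η ^ k * f) := by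
  have hk0 : 0 ≤ η ^ k := pow_nonneg h0 k
  have hδ : η ^ k ≤ J * Φ / c := by
    rw [le_div_iff₀ hc]
    calc η ^ k * c ≤ η ^ k * (J * f) := by gcongr
      _ = J * (η ^ k * f) := by ring
      _ ≤ J * Φ := by gcongr
  have hK : η ^ K ≤ η ^ k * (J * Φ / c) ^ (g - 1) := by
    calc η ^ K ≤ η ^ (k * g) := pow_le_pow_of_le_one h0 h1 hk
      _ = η ^ k * (η ^ k) ^ (g - 1) := by
          obtain ⟨g0, rfl⟩ : ∃ g0, g = g0 + 1 := ⟨g - 1, by omega⟩
          rw [Nat.add_sub_cancel, pow_mul, pow_succ']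
      _ ≤ _ := by gcongr
  have hd' : d ≤ N * (J * f) / c := by rwa [le_div_iff₀ hc]
  have hδ0 : 0 ≤ (J * Φ / c) ^ (g - 1) := pow_nonneg (hk0.trans hδ) _
  calc η ^ K * d ≤ (η ^ k * (J * Φ / c) ^ (g - 1)) * (N * (J * f) / c) := by gcongr
    _ = _ := by ring

/-- scalar inequality for the short-line case -/
lemma rm_scalar_short {η d D q : ℝ} {K k g : ℕ} (h0 : 0 ≤ η) (h1 : η ≤ 1) (hk : k * g ≤ K)
    (hg : 1 ≤ g) (hD : 0 < D) (hd : D ≤ d) (hq : η ^ k * d ≤ q) :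
    η ^ K * d ≤ (q / D) ^ (g - 1) * (η ^ k * d) := by
  have hk0 : 0 ≤ η ^ k := pow_nonneg h0 k
  have hδ : η ^ k ≤ q / D := by
    rw [le_div_iff₀ hD]
    exact (mul_le_mul_of_nonneg_left hd hk0).trans hq
  have hK : η ^ K ≤ η ^ k * (q / D) ^ (g - 1) := by
    calc η ^ K ≤ η ^ (k * g) := pow_le_pow_of_le_one h0 h1 hk
      _ = η ^ k * (η ^ k) ^ (g - 1) := by
          obtain ⟨g0, rfl⟩ : ∃ g0, g = g0 + 1 := ⟨g - 1, by omega⟩
          rw [Nat.add_sub_cancel, pow_mul, pow_succ']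
      _ ≤ _ := by gcongr
  have hd0 : 0 ≤ d := hD.le.trans hd
  calc η ^ K * d ≤ (η ^ k * (q / D) ^ (g - 1)) * d := by gcongr
    _ = _ := by ring

end helpers

/-- Main inequality for an operator `0 ≤ Z ≤ 1` commuting with an orthogonal representation. -/
theorem rep_main {V : Type} [NormedAddCommGroup V] [InnerProductSpace ℝ V]
    [FiniteDimensional ℝ V] {ρ : Perm α →* Module.End ℝ V} (hρ : Orth ρ)
    (Z : Module.End ℝ V) (hZs : Z.IsSymmetric) (hZc : ∀ g, Z * ρ g = ρ g * Z)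
    (hZ0 : ∀ v, 0 ≤ ⟪Z v, v⟫) (hZ1 : ∀ v, ⟪Z v, v⟫ ≤ ⟪v, v⟫)
    {K k g k' g' : ℕ} (hk : k * g ≤ K) (hg : 1 ≤ g) (hk' : k' * g' ≤ K) (hg' : 1 ≤ g')
    (i : ℕ → ℕ) (Φ : ℕ → ℝ)
    (hi : ∀ j, 1 ≤ j → 2 * j ≤ Fintype.card α → j ≤ i j ∧ i j ≤ Fintype.card α)
    (hΦ : ∀ j, 1 ≤ j → 2 * j ≤ Fintype.card α → ∀ T : Finset α, T.card + i j = Fintype.card α →
      LinearMap.trace ℝ V (Z ^ k * avgOp ρ T) ≤ Φ j ∧
      LinearMap.trace ℝ V (Z ^ k * avgOp (tw ρ) T) ≤ Φ j)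
    (q : ℝ) (hq : LinearMap.trace ℝ V (Z ^ k') ≤ q) :
    LinearMap.trace ℝ V (Z ^ K) ≤
      LinearMap.trace ℝ V (Z ^ K * avgOp ρ univ) + LinearMap.trace ℝ V (Z ^ K * avgOp (tw ρ) univ)
      + 2 * ∑ j ∈ Icc 1 (Fintype.card α / 2), ((Fintype.card α).choose j : ℝ) *
          (((j : ℝ) + 1) * Φ j / ((i j).choose j : ℝ)) ^ g
      + q * (q / bigD (Fintype.card α)) ^ (g' - 1) := by
  classical
  set n := Fintype.card α with hn
  -- the fixed sets `T j`
  have hTex : ∀ j, ∃ T : Finset α, 1 ≤ j → 2 * j ≤ n → T.card + i j = n := by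
    intro j
    by_cases h : 1 ≤ j ∧ 2 * j ≤ n
    · have h2 := (hi j h.1 h.2).2
      obtain ⟨T, -, hT⟩ := Finset.exists_subset_card_eq (s := (univ : Finset α)) (n := n - i j)
        (by rw [card_univ]; omega)
      exact ⟨T, fun _ _ => by omega⟩
    · exact ⟨∅, fun h1 h2 => absurd ⟨h1, h2⟩ h⟩
  choose T hT using hTex
  have htw : ∀ W, RmGood ρ Z W → InvOn (tw ρ) univ W := fun W hW => hW.1.tw
  -- positivity of traces on good subspaces
  have pos_avg : ∀ σ : Perm α →* Module.End ℝ V, (∀ W, RmGood ρ Z W → InvOn σ univ W) →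
      ∀ (m : ℕ) (S : Finset α) W, RmGood ρ Z W → 0 ≤ rmTau (Z ^ m * avgOp σ S) W := by
    intro σ hσ m S
    refine rm_induction hρ hZs _ (by rw [rmTau_bot]) (fun W1 W h => rmTau_add h _) ?_
    intro W hW
    obtain ⟨η, h0, -, hη⟩ := hW.scalar hZs hZc hZ0 hZ1
    rw [rmTau_avg (hσ W hW.1) hη]
    positivity
  have pos_pow : ∀ (m : ℕ) W, RmGood ρ Z W → 0 ≤ rmTau (Z ^ m) W := by
    intro m
    refine rm_induction hρ hZs _ (by rw [rmTau_bot]) (fun W1 W h => rmTau_add h _) ?_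
    intro W hW
    obtain ⟨η, h0, -, hη⟩ := hW.scalar hZs hZc hZ0 hZ1
    rw [rmTau_pow hη]
    positivity
  have le_tr : ∀ X : Module.End ℝ V, (∀ W, RmGood ρ Z W → 0 ≤ rmTau X W) →
      ∀ W, RmGood ρ Z W → rmTau X W ≤ LinearMap.trace ℝ V X := by
    intro X hX W hW
    rw [← rmTau_top, rmTau_add (le_top : W ≤ ⊤)]
    have := hX _ ((hW.orth hρ hZs).inf (RmGood.top ρ Z))
    linarith
  have hρg : ∀ W, RmGood ρ Z W → InvOn ρ univ W := fun W hW => hW.1
  have hq0 : 0 ≤ q := by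
    have := pos_pow k' ⊤ (RmGood.top ρ Z)
    rw [rmTau_top] at this
    linarith
  have hD : 0 < bigD n := by unfold bigD; positivity
  have hmemI : ∀ j ∈ Icc 1 (n / 2), 1 ≤ j ∧ 2 * j ≤ n := fun j hj => by
    rw [mem_Icc] at hj; omega
  have hΦ0 : ∀ j ∈ Icc 1 (n / 2), 0 ≤ Φ j := by
    intro j hj
    obtain ⟨h1, h2⟩ := hmemI j hj
    have := pos_avg ρ hρg k (T j) ⊤ (RmGood.top ρ Z)
    rw [rmTau_top] at this
    exact this.trans (hΦ j h1 h2 _ (hT j h1 h2)).1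
  have hcpos : ∀ j ∈ Icc 1 (n / 2), (0 : ℝ) < (i j).choose j := by
    intro j hj
    obtain ⟨h1, h2⟩ := hmemI j hj
    exact_mod_cast Nat.choose_pos (hi j h1 h2).1
  set w : ℕ → ℝ := fun j => (n.choose j : ℝ) *
    (((j : ℝ) + 1) * Φ j / ((i j).choose j : ℝ)) ^ (g - 1) * (((j : ℝ) + 1) / ((i j).choose j : ℝ))
    with hw
  have hw0 : ∀ j ∈ Icc 1 (n / 2), 0 ≤ w j := by
    intro j hj
    have := hΦ0 j hj
    have := hcpos j hj
    simp only [hw]
    positivity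
  set w2 : ℝ := (q / bigD n) ^ (g' - 1) with hw2
  have hw20 : 0 ≤ w2 := by positivity
  set F : Submodule ℝ V → ℝ := fun W =>
    rmTau (Z ^ K * avgOp ρ univ) W + rmTau (Z ^ K * avgOp (tw ρ) univ) W
      + ∑ j ∈ Icc 1 (n / 2), w j *
        (rmTau (Z ^ k * avgOp ρ (T j)) W + rmTau (Z ^ k * avgOp (tw ρ) (T j)) W)
      + w2 * rmTau (Z ^ k') W - rmTau (Z ^ K) W with hF
  have hFtop : 0 ≤ F ⊤ := by
    refine rm_induction hρ hZs F ?_ ?_ ?_ ⊤ (RmGood.top ρ Z)
    · simp [hF, rmTau_bot]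
    · intro W1 W h
      simp only [hF, rmTau_add h, mul_add, Finset.sum_add_distrib]
      ring
    · intro W hW
      obtain ⟨η, h0, h1, hη⟩ := hW.scalar hZs hZc hZ0 hZ1
      have p1 := pos_avg ρ hρg K univ W hW.1
      have p2 := pos_avg (tw ρ) htw K univ W hW.1
      have p3 : ∀ j ∈ Icc 1 (n / 2), 0 ≤ w j *
          (rmTau (Z ^ k * avgOp ρ (T j)) W + rmTau (Z ^ k * avgOp (tw ρ) (T j)) W) :=
        fun j hj => mul_nonneg (hw0 j hj)
          (add_nonneg (pos_avg ρ hρg k _ W hW.1) (pos_avg (tw ρ) htw k _ W hW.1))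
      have p3' := Finset.sum_nonneg p3
      have p4 : 0 ≤ w2 * rmTau (Z ^ k') W := mul_nonneg hw20 (pos_pow k' W hW.1)
      have hminρ : ∀ W1 ≤ W, InvOn ρ univ W1 → W1 = ⊥ ∨ W1 = W := fun W1 hle hinv =>
        hW.2.2 W1 hle ⟨hinv, fun v hv => by rw [hη v (hle hv)]; exact W1.smul_mem _ hv⟩
      have hmintw : ∀ W1 ≤ W, InvOn (tw ρ) univ W1 → W1 = ⊥ ∨ W1 = W := fun W1 hle hinv =>
        hminρ W1 hle (by have := hinv.tw; rwa [tw_tw] at this)
      -- the long-line case, for `σ = ρ` or `σ = tw ρ`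
      have long : ∀ σ : Perm α →* Module.End ℝ V, Orth σ →
          (∀ W, RmGood ρ Z W → InvOn σ univ W) →
          (∀ W1 ≤ W, InvOn σ univ W1 → W1 = ⊥ ∨ W1 = W) →
          (∀ j, 1 ≤ j → 2 * j ≤ n → LinearMap.trace ℝ V (Z ^ k * avgOp σ (T j)) ≤ Φ j) →
          ∀ B : Finset α, W ⊓ Fix σ B ≠ ⊥ → NoLine σ univ W B.card → n < 2 * B.card →
          rmTau (Z ^ K) W ≤ rmTau (Z ^ K * avgOp σ univ) W ∨
            ∃ j ∈ Icc 1 (n / 2), rmTau (Z ^ K) W ≤ w j * rmTau (Z ^ k * avgOp σ (T j)) W := by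
        intro σ hσ hσg hσm hσΦ B hB hno hlong
        have hBn : B.card ≤ n := card_le_univ B
        obtain ⟨j, hj⟩ : ∃ j, B.card + j = n := ⟨n - B.card, by omega⟩
        rcases Nat.eq_zero_or_pos j with hj0 | hj0
        · left
          subst hj0
          have := (rm_long hσ (hσg W hW.1) hσm hB hno hj (Nat.zero_le _) (ij := 0) le_rfl
            (T := univ) (by rw [card_univ, add_zero])).2
          rw [rmTau_pow hη, rmTau_avg (hσg W hW.1) hη]
          simp only [Nat.choose_zero_right, Nat.cast_one, mul_one, CharP.cast_eq_zero, zero_add,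
            one_mul] at this
          gcongr
        · right
          have hjI : j ∈ Icc 1 (n / 2) := by rw [mem_Icc]; omega
          obtain ⟨hj1, hj2⟩ := hmemI j hjI
          refine ⟨j, hjI, ?_⟩
          obtain ⟨ha, hb⟩ := rm_long hσ (hσg W hW.1) hσm hB hno hj (by omega)
            (hi j hj1 hj2).1 (hT j hj1 hj2)
          have hle := (le_tr _ (pos_avg σ hσg k (T j)) W hW.1).trans (hσΦ j hj1 hj2)
          rw [rmTau_avg (hσg W hW.1) hη] at hle
          rw [rmTau_pow hη, rmTau_avg (hσg W hW.1) hη]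
          exact rm_scalar_long h0 h1 hk hg (hcpos j hjI) (by positivity) (by positivity)
            ha hb hle
      obtain ⟨B1, -, hB1, hno1⟩ := exists_max_line ρ univ hW.2.1
      obtain ⟨B2, -, hB2, hno2⟩ := exists_max_line (tw ρ) univ hW.2.1
      simp only [hF]
      by_cases c1 : n < 2 * B1.card
      · rcases long ρ hρ hρg hminρ (fun j a b => (hΦ j a b _ (hT j a b)).1) B1 hB1 hno1 c1 with
          h | ⟨j, hj, h⟩
        · linarith
        · have h2 := Finset.single_le_sum p3 hj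
          have h3 := mul_nonneg (hw0 j hj) (pos_avg (tw ρ) htw k (T j) W hW.1)
          simp only [mul_add] at h2
          simp only [mul_add]
          linarith
      by_cases c2 : n < 2 * B2.card
      · rcases long (tw ρ) hρ.tw htw hmintw (fun j a b => (hΦ j a b _ (hT j a b)).2) B2 hB2 hno2
          c2 with h | ⟨j, hj, h⟩
        · linarith
        · have h2 := Finset.single_le_sum p3 hj
          have h3 := mul_nonneg (hw0 j hj) (pos_avg ρ hρg k (T j) W hW.1)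
          simp only [mul_add] at h2
          simp only [mul_add]
          linarith
      have hpeel := peel hρ univ hW.1.1 hW.2.1 (a := max B1.card B2.card)
        (fun B hB h => hno1 B hB (lt_of_le_of_lt (le_max_left _ _) h))
        (fun B hB h => hno2 B hB (lt_of_le_of_lt (le_max_right _ _) h))
        (by rw [card_univ]; rcases max_choice B1.card B2.card with h | h <;> rw [h] <;> omega)
      rw [card_univ] at hpeel
      have hle := (le_tr _ (pos_pow k') W hW.1).trans hq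
      rw [rmTau_pow hη] at hle
      have := rm_scalar_short h0 h1 hk' hg' hD hpeel hle
      rw [← rmTau_pow hη, ← rmTau_pow hη] at this
      linarith
  simp only [hF, rmTau_top] at hFtop
  have s1 : ∑ j ∈ Icc 1 (n / 2), w j * (LinearMap.trace ℝ V (Z ^ k * avgOp ρ (T j)) +
      LinearMap.trace ℝ V (Z ^ k * avgOp (tw ρ) (T j))) ≤
      2 * ∑ j ∈ Icc 1 (n / 2), (n.choose j : ℝ) *
          (((j : ℝ) + 1) * Φ j / ((i j).choose j : ℝ)) ^ g := by
    rw [Finset.mul_sum]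
    refine Finset.sum_le_sum fun j hj => ?_
    obtain ⟨h1, h2⟩ := hmemI j hj
    obtain ⟨a1, a2⟩ := hΦ j h1 h2 _ (hT j h1 h2)
    calc _ ≤ w j * (Φ j + Φ j) := mul_le_mul_of_nonneg_left (add_le_add a1 a2) (hw0 j hj)
      _ = _ := by
          obtain ⟨g0, rfl⟩ : ∃ g0, g = g0 + 1 := ⟨g - 1, by omega⟩
          simp only [hw, Nat.add_sub_cancel, pow_succ]
          ring
  have s2 : w2 * LinearMap.trace ℝ V (Z ^ k') ≤ q * w2 := by
    rw [mul_comm q]; exact mul_le_mul_of_nonneg_left hq hw20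
  linarith

/-- matrix average over `S_B` with a weight -/
noncomputable def avgM {X : Type} [Fintype X] [DecidableEq X] (R : Perm α →* Matrix X X ℝ)
    (χ : Perm α → ℝ) (B : Finset α) : Matrix X X ℝ :=
  ((B.card.factorial : ℝ)⁻¹) • ∑ g ∈ fixer B, χ g • R g

/-- Matrix form of `rep_main`. -/
theorem rep_main_matrix {X : Type} [Fintype X] [DecidableEq X] (R : Perm α →* Matrix X X ℝ)
    (hR : ∀ g, (R g)ᵀ = R g⁻¹) (Z : Matrix X X ℝ) (hZs : Zᵀ = Z) (hZc : ∀ g, Z * R g = R g * Z)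
    (hZ0 : ∀ v : X → ℝ, 0 ≤ v ⬝ᵥ Z *ᵥ v) (hZ1 : ∀ v : X → ℝ, v ⬝ᵥ Z *ᵥ v ≤ v ⬝ᵥ v)
    {K k g k' g' : ℕ} (hk : k * g ≤ K) (hg : 1 ≤ g) (hk' : k' * g' ≤ K) (hg' : 1 ≤ g')
    (i : ℕ → ℕ) (Φ : ℕ → ℝ)
    (hi : ∀ j, 1 ≤ j → 2 * j ≤ Fintype.card α → j ≤ i j ∧ i j ≤ Fintype.card α)
    (hΦ : ∀ j, 1 ≤ j → 2 * j ≤ Fintype.card α → ∀ T : Finset α, T.card + i j = Fintype.card α →
      (Z ^ k * avgM R (fun _ => 1) T).trace ≤ Φ j ∧ (Z ^ k * avgM R sgnR T).trace ≤ Φ j)
    (q : ℝ) (hq : (Z ^ k').trace ≤ q) :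
    (Z ^ K).trace ≤
      (Z ^ K * avgM R (fun _ => 1) univ).trace + (Z ^ K * avgM R sgnR univ).trace
      + 2 * ∑ j ∈ Icc 1 (Fintype.card α / 2), ((Fintype.card α).choose j : ℝ) *
          (((j : ℝ) + 1) * Φ j / ((i j).choose j : ℝ)) ^ g
      + q * (q / bigD (Fintype.card α)) ^ (g' - 1) := by
  let L : Matrix X X ℝ ≃ₐ[ℝ] Module.End ℝ (EuclideanSpace ℝ X) :=
    Matrix.toLinAlgEquiv (PiLp.basisFun 2 ℝ X)
  have hL : ∀ (M : Matrix X X ℝ) (v : EuclideanSpace ℝ X), WithLp.ofLp (L M v) = M *ᵥ v.ofLp := by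
    intro M v
    have : L M = Matrix.toLpLin 2 2 M := by rw [Matrix.toLpLin_eq_toLin]; rfl
    rw [this]; rfl
  have htr : ∀ M : Matrix X X ℝ, LinearMap.trace ℝ _ (L M) = M.trace := fun M =>
    Matrix.trace_toLin_eq M _
  have hin : ∀ u v : EuclideanSpace ℝ X, ⟪u, v⟫ = v.ofLp ⬝ᵥ u.ofLp := by
    intro u v
    rw [EuclideanSpace.inner_eq_star_dotProduct, star_trivial]
  let ρ : Perm α →* Module.End ℝ (EuclideanSpace ℝ X) :=
    (L : Matrix X X ℝ →* Module.End ℝ (EuclideanSpace ℝ X)).comp R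
  have hρa : ∀ s, ρ s = L (R s) := fun _ => rfl
  have hρ : Orth ρ := by
    intro s u v
    rw [hin, hin, hρa, hL, hL, Matrix.dotProduct_mulVec, Matrix.vecMul_mulVec, ← Matrix.dotProduct_mulVec,
      hR, ← map_mul, inv_mul_cancel, map_one, Matrix.one_mulVec]
  have hav1 : ∀ T, avgOp ρ T = L (avgM R (fun _ => 1) T) := by
    intro T
    simp only [avgOp, avgM, map_smul, map_sum, one_smul, hρa]
  have hav2 : ∀ T, avgOp (tw ρ) T = L (avgM R sgnR T) := by
    intro T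
    simp only [avgOp, avgM, map_smul, map_sum]
    rfl
  have key := rep_main hρ (L Z) ?_ ?_ ?_ ?_ hk hg hk' hg' i Φ hi ?_ q ?_
  · simpa only [hav1, hav2, ← map_pow, ← map_mul, htr] using key
  · intro u v
    rw [hin, hin, hL, hL, Matrix.dotProduct_mulVec, ← Matrix.mulVec_transpose, hZs]
  · intro s
    rw [hρa, ← map_mul, ← map_mul, hZc]
  · intro v
    rw [hin, hL]; exact hZ0 _
  · intro v
    rw [hin, hin, hL]; exact hZ1 _
  · intro j h1 h2 T hT
    simpa only [hav1, hav2, ← map_pow, ← map_mul, htr] using hΦ j h1 h2 T hT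
  · simpa only [← map_pow, htr] using hq

end Crest.Agent.R155
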