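import Crest.Agent.R155.RepDefs

/-!
# Row 155: the norm lemma and the Gram (Welch) bound
-/

set_option autoImplicit false

open Finset Equiv
open scoped BigOperators RealInnerProductSpace

namespace Crest.Agent.R155

variable {α : Type} [Fintype α] [DecidableEq α]
variable {V : Type} [NormedAddCommGroup V] [InnerProductSpace ℝ V]

/-- Averaging lemma: if `v` is `S_B`-invariant and `x ∉ B` then `v + ∑_{y ∈ B} (x y) v` is
`S_{B ∪ x}`-invariant.
Recipe: write the vector as `∑ y ∈ insert x B, ρ (swap x y) v` (`swap x x = 1`).  For `g` with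
`Supp (insert x B) g`: `g * swap x y = swap x (g y) * h` with `h = swap x (g y) * g * swap x y`,
`Supp B h`; reindex the sum by `y ↦ g y` (a bijection of `insert x B`). -/
theorem sum_swap_mem_Fix (ρ : Perm α →* Module.End ℝ V) {B : Finset α} {x : α} (hx : x ∉ B)
    {v : V} (hv : v ∈ Fix ρ B) : v + ∑ y ∈ B, ρ (swap x y) v ∈ Fix ρ (insert x B) := by
  have e : v + ∑ y ∈ B, ρ (swap x y) v = ∑ y ∈ insert x B, ρ (swap x y) v := by
    rw [sum_insert hx, swap_self, ← Perm.one_def, map_one, Module.End.one_apply]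
  rw [e]
  intro g hg
  rw [map_sum]
  have h1 : ∀ y ∈ insert x B, ρ g (ρ (swap x y) v) = ρ (swap x (g y)) v := by
    intro y hy
    have hs : Supp B (swap x (g y) * g * swap x y) := by
      intro z hz
      by_cases hzx : z = x
      · subst hzx
        simp
      · have hz' : z ∉ insert x B := by simp [hz, hzx]
        exact (((Supp.swap (mem_insert_self x B) (hg.apply_mem hy)).mul hg).mul
          (Supp.swap (mem_insert_self x B) hy)) z hz'
    have h2 : g * swap x y = swap x (g y) * (swap x (g y) * g * swap x y) := by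
      rw [← mul_assoc, ← mul_assoc, swap_mul_self, one_mul]
    rw [← Module.End.mul_apply, ← map_mul, h2, map_mul, Module.End.mul_apply, hv _ hs]
  rw [sum_congr rfl h1]
  refine Equiv.Perm.sum_comp g (insert x B) (fun y => ρ (swap x y) v) ?_
  intro z hz
  by_contra h
  exact hz (hg z h)

/-- zero marginal: consequence of `sum_swap_mem_Fix` and `NoLine`. -/
theorem sum_swap_eq_zero (ρ : Perm α →* Module.End ℝ V) {U : Finset α} {W : Submodule ℝ V}
    (hW : InvOn ρ U W) {B : Finset α} (hB : B ⊆ U) (hno : NoLine ρ U W B.card) {x : α}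
    (hxU : x ∈ U) (hx : x ∉ B) {v : V} (hvW : v ∈ W) (hv : v ∈ Fix ρ B) :
    v + ∑ y ∈ B, ρ (swap x y) v = 0 := by
  have h := hno (insert x B) (insert_subset hxU hB) (by rw [card_insert_of_notMem hx]; omega)
  have h1 : v + ∑ y ∈ B, ρ (swap x y) v ∈ W ⊓ Fix ρ (insert x B) :=
    ⟨W.add_mem hvW (W.sum_mem fun y hy => hW _ (Supp.swap hxU (hB hy)) v hvW),
      sum_swap_mem_Fix ρ hx hv⟩
  rw [h] at h1
  exact h1

omit [Fintype α] in
/-- `ρ g` maps `Fix ρ B` into `Fix ρ (g B)` -/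
theorem rn_map_mem_Fix (ρ : Perm α →* Module.End ℝ V) {B C : Finset α} (g : Perm α)
    (hg : ∀ z, g z ∈ C → z ∈ B) {v : V} (hv : v ∈ Fix ρ B) : ρ g v ∈ Fix ρ C := by
  intro h hh
  have hs : Supp B (g⁻¹ * h * g) := by
    intro z hz
    rw [Perm.mul_apply, Perm.mul_apply, hh _ fun h' => hz (hg z h'), Perm.inv_eq_iff_eq]
  have h2 : h * g = g * (g⁻¹ * h * g) := by group
  rw [← Module.End.mul_apply, ← map_mul, h2, map_mul, Module.End.mul_apply, hv _ hs]

omit [Fintype α] in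
theorem rn_finrank_le [FiniteDimensional ℝ V] (ρ : Perm α →* Module.End ℝ V)
    {U : Finset α} {W : Submodule ℝ V} (hW : InvOn ρ U W) {B C : Finset α} (g : Perm α)
    (hgU : Supp U g) (hg : ∀ z, g z ∈ C → z ∈ B) :
    Module.finrank ℝ (W ⊓ Fix ρ B : Submodule ℝ V) ≤
      Module.finrank ℝ (W ⊓ Fix ρ C : Submodule ℝ V) := by
  let f : (W ⊓ Fix ρ B : Submodule ℝ V) →ₗ[ℝ] (W ⊓ Fix ρ C : Submodule ℝ V) :=
    (ρ g).restrict fun v hv => ⟨hW g hgU v hv.1, rn_map_mem_Fix ρ g hg hv.2⟩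
  refine LinearMap.finrank_le_finrank_of_injective (f := f) fun u v huv => ?_
  have h1 : ρ g u = ρ g v := congrArg Subtype.val huv
  have h2 := congrArg (ρ g⁻¹) h1
  rw [← Module.End.mul_apply, ← Module.End.mul_apply, ← map_mul, inv_mul_cancel, map_one] at h2
  exact Subtype.ext h2

theorem rn_exists_perm {U B C : Finset α} (hB : B ⊆ U) (hC : C ⊆ U) (h : B.card = C.card) :
    ∃ g : Perm α, Supp U g ∧ ∀ z, g z ∈ C → z ∈ B := by
  have h1 : (B.subtype (· ∈ U)).card = (C.subtype (· ∈ U)).card := by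
    rw [card_subtype, card_subtype, filter_true_of_mem fun z hz => hB hz,
      filter_true_of_mem fun z hz => hC hz, h]
  obtain ⟨σ, hσ⟩ := Equiv.Perm.exists_map_finset_eq _ _ h1
  refine ⟨Perm.ofSubtype σ, fun z hz => Perm.ofSubtype_apply_of_not_mem σ hz, fun z hz => ?_⟩
  by_cases hzU : z ∈ U
  · rw [Perm.ofSubtype_apply_of_mem σ hzU] at hz
    have h2 : σ ⟨z, hzU⟩ ∈ C.subtype (· ∈ U) := mem_subtype.2 hz
    rw [← hσ, mem_map] at h2
    obtain ⟨w, hw, hw'⟩ := h2
    have h3 : w = ⟨z, hzU⟩ := σ.injective hw'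
    rw [h3] at hw
    exact mem_subtype.1 hw
  · rw [Perm.ofSubtype_apply_of_not_mem σ hzU] at hz
    exact absurd (hC hz) hzU

/-- Conjugation: `ρ g` maps `Fix ρ B` onto `Fix ρ (g B)`, so the dimensions agree. -/
theorem finrank_inf_Fix_eq [FiniteDimensional ℝ V] (ρ : Perm α →* Module.End ℝ V)
    {U : Finset α} {W : Submodule ℝ V} (hW : InvOn ρ U W) {B C : Finset α} (hB : B ⊆ U)
    (hC : C ⊆ U) (h : B.card = C.card) :
    Module.finrank ℝ (W ⊓ Fix ρ B : Submodule ℝ V) = Module.finrank ℝ (W ⊓ Fix ρ C : Submodule ℝ V) := by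
  obtain ⟨g, hg, hg'⟩ := rn_exists_perm hB hC h
  obtain ⟨k, hk, hk'⟩ := rn_exists_perm hC hB h.symm
  exact le_antisymm (rn_finrank_le ρ hW g hg hg') (rn_finrank_le ρ hW k hk hk')

omit [Fintype α] [DecidableEq α] in
theorem rn_norm_map {ρ : Perm α →* Module.End ℝ V} (hρ : Orth ρ) (g : Perm α) (v : V) :
    ‖ρ g v‖ = ‖v‖ := by
  have h := hρ g v v
  rw [real_inner_self_eq_norm_sq, real_inner_self_eq_norm_sq] at h
  exact (sq_eq_sq₀ (norm_nonneg _) (norm_nonneg _)).1 h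

theorem rn_norm_aux {ρ : Perm α →* Module.End ℝ V} (hρ : Orth ρ) {U : Finset α}
    {W : Submodule ℝ V} (hW : InvOn ρ U W) {a : ℕ} (hno : NoLine ρ U W a) {u : V}
    (X : Finset α) : ∀ (B C : Finset α) (v : V), C ⊆ B → B ⊆ U → B.card = a → X ⊆ U →
      Disjoint X B → u ∈ Fix ρ (C ∪ X) → v ∈ W → v ∈ Fix ρ B →
      |⟪u, v⟫| * ((C.card + 1).ascFactorial X.card : ℝ) ≤
        ((B \ C).card.descFactorial X.card : ℝ) * (‖u‖ * ‖v‖) := by
  induction X using Finset.induction_on with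
  | empty =>
    intro B C v _ _ _ _ _ _ _ _
    simpa using abs_real_inner_le_norm u v
  | insert x X hxX ih =>
    intro B C v hCB hBU hBa hXU hdisj hu hvW hv
    have hxU : x ∈ U := hXU (mem_insert_self _ _)
    have hxB : x ∉ B := disjoint_left.1 hdisj (mem_insert_self _ _)
    have hxC : x ∉ C := fun h => hxB (hCB h)
    have h0 := sum_swap_eq_zero ρ hW hBU (hBa ▸ hno) hxU hxB hvW hv
    have h1 := congrArg (fun w => ⟪u, w⟫) h0
    simp only [inner_add_right, inner_sum, inner_zero_right] at h1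
    rw [← sum_sdiff hCB] at h1
    have h2 : ∀ y ∈ C, ⟪u, ρ (swap x y) v⟫ = ⟪u, v⟫ := by
      intro y hy
      have : ρ (swap x y) u = u := hu _ (Supp.swap (mem_union_right _ (mem_insert_self _ _))
        (mem_union_left _ hy))
      rw [← hρ (swap x y) u v, this]
    rw [sum_congr rfl h2, sum_const, nsmul_eq_mul] at h1
    have h3 : ((C.card : ℝ) + 1) * |⟪u, v⟫| ≤ ∑ y ∈ B \ C, |⟪u, ρ (swap x y) v⟫| := by
      have : ((C.card : ℝ) + 1) * ⟪u, v⟫ = - ∑ y ∈ B \ C, ⟪u, ρ (swap x y) v⟫ := by linarith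
      calc ((C.card : ℝ) + 1) * |⟪u, v⟫| = |((C.card : ℝ) + 1) * ⟪u, v⟫| := by
            rw [abs_mul, abs_of_nonneg (a := (C.card : ℝ) + 1) (by positivity)]
        _ ≤ _ := by rw [this, abs_neg]; exact abs_sum_le_sum_abs _ _
    have h4 : ∀ y ∈ B \ C, |⟪u, ρ (swap x y) v⟫| * ((C.card + 1 + 1).ascFactorial X.card : ℝ) ≤
        (((B \ C).card - 1).descFactorial X.card : ℝ) * (‖u‖ * ‖v‖) := by
      intro y hy
      obtain ⟨hyB, hyC⟩ := mem_sdiff.1 hy
      have hxy : x ≠ y := fun h => hxB (h ▸ hyB)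
      have h5 := ih (insert x (B.erase y)) (insert x C) (ρ (swap x y) v)
        (insert_subset_insert _ fun z hz => mem_erase.2 ⟨fun h => hyC (h ▸ hz), hCB hz⟩)
        (insert_subset hxU ((erase_subset _ _).trans hBU))
        (by
          rw [card_insert_of_notMem fun h => hxB (mem_of_mem_erase h), card_erase_of_mem hyB]
          have := card_pos.2 ⟨y, hyB⟩
          omega)
        ((subset_insert _ _).trans hXU)
        (by
          rw [disjoint_insert_right]
          exact ⟨hxX, (disjoint_of_subset_left (subset_insert _ _) hdisj).mono_right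
            (erase_subset _ _)⟩)
        (by rwa [insert_union, ← union_insert])
        (hW _ (Supp.swap hxU (hBU hyB)) v hvW)
        (rn_map_mem_Fix ρ _ (fun z hz => by
          by_cases hzx : z = x
          · subst hzx
            rw [swap_apply_left, mem_insert, mem_erase] at hz
            rcases hz with hz | hz
            · exact absurd hz.symm hxy
            · exact absurd rfl hz.1
          · by_cases hzy : z = y
            · exact hzy ▸ hyB
            · rw [swap_apply_of_ne_of_ne hzx hzy, mem_insert] at hz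
              exact mem_of_mem_erase (hz.resolve_left hzx)) hv)
      have h6 : insert x (B.erase y) \ insert x C = (B \ C).erase y := by
        ext z
        simp only [mem_sdiff, mem_insert, mem_erase]
        constructor
        · rintro ⟨h | h, h'⟩
          · exact absurd (Or.inl h) h'
          · exact ⟨h.1, h.2, fun h'' => h' (Or.inr h'')⟩
        · rintro ⟨h, h', h''⟩
          refine ⟨Or.inr ⟨h, h'⟩, ?_⟩
          rintro (h3 | h3)
          · exact hxB (h3 ▸ h')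
          · exact h'' h3
      rw [h6, card_erase_of_mem hy, card_insert_of_notMem hxC, rn_norm_map hρ] at h5
      exact h5
    rw [card_insert_of_notMem hxX, Nat.ascFactorial_succ, ← Nat.succ_ascFactorial]
    have h7 : (B \ C).card.descFactorial (X.card + 1) =
        (B \ C).card * ((B \ C).card - 1).descFactorial X.card := by
      rcases (B \ C).card with _ | n
      · simp
      · rw [Nat.succ_descFactorial_succ]; rfl
    rw [h7]
    push_cast
    calc |⟪u, v⟫| * (((C.card : ℝ) + 1) * ((C.card + 1 + 1).ascFactorial X.card : ℝ))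
        = (((C.card : ℝ) + 1) * |⟪u, v⟫|) * ((C.card + 1 + 1).ascFactorial X.card : ℝ) := by ring
      _ ≤ (∑ y ∈ B \ C, |⟪u, ρ (swap x y) v⟫|) * ((C.card + 1 + 1).ascFactorial X.card : ℝ) :=
          mul_le_mul_of_nonneg_right h3 (by positivity)
      _ ≤ ∑ _y ∈ B \ C, (((B \ C).card - 1).descFactorial X.card : ℝ) * (‖u‖ * ‖v‖) := by
          rw [sum_mul]; exact sum_le_sum h4
      _ = _ := by rw [sum_const, nsmul_eq_mul]; ring

/-- Norm lemma.  `W` has no invariants of more than `a` points; `v ∈ W` is `S_B`-invariant,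
`u` is `S_C`-invariant, `|B| = |C| = a`.  Then `|⟪u,v⟫| ≤ ‖u‖‖v‖ / choose a |B \ C|`.
Recipe: prove by induction on `X` (generalising `B, C, v`): if `C ⊆ B ⊆ U`, `|B| = a`, `X ⊆ U`
disjoint from `B`, `u ∈ Fix (C ∪ X)`, `v ∈ W ⊓ Fix B` then
`|⟪u,v⟫| * (|C|+1)(|C|+2)...(|C|+|X|) ≤ descFactorial |B \ C| |X| * ‖u‖‖v‖`.
Step `X = insert x X'`: `⟪u,v⟫ = ⟪u, ρ (swap x y) v⟫` for `y ∈ C`, so by the zero marginal
`(|C|+1) ⟪u,v⟫ = - ∑_{y ∈ B \ C} ⟪u, ρ (swap x y) v⟫`; apply the induction hypothesis to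
`B' = insert x (B.erase y)`, `C' = insert x C`, `v' = ρ (swap x y) v ∈ Fix B'`. -/
theorem norm_lemma {ρ : Perm α →* Module.End ℝ V} (hρ : Orth ρ) {U : Finset α}
    {W : Submodule ℝ V} (hW : InvOn ρ U W) {a : ℕ} (hno : NoLine ρ U W a) {B C : Finset α}
    (hB : B ⊆ U) (hC : C ⊆ U) (hBa : B.card = a) (hCa : C.card = a) {u v : V}
    (hu : u ∈ Fix ρ C) (hvW : v ∈ W) (hv : v ∈ Fix ρ B) :
    |⟪u, v⟫| * (a.choose (B \ C).card : ℝ) ≤ ‖u‖ * ‖v‖ := by
  have h := rn_norm_aux hρ hW hno (u := u) (C \ B) B (B ∩ C) v inter_subset_left hB hBa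
    (sdiff_subset.trans hC) sdiff_disjoint (by rwa [inter_comm, union_comm, sdiff_union_inter])
    hvW hv
  have h1 : (C \ B).card = (B \ C).card := card_sdiff_comm (hCa.trans hBa.symm)
  have h2 : (B ∩ C).card + (B \ C).card = a := by rw [card_inter_add_card_sdiff, hBa]
  rw [sdiff_inter_self_left, h1, ← Nat.add_descFactorial_eq_ascFactorial, h2,
    Nat.descFactorial_self, Nat.descFactorial_eq_factorial_mul_choose] at h
  push_cast at h
  have h3 : (0 : ℝ) < ((B \ C).card.factorial : ℝ) := by exact_mod_cast Nat.factorial_pos _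
  refine le_of_mul_le_mul_left ?_ h3
  linarith

/-- Welch bound: `N` unit vectors in a space of dimension `d` satisfy
`N^2 ≤ d * ∑ ⟪e p, e q⟫^2`.
Recipe: orthonormal basis `f` of `F`; `N = ∑_t ∑_p ⟪e p, f t⟫^2`, Cauchy-Schwarz over `t`, then
`∑_t (∑_p ⟪e p,f t⟫^2)^2 ≤ ∑_{t,t'} (∑_p ⟪e p,f t⟫⟪e p,f t'⟫)^2 = ∑_{p,q} ⟪e p,e q⟫^2`. -/
theorem welch [FiniteDimensional ℝ V] {ι : Type} [Fintype ι] (F : Submodule ℝ V) (e : ι → V)
    (heF : ∀ p, e p ∈ F) (he : ∀ p, ‖e p‖ = 1) :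
    (Fintype.card ι : ℝ) ^ 2 ≤ Module.finrank ℝ F * ∑ p, ∑ q, ⟪e p, e q⟫ ^ 2 := by
  set f := stdOrthonormalBasis ℝ F with hf
  set c : ι → Fin (Module.finrank ℝ F) → ℝ := fun p t => ⟪f t, (⟨e p, heF p⟩ : F)⟫ with hc
  have h1 : ∀ p q, ⟪e p, e q⟫ = ∑ t, c p t * c q t := by
    intro p q
    have := f.sum_inner_mul_inner (⟨e p, heF p⟩ : F) ⟨e q, heF q⟩
    rw [Submodule.coe_inner] at this
    rw [← this]
    exact sum_congr rfl fun t _ => by rw [real_inner_comm]
  have h2 : (Fintype.card ι : ℝ) = ∑ t, ∑ p, c p t * c p t := by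
    rw [sum_comm]
    have : ∀ p, ∑ t, c p t * c p t = 1 := fun p => by
      rw [← h1, real_inner_self_eq_norm_sq, he, one_pow]
    simp [this]
  have h3 : ∑ p, ∑ q, ⟪e p, e q⟫ ^ 2 = ∑ t, ∑ t', (∑ p, c p t * c p t') ^ 2 := by
    simp only [h1, sq, sum_mul_sum]
    calc ∑ p, ∑ q, ∑ t, ∑ t', c p t * c q t * (c p t' * c q t')
        = ∑ p, ∑ t, ∑ q, ∑ t', c p t * c q t * (c p t' * c q t') :=
          sum_congr rfl fun p _ => sum_comm
      _ = ∑ t, ∑ p, ∑ q, ∑ t', c p t * c q t * (c p t' * c q t') := sum_comm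
      _ = ∑ t, ∑ p, ∑ t', ∑ q, c p t * c q t * (c p t' * c q t') :=
          sum_congr rfl fun t _ => sum_congr rfl fun p _ => sum_comm
      _ = ∑ t, ∑ t', ∑ p, ∑ q, c p t * c q t * (c p t' * c q t') :=
          sum_congr rfl fun t _ => sum_comm
      _ = _ := by
          refine sum_congr rfl fun t _ => sum_congr rfl fun t' _ => sum_congr rfl fun p _ =>
            sum_congr rfl fun q _ => by ring
  rw [h2, h3]
  refine (sq_sum_le_card_mul_sum_sq).trans ?_
  rw [card_univ, Fintype.card_fin]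
  refine mul_le_mul_of_nonneg_left (sum_le_sum fun t _ => ?_) (by positivity)
  exact single_le_sum (f := fun t' => (∑ p, c p t * c p t') ^ 2) (fun _ _ => sq_nonneg _)
    (mem_univ t)

/-- Bessel sum against an orthonormal family of `W ⊓ Fix B` -/
theorem rn_bessel {ρ : Perm α →* Module.End ℝ V} (hρ : Orth ρ) {U : Finset α}
    {W : Submodule ℝ V} (hW : InvOn ρ U W) {a : ℕ} (hno : NoLine ρ U W a) {B C : Finset α}
    (hB : B ⊆ U) (hC : C ⊆ U) (hBa : B.card = a) (hCa : C.card = a) {u : V}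
    (hu : u ∈ Fix ρ C) (hu1 : ‖u‖ = 1) {κ : Type} [Fintype κ] (e : κ → V)
    (he : Orthonormal ℝ e) (heW : ∀ k, e k ∈ W ⊓ Fix ρ B) :
    (∑ k, ⟪u, e k⟫ ^ 2) * (a.choose (B \ C).card : ℝ) ^ 2 ≤ 1 := by
  set w : V := ∑ k, ⟪u, e k⟫ • e k with hw
  have hwW : w ∈ W ⊓ Fix ρ B := Submodule.sum_mem _ fun k _ => Submodule.smul_mem _ _ (heW k)
  have h1 : ⟪u, w⟫ = ∑ k, ⟪u, e k⟫ ^ 2 := by
    rw [hw, inner_sum]
    exact sum_congr rfl fun k _ => by rw [real_inner_smul_right, sq]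
  have h2 : ‖w‖ ^ 2 = ∑ k, ⟪u, e k⟫ ^ 2 := by
    rw [← real_inner_self_eq_norm_sq, hw, he.inner_sum]
    exact sum_congr rfl fun k _ => by simp [sq]
  have h3 := norm_lemma hρ hW hno hB hC hBa hCa hu hwW.1 hwW.2
  rw [h1, ← h2, hu1, one_mul, abs_of_nonneg (sq_nonneg _)] at h3
  rw [← h2, ← mul_pow]
  have h4 : ‖w‖ * (a.choose (B \ C).card : ℝ) ≤ 1 := by
    rcases (norm_nonneg w).eq_or_lt with h | h
    · rw [← h]; simp
    · refine le_of_mul_le_mul_left ?_ h
      nlinarith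
  exact pow_le_one₀ (by positivity) h4

omit [Fintype α] in
/-- counting the `b`-subsets at a given distance -/
theorem rn_count {U' S : Finset α} {a b : ℕ} (hcard : U'.card = a + b) (hS : S ⊆ U')
    (hSb : S.card = b) (hba : b ≤ a) (P : Finset (Finset α))
    (hP : ∀ S' ∈ P, S' ⊆ U' ∧ S'.card = b) :
    ∑ S' ∈ P, ((a.choose (S \ S').card : ℝ) ^ 2)⁻¹ ≤ b + 1 := by
  have hmaps : ∀ S' ∈ P, (S \ S').card ∈ range (b + 1) := fun S' _ =>
    mem_range.2 (Nat.lt_succ_of_le (hSb ▸ card_le_card sdiff_subset))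
  rw [← sum_fiberwise_of_maps_to hmaps]
  refine (sum_le_sum (g := fun _ => (1 : ℝ)) fun r hr => ?_).trans (by simp)
  have hra : r ≤ a := (Nat.lt_succ_iff.1 (mem_range.1 hr)).trans hba
  rw [sum_congr rfl (g := fun _ => ((a.choose r : ℝ) ^ 2)⁻¹)
    fun S' hS' => by rw [(mem_filter.1 hS').2], sum_const, nsmul_eq_mul]
  have hpos : (0 : ℝ) < (a.choose r : ℝ) ^ 2 := by
    have := Nat.choose_pos hra
    positivity
  rw [← div_eq_mul_inv, div_le_one hpos]
  have h1 : (P.filter fun S' => (S \ S').card = r).card ≤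
      (powersetCard r S ×ˢ powersetCard r (U' \ S)).card := by
    refine card_le_card_of_injOn (fun S' => (S \ S', S' \ S)) (fun S' hS' => ?_) ?_
    · obtain ⟨h1, h2⟩ := mem_filter.1 (mem_coe.1 hS')
      obtain ⟨h3, h4⟩ := hP S' h1
      refine mem_coe.2 (mem_product.2 ⟨mem_powersetCard.2 ⟨sdiff_subset, h2⟩,
        mem_powersetCard.2 ⟨sdiff_subset_sdiff h3 subset_rfl, ?_⟩⟩)
      rw [← h2]
      exact card_sdiff_comm (h4.trans hSb.symm)
    · intro S₁ _ S₂ _ h
      obtain ⟨h1, h2⟩ := Prod.ext_iff.1 h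
      ext z
      have h3 := congrArg (z ∈ ·) h1
      have h4 := congrArg (z ∈ ·) h2
      simp only [mem_sdiff, eq_iff_iff] at h3 h4
      tauto
  rw [card_product, card_powersetCard, card_powersetCard, card_sdiff_of_subset hS, hcard, hSb,
    Nat.add_sub_cancel] at h1
  have h2 : b.choose r * a.choose r ≤ a.choose r ^ 2 := by
    rw [sq]; exact Nat.mul_le_mul_right _ (Nat.choose_le_choose r hba)
  exact_mod_cast h1.trans h2

/-- Gram bound.  `T ⊆ U' ⊆ U`, `|U'| = a + b`, `b ≤ a`, `|T| ≤ a`.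
Recipe: for every `B'` with `T ⊆ B' ⊆ U'`, `|B'| = a` (there are `choose (a+b-|T|) b` of them:
complements in `U'` are the `b`-subsets of `U' \ T`) take an orthonormal basis (`m` vectors,
`finrank_inf_Fix_eq`) of `W ⊓ Fix B' ≤ W ⊓ Fix T`.  By the norm lemma
`∑_{s'} ⟪e(B',s), e(B'',s')⟫^2 ≤ 1 / choose a r ^ 2`, `r = |B' \ B''|`; the number of `B''` with
given `r ≤ b` is at most `choose a r * choose b r ≤ choose a r ^ 2`.  So the double sum in `welch`
is at most `N (b+1)`. -/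
theorem gram_bound [FiniteDimensional ℝ V] {ρ : Perm α →* Module.End ℝ V} (hρ : Orth ρ)
    {U : Finset α} {W : Submodule ℝ V} (hW : InvOn ρ U W) {a b : ℕ} (hno : NoLine ρ U W a)
    {T U' B : Finset α} (hT : T ⊆ U') (hU' : U' ⊆ U) (hcard : U'.card = a + b) (hba : b ≤ a)
    (hTa : T.card ≤ a) (hB : B ⊆ U) (hBa : B.card = a) :
    ((a + b - T.card).choose b : ℝ) * Module.finrank ℝ (W ⊓ Fix ρ B : Submodule ℝ V)
      ≤ (b + 1) * Module.finrank ℝ (W ⊓ Fix ρ T : Submodule ℝ V) := by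
  set m := Module.finrank ℝ (W ⊓ Fix ρ B : Submodule ℝ V) with hm
  set P := powersetCard b (U' \ T) with hP
  have hPm : ∀ S ∈ P, S ⊆ U' ∧ S.card = b := fun S hS =>
    ⟨(mem_powersetCard.1 hS).1.trans sdiff_subset, (mem_powersetCard.1 hS).2⟩
  have hBS : ∀ S ∈ P, (U' \ S).card = a := fun S hS => by
    rw [card_sdiff_of_subset (hPm S hS).1, hcard, (hPm S hS).2, Nat.add_sub_cancel]
  have hUS : ∀ S : Finset α, U' \ S ⊆ U := fun S => sdiff_subset.trans hU'
  have hTS : ∀ S ∈ P, T ⊆ U' \ S := fun S hS z hz =>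
    mem_sdiff.2 ⟨hT hz, fun h => (mem_sdiff.1 ((mem_powersetCard.1 hS).1 h)).2 hz⟩
  have hex : ∀ S : P, ∃ e : Fin m → V, Orthonormal ℝ e ∧ ∀ k, e k ∈ W ⊓ Fix ρ (U' \ S) := by
    intro S
    have h1 : Module.finrank ℝ (W ⊓ Fix ρ (U' \ S) : Submodule ℝ V) = m :=
      finrank_inf_Fix_eq ρ hW (hUS S) hB ((hBS S S.2).trans hBa.symm)
    let f := (stdOrthonormalBasis ℝ (W ⊓ Fix ρ (U' \ S) : Submodule ℝ V)).reindex (finCongr h1)
    refine ⟨fun k => f k, ?_, fun k => (f k).2⟩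
    exact f.orthonormal.comp_linearIsometry (Submodule.subtypeₗᵢ _)
  choose e he heW using hex
  have hw := welch (ι := P × Fin m) (W ⊓ Fix ρ T) (fun p => e p.1 p.2)
    (fun p => ⟨(heW p.1 p.2).1, fun g hg => (heW p.1 p.2).2 g (hg.mono (hTS _ p.1.2))⟩)
    (fun p => (he p.1).1 p.2)
  have hN : (Fintype.card (P × Fin m) : ℝ) = ((a + b - T.card).choose b : ℝ) * m := by
    rw [Fintype.card_prod, Fintype.card_coe, Fintype.card_fin, hP, card_powersetCard,
      card_sdiff_of_subset hT, hcard, Nat.cast_mul]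
  have hrow : ∀ p : P × Fin m, ∑ q : P × Fin m, ⟪e p.1 p.2, e q.1 q.2⟫ ^ 2 ≤ b + 1 := by
    intro p
    rw [Fintype.sum_prod_type]
    refine le_trans (sum_le_sum (g := fun S' : P => ((a.choose (p.1.1 \ S'.1).card : ℝ) ^ 2)⁻¹)
      fun S' _ => ?_) ?_
    · have h1 := rn_bessel hρ hW hno (hUS S') (hUS p.1) (hBS _ S'.2) (hBS _ p.1.2)
        (heW p.1 p.2).2 ((he p.1).1 p.2) (e S') (he S') (heW S')
      have h2 : (U' \ S'.1) \ (U' \ p.1.1) = p.1.1 \ S'.1 := by
        ext z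
        have := @(hPm _ p.1.2).1 z
        simp only [mem_sdiff]
        tauto
      rw [h2] at h1
      have hpos : (0 : ℝ) < (a.choose (p.1.1 \ S'.1).card : ℝ) ^ 2 := by
        have : 0 < a.choose (p.1.1 \ S'.1).card :=
          Nat.choose_pos (((card_le_card sdiff_subset).trans (hPm _ p.1.2).2.le).trans hba)
        positivity
      rw [← one_div, le_div_iff₀ hpos]
      exact h1
    · rw [sum_coe_sort P (fun S' => ((a.choose (p.1.1 \ S').card : ℝ) ^ 2)⁻¹)]
      exact rn_count hcard (hPm _ p.1.2).1 (hPm _ p.1.2).2 hba P hPm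
  have hsum : ∑ p : P × Fin m, ∑ q : P × Fin m, ⟪e p.1 p.2, e q.1 q.2⟫ ^ 2 ≤
      (Fintype.card (P × Fin m) : ℝ) * (b + 1) := by
    refine (sum_le_sum fun p _ => hrow p).trans ?_
    rw [sum_const, card_univ, nsmul_eq_mul]
  rw [← hN]
  set N : ℝ := (Fintype.card (P × Fin m) : ℝ) with hNdef
  set d : ℝ := (Module.finrank ℝ (W ⊓ Fix ρ T : Submodule ℝ V) : ℝ) with hd
  have hd0 : 0 ≤ d := by positivity
  have hN0 : 0 ≤ N := by positivity
  have h1 : N ^ 2 ≤ d * (N * (b + 1)) := hw.trans (mul_le_mul_of_nonneg_left hsum hd0)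
  rcases hN0.eq_or_lt with h | h
  · rw [← h]; positivity
  · refine le_of_mul_le_mul_left ?_ h
    nlinarith

end Crest.Agent.R155
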