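import Crest.Agent.R155.RepNorm

/-!
# Row 155: rows times columns, and the peeling bound
-/

set_option autoImplicit false

open Finset Equiv
open scoped BigOperators RealInnerProductSpace

namespace Crest.Agent.R155

variable {α : Type} [Fintype α] [DecidableEq α]
variable {V : Type} [NormedAddCommGroup V] [InnerProductSpace ℝ V]

/-! ### Helper lemmas -/

omit [Fintype α] [DecidableEq α] in
lemma peel_Fix_eq_top_of_card_le_one (ρ : Perm α →* Module.End ℝ V) {B : Finset α}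
    (hB : B.card ≤ 1) : Fix ρ B = ⊤ := by
  rw [eq_top_iff]
  intro v _
  rw [mem_Fix]
  intro g hg
  have : g = 1 := by
    ext z
    by_cases hz : z ∈ B
    · exact Finset.card_le_one.1 hB _ (hg.apply_mem hz) _ hz
    · exact hg z hz
  rw [this, map_one]; rfl

omit [Fintype α] in
lemma peel_commute {B U : Finset α} {g h : Perm α} (hg : Supp (U \ B) g) (hh : Supp B h) :
    h * g = g * h := by
  have : Perm.Disjoint h g := fun z => by
    by_cases hz : z ∈ B
    · right; exact hg z (by simp [hz])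
    · left; exact hh z hz
  exact this.commute.eq

omit [Fintype α] in
lemma peel_invOn_inf {ρ : Perm α →* Module.End ℝ V} {U : Finset α} {W : Submodule ℝ V}
    (hW : InvOn ρ U W) (B : Finset α) : InvOn ρ (U \ B) (W ⊓ Fix ρ B) := by
  intro g hg v hv
  refine ⟨hW g (hg.mono sdiff_subset) v hv.1, ?_⟩
  have hv2 : v ∈ Fix ρ B := hv.2
  refine mem_Fix.2 fun h hh => ?_
  have h1 : ρ h (ρ g v) = ρ (h * g) v := by rw [map_mul]; rfl
  rw [h1, peel_commute hg hh, map_mul]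
  change ρ g (ρ h v) = ρ g v
  rw [mem_Fix.1 hv2 h hh]

omit [Fintype α] [DecidableEq α] in
lemma peel_noLine_mono {ρ : Perm α →* Module.End ℝ V} {U U' : Finset α} {W W' : Submodule ℝ V}
    {a a' : ℕ} (h : NoLine ρ U W a) (hU : U' ⊆ U) (hW : W' ≤ W) (ha : a ≤ a') :
    NoLine ρ U' W' a' := by
  intro B hB hlt
  rw [eq_bot_iff, ← h B (hB.trans hU) (lt_of_le_of_lt ha hlt)]
  exact inf_le_inf_right _ hW

omit [Fintype α] [DecidableEq α] in
lemma peel_card_le_of_noLine {ρ : Perm α →* Module.End ℝ V} {U B : Finset α} {W : Submodule ℝ V}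
    {a : ℕ} (h : NoLine ρ U W a) (hB : B ⊆ U) (hne : W ⊓ Fix ρ B ≠ ⊥) : B.card ≤ a := by
  by_contra hlt
  exact hne (h B hB (not_le.1 hlt))

/-- A maximal line exists: `W ≠ ⊥` has a set `B ⊆ U` with `W ⊓ Fix B ≠ ⊥` and `NoLine .. |B|`
(the empty set is a line since `Fix ρ ∅ = ⊤`; take one of maximal cardinality). -/
theorem exists_max_line (ρ : Perm α →* Module.End ℝ V) (U : Finset α) {W : Submodule ℝ V}
    (hW0 : W ≠ ⊥) : ∃ B ⊆ U, W ⊓ Fix ρ B ≠ ⊥ ∧ NoLine ρ U W B.card := by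
  classical
  have hne : (U.powerset.filter fun B => W ⊓ Fix ρ B ≠ ⊥).Nonempty := by
    refine ⟨∅, ?_⟩
    rw [mem_filter]
    refine ⟨by simp, ?_⟩
    rw [peel_Fix_eq_top_of_card_le_one ρ (by simp), inf_top_eq]
    exact hW0
  obtain ⟨B, hB, hmax⟩ := exists_max_image _ Finset.card hne
  rw [mem_filter, mem_powerset] at hB
  refine ⟨B, hB.1, hB.2, fun C hC hlt => ?_⟩
  by_contra hne'
  have := hmax C (by rw [mem_filter, mem_powerset]; exact ⟨hC, hne'⟩)
  omega

/-- for a maximal line `B` and `y ∉ B`, `⟪u, ρ (swap x y) u⟫ ≤ 0` -/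
lemma peel_inner_swap_nonpos {ρ : Perm α →* Module.End ℝ V} (hρ : Orth ρ) {U : Finset α}
    {W : Submodule ℝ V} (hW : InvOn ρ U W) {B : Finset α} (hB : B ⊆ U)
    (hno : NoLine ρ U W B.card) {x y : α} (hx : x ∈ B) (hyU : y ∈ U) (hy : y ∉ B) {u : V}
    (huW : u ∈ W) (hu : u ∈ Fix ρ B) : ⟪u, ρ (swap x y) u⟫ ≤ 0 := by
  have h0 := sum_swap_eq_zero ρ hW hB hno hyU hy huW hu
  have hz : ∀ z ∈ B, ⟪u, ρ (swap y z) u⟫ = ⟪u, ρ (swap x y) u⟫ := by
    intro z hz
    have hs : Supp B (swap z x) := Supp.swap hz hx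
    have h1 : swap y z = swap z x * swap y x * (swap z x)⁻¹ := by
      rw [← swap_apply_apply, hs y hy, swap_apply_right]
    have h2 : ρ (swap z x) u = u := mem_Fix.1 hu _ hs
    have h3 : ρ (swap z x)⁻¹ u = u := mem_Fix.1 hu _ hs.inv
    rw [h1, map_mul, map_mul]
    change ⟪u, ρ (swap z x) (ρ (swap y x) (ρ (swap z x)⁻¹ u))⟫ = _
    rw [h3]
    conv_lhs => rw [← h2]
    rw [hρ, h2, swap_comm]
  have h4 : ⟪u, u + ∑ z ∈ B, ρ (swap y z) u⟫ = 0 := by rw [h0, inner_zero_right]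
  rw [inner_add_right, inner_sum, sum_congr rfl hz, sum_const, nsmul_eq_mul] at h4
  have h5 : 0 ≤ ⟪u, u⟫ := real_inner_self_nonneg
  have h6 : (0 : ℝ) < B.card := by exact_mod_cast card_pos.2 ⟨x, hx⟩
  by_contra hpos
  have := mul_pos h6 (not_le.1 hpos)
  linarith

/-- Rows times columns: if all rows have at most `a` points there is a column with at least
`|U| / a` points.
Recipe: strong induction on `|U|`.  Take a maximal line `B` (`1 ≤ |B| ≤ a` when `U ≠ ∅`, since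
singletons are lines), `Γ = W ⊓ Fix ρ B` is `S_{U \ B}`-invariant, non-zero, `NoLine ρ (U \ B) Γ a`.
The induction gives `X' ⊆ U \ B`, `0 ≠ u ∈ Γ ⊓ Fix (tw ρ) X'`.  For `x ∈ B` put
`w = u + ∑_{y ∈ X'} tw ρ (swap x y) u ∈ W ⊓ Fix (tw ρ) (insert x X')` (`sum_swap_mem_Fix`).
`⟪u, ρ (swap y z) u⟫` does not depend on `z ∈ B` (conjugate by `swap z x ∈ S_B`), so by
`sum_swap_eq_zero` it equals `-‖u‖^2/|B|`; hence `⟪u,w⟫ > 0`. -/
theorem rows_cols {ρ : Perm α →* Module.End ℝ V} (hρ : Orth ρ) (a : ℕ) (U : Finset α)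
    {W : Submodule ℝ V} (hW : InvOn ρ U W) (hW0 : W ≠ ⊥) (hno : NoLine ρ U W a) :
    ∃ X ⊆ U, U.card ≤ X.card * a ∧ W ⊓ Fix (tw ρ) X ≠ ⊥ := by
  induction hN : U.card using Nat.strong_induction_on generalizing U W with
  | _ N ih =>
  rcases U.eq_empty_or_nonempty with hU | ⟨x0, hx0⟩
  · refine ⟨∅, empty_subset _, ?_, ?_⟩
    · rw [← hN, hU]; simp
    · rw [peel_Fix_eq_top_of_card_le_one _ (by simp), inf_top_eq]; exact hW0
  obtain ⟨B, hBU, hBne, hBno⟩ := exists_max_line ρ U hW0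
  have hBa : B.card ≤ a := peel_card_le_of_noLine hno hBU hBne
  have hB1 : 1 ≤ B.card := by
    have h1 : W ⊓ Fix ρ {x0} ≠ ⊥ := by
      rw [peel_Fix_eq_top_of_card_le_one _ (by simp), inf_top_eq]; exact hW0
    have := peel_card_le_of_noLine hBno (by simpa using hx0) h1
    simpa using this
  obtain ⟨x, hx⟩ : B.Nonempty := card_pos.1 hB1
  have hcard : (U \ B).card + B.card = N := by rw [card_sdiff_add_card_eq_card hBU, hN]
  obtain ⟨X', hX'U, hX'c, hX'ne⟩ := ih (U \ B).card (by omega) (U \ B) (peel_invOn_inf hW B) hBne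
    (peel_noLine_mono hno sdiff_subset inf_le_left le_rfl) rfl
  have hxX' : x ∉ X' := fun h => (mem_sdiff.1 (hX'U h)).2 hx
  obtain ⟨u, hu, hu0⟩ := (Submodule.ne_bot_iff _).1 hX'ne
  have huW : u ∈ W := hu.1.1
  have huB : u ∈ Fix ρ B := hu.1.2
  have huX : u ∈ Fix (tw ρ) X' := hu.2
  refine ⟨insert x X', ?_, ?_, ?_⟩
  · exact insert_subset (hBU hx) (hX'U.trans sdiff_subset)
  · rw [card_insert_of_notMem hxX', add_mul]; omega
  · rw [Submodule.ne_bot_iff]
    refine ⟨u + ∑ y ∈ X', tw ρ (swap x y) u, ⟨?_, sum_swap_mem_Fix (tw ρ) hxX' huX⟩, ?_⟩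
    · refine W.add_mem huW (W.sum_mem fun y hy => ?_)
      exact hW.tw _ (Supp.swap (hBU hx) (sdiff_subset (hX'U hy))) u huW
    · intro h0
      have h1 : ⟪u, u + ∑ y ∈ X', tw ρ (swap x y) u⟫ = 0 := by rw [h0, inner_zero_right]
      rw [inner_add_right, inner_sum] at h1
      have h2 : 0 ≤ ∑ y ∈ X', ⟪u, tw ρ (swap x y) u⟫ := by
        refine sum_nonneg fun y hy => ?_
        have hy' := mem_sdiff.1 (hX'U hy)
        have hxy : x ≠ y := fun h => hy'.2 (h ▸ hx)
        rw [tw_apply, sgnR_swap hxy, real_inner_smul_right]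
        have := peel_inner_swap_nonpos hρ hW hBU hBno hx hy'.1 hy'.2 huW huB
        linarith
      have h3 : 0 < ⟪u, u⟫ := real_inner_self_pos.2 hu0
      linarith

lemma peel_two_pow_le_centralBinom (b : ℕ) : 2 ^ b ≤ Nat.centralBinom b := by
  induction b with
  | zero => simp
  | succ b ih =>
    have h := Nat.succ_mul_centralBinom_succ b
    have h2 : (b + 1) * 2 ^ (b + 1) ≤ (b + 1) * Nat.centralBinom (b + 1) := by
      rw [h, pow_succ]; nlinarith
    exact Nat.le_of_mul_le_mul_left h2 (by omega)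

lemma peel_succ_mul_two_pow_le_centralBinom (a : ℕ) (ha : 5 ≤ a) :
    (a + 1) * 2 ^ a ≤ Nat.centralBinom a := by
  induction a, ha using Nat.le_induction with
  | base => decide
  | succ b hb ih =>
    have h := Nat.succ_mul_centralBinom_succ b
    have h2 : (b + 1) * ((b + 1 + 1) * 2 ^ (b + 1)) ≤ (b + 1) * Nat.centralBinom (b + 1) := by
      rw [h, pow_succ]
      calc (b + 1) * ((b + 1 + 1) * (2 ^ b * 2)) = 2 * (b + 2) * ((b + 1) * 2 ^ b) := by ring
        _ ≤ 2 * (2 * b + 1) * Nat.centralBinom b :=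
          Nat.mul_le_mul (by omega) ih
    exact Nat.le_of_mul_le_mul_left h2 (by omega)

lemma peel_bigD_le_one {N : ℕ} (hN : N ≤ 25) : bigD N ≤ 1 := by
  unfold bigD
  rw [div_le_one (by positivity)]
  have h1 : (2 : ℝ) ^ N ≤ 2 ^ 25 := pow_le_pow_right₀ (by norm_num) hN
  have h2 : (1 : ℝ) ≤ ((N : ℝ) + 1) ^ 3 := one_le_pow₀ (by
    have : (0 : ℝ) ≤ N := Nat.cast_nonneg N
    linarith)
  nlinarith

lemma peel_bigD_add_le (m a : ℕ) : bigD (m + a) ≤ 2 ^ a * bigD m := by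
  unfold bigD
  rw [pow_add, mul_div_assoc', mul_comm ((2 : ℝ) ^ a)]
  refine div_le_div_of_nonneg_left (by positivity) (by positivity) ?_
  have : (m : ℝ) + 1 ≤ ((m + a : ℕ) : ℝ) + 1 := by push_cast; have := Nat.cast_nonneg (α := ℝ) a; linarith
  gcongr

lemma peel_finrank_pos [FiniteDimensional ℝ V] {W : Submodule ℝ V} (h : W ≠ ⊥) :
    (1 : ℝ) ≤ Module.finrank ℝ W := by
  have : Module.finrank ℝ W ≠ 0 := fun h0 => h (Submodule.finrank_eq_zero.1 h0)
  exact_mod_cast Nat.one_le_iff_ne_zero.2 this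

/-- a long line `B` of `Γ` on `U` (`|U| - |B| ≤ |B|`) forces a large dimension -/
lemma peel_long_line [FiniteDimensional ℝ V] {ρ : Perm α →* Module.End ℝ V} (hρ : Orth ρ)
    {U : Finset α} {W : Submodule ℝ V} (hW : InvOn ρ U W) {B : Finset α} (hB : B ⊆ U)
    (hne : W ⊓ Fix ρ B ≠ ⊥) (hno : NoLine ρ U W B.card) {b : ℕ} (hb : U.card = B.card + b)
    (hba : b ≤ B.card) : (2 : ℝ) ^ b ≤ (b + 1) * Module.finrank ℝ W := by
  have h := gram_bound hρ hW hno (T := ∅) (empty_subset U) subset_rfl hb hba (by simp) hB rfl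
  rw [peel_Fix_eq_top_of_card_le_one ρ (B := ∅) (by simp), inf_top_eq, card_empty,
    Nat.sub_zero] at h
  have h1 := peel_finrank_pos hne
  have h2 : 2 ^ b ≤ (B.card + b).choose b := by
    refine (peel_two_pow_le_centralBinom b).trans ?_
    rw [Nat.centralBinom_eq_two_mul_choose]
    exact Nat.choose_le_choose b (by omega)
  have h3 : (2 : ℝ) ^ b ≤ ((B.card + b).choose b : ℝ) := by exact_mod_cast h2
  have h4 : (0 : ℝ) ≤ ((B.card + b).choose b : ℝ) := Nat.cast_nonneg _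
  nlinarith

/-- a maximal line among rows and columns -/
lemma peel_exists_longest (ρ : Perm α →* Module.End ℝ V) (U : Finset α) {W : Submodule ℝ V}
    (hW0 : W ≠ ⊥) : ∃ ρ', (ρ' = ρ ∨ ρ' = tw ρ) ∧ ∃ B ⊆ U, W ⊓ Fix ρ' B ≠ ⊥ ∧
      NoLine ρ' U W B.card ∧ NoLine (tw ρ') U W B.card := by
  obtain ⟨B, hBU, hBne, hBno⟩ := exists_max_line ρ U hW0
  obtain ⟨C, hCU, hCne, hCno⟩ := exists_max_line (tw ρ) U hW0
  rcases le_total C.card B.card with h | h
  · exact ⟨ρ, Or.inl rfl, B, hBU, hBne, hBno, peel_noLine_mono hCno subset_rfl le_rfl h⟩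
  · refine ⟨tw ρ, Or.inr rfl, C, hCU, hCne, hCno, ?_⟩
    rw [tw_tw]
    exact peel_noLine_mono hBno subset_rfl le_rfl h

/-- the induction step of `peel` -/
lemma peel_step [FiniteDimensional ℝ V] {ρ : Perm α →* Module.End ℝ V} (hρ : Orth ρ)
    {U : Finset α} {W : Submodule ℝ V} (hW : InvOn ρ U W) (hW0 : W ≠ ⊥) {B : Finset α}
    (hB : B ⊆ U) (hne : W ⊓ Fix ρ B ≠ ⊥) (hno : NoLine ρ U W B.card)
    (hno' : NoLine (tw ρ) U W B.card) (ha : 2 * B.card ≤ U.card) (hN : 25 < U.card)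
    (ih : ∀ (ρ' : Perm α →* Module.End ℝ V) (U' : Finset α) (W' : Submodule ℝ V) (a : ℕ),
      U'.card < U.card → Orth ρ' → InvOn ρ' U' W' → W' ≠ ⊥ → NoLine ρ' U' W' a →
      NoLine (tw ρ') U' W' a → 2 * a ≤ U'.card → bigD U'.card ≤ Module.finrank ℝ W') :
    bigD U.card ≤ Module.finrank ℝ W := by
  obtain ⟨X, hXU, hXc, hXne⟩ := rows_cols hρ B.card U hW hW0 hno
  have hXa : X.card ≤ B.card := peel_card_le_of_noLine hno' hXU hXne
  have h5 : 5 ≤ B.card := by
    by_contra hlt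
    have : X.card * B.card ≤ 5 * 5 := Nat.mul_le_mul (by omega) (by omega)
    omega
  obtain ⟨U', hU'U, hU'c⟩ : ∃ U' ⊆ U, U'.card = B.card + B.card :=
    exists_subset_card_eq (by omega)
  have hg := gram_bound hρ hW hno (T := ∅) (empty_subset U') hU'U hU'c le_rfl (by simp) hB rfl
  rw [peel_Fix_eq_top_of_card_le_one ρ (B := ∅) (by simp), inf_top_eq, card_empty,
    Nat.sub_zero, ← two_mul, ← Nat.centralBinom_eq_two_mul_choose] at hg
  set Γ : Submodule ℝ V := W ⊓ Fix ρ B with hΓ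
  have hΓinv : InvOn ρ (U \ B) Γ := peel_invOn_inf hW B
  have hcard : (U \ B).card + B.card = U.card := card_sdiff_add_card_eq_card hB
  obtain ⟨ρ', hρ', C, hCU, hCne, hCno, hCno'⟩ := peel_exists_longest ρ (U \ B) hne
  have hρ'o : Orth ρ' := by rcases hρ' with h | h <;> rw [h]; exacts [hρ, hρ.tw]
  have hρ'i : InvOn ρ' (U \ B) Γ := by
    rcases hρ' with h | h <;> rw [h]; exacts [hΓinv, hΓinv.tw]
  have hCa : C.card ≤ B.card := by
    have h1 : NoLine ρ' (U \ B) Γ B.card := by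
      rcases hρ' with h | h <;> rw [h]
      exacts [peel_noLine_mono hno sdiff_subset inf_le_left le_rfl,
        peel_noLine_mono hno' sdiff_subset inf_le_left le_rfl]
    exact peel_card_le_of_noLine h1 hCU hCne
  have hapos : (0 : ℝ) < (B.card : ℝ) + 1 := by positivity
  have hΓ0 : (0 : ℝ) ≤ Module.finrank ℝ Γ := Nat.cast_nonneg _
  by_cases hcase : 2 * C.card ≤ (U \ B).card
  · have h1 := ih ρ' (U \ B) Γ C.card (by omega) hρ'o hρ'i hne hCno hCno' hcase
    have h2 : ((B.card : ℝ) + 1) * 2 ^ B.card ≤ (Nat.centralBinom B.card : ℝ) := by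
      exact_mod_cast peel_succ_mul_two_pow_le_centralBinom B.card h5
    have h3 : ((B.card : ℝ) + 1) * (2 ^ B.card * Module.finrank ℝ Γ)
        ≤ ((B.card : ℝ) + 1) * Module.finrank ℝ W := by
      rw [← mul_assoc]
      exact (mul_le_mul_of_nonneg_right h2 hΓ0).trans hg
    have h4 := le_of_mul_le_mul_left h3 hapos
    rw [← hcard]
    refine (peel_bigD_add_le _ _).trans (le_trans ?_ h4)
    exact mul_le_mul_of_nonneg_left h1 (by positivity)
  · have hCle : C.card ≤ (U \ B).card := card_le_card hCU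
    obtain ⟨b, hb⟩ : ∃ b, (U \ B).card = C.card + b := ⟨(U \ B).card - C.card, by omega⟩
    have h1 := peel_long_line hρ'o hρ'i hCU hCne hCno hb (by omega)
    have h2 : (4 : ℝ) ^ B.card ≤ (2 * B.card + 1) * (Nat.centralBinom B.card : ℝ) := by
      rw [Nat.centralBinom_eq_two_mul_choose]
      exact_mod_cast Nat.four_pow_le_two_mul_add_one_mul_central_binom B.card
    set N : ℕ := U.card with hNdef
    set d : ℝ := (Module.finrank ℝ W : ℝ) with hd
    set e : ℝ := (Module.finrank ℝ Γ : ℝ) with he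
    set c : ℝ := (Nat.centralBinom B.card : ℝ) with hc
    have hd0 : 0 ≤ d := Nat.cast_nonneg _
    have hc0 : 0 ≤ c := Nat.cast_nonneg _
    have hN1 : (2 * B.card + 1 : ℝ) ≤ N + 1 := by
      have : ((2 * B.card : ℕ) : ℝ) ≤ N := by exact_mod_cast ha
      push_cast at this; linarith
    have hN2 : (B.card + 1 : ℝ) ≤ N + 1 := by
      have : ((B.card : ℕ) : ℝ) ≤ N := by exact_mod_cast (by omega : B.card ≤ N)
      linarith
    have hN3 : (b + 1 : ℝ) ≤ N + 1 := by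
      have : ((b : ℕ) : ℝ) ≤ N := by exact_mod_cast (by omega : b ≤ N)
      linarith
    have h3 : (2 : ℝ) ^ N ≤ 4 ^ B.card * 2 ^ b := by
      rw [show (4 : ℝ) = 2 ^ 2 by norm_num, ← pow_mul, ← pow_add]
      exact pow_le_pow_right₀ (by norm_num) (by omega)
    have h4 : (2 : ℝ) ^ N ≤ ((N : ℝ) + 1) ^ 3 * d := by
      calc (2 : ℝ) ^ N ≤ 4 ^ B.card * 2 ^ b := h3
        _ ≤ ((2 * B.card + 1) * c) * ((b + 1) * e) :=
          mul_le_mul h2 h1 (by positivity) (by positivity)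
        _ = (2 * B.card + 1) * (b + 1) * (c * e) := by ring
        _ ≤ (2 * B.card + 1) * (b + 1) * ((B.card + 1) * d) :=
          mul_le_mul_of_nonneg_left hg (by positivity)
        _ ≤ (N + 1) * (N + 1) * ((N + 1) * d) := by gcongr
        _ = ((N : ℝ) + 1) ^ 3 * d := by ring
    unfold bigD
    rw [div_le_iff₀ (by positivity)]
    have h6 : (0 : ℝ) ≤ ((N : ℝ) + 1) ^ 3 * d := by positivity
    nlinarith

/-- Peeling: no row and no column with more than `a` points, `2 a ≤ |U|`.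
Recipe: strong induction on `N = |U|` (generalising `ρ`, `W`, `a`).  If `N ≤ 25` use
`finrank ≥ 1`.  Otherwise let `a₁` be the largest size of a row or column (swap `ρ` and `tw ρ`,
`tw_tw`, so that it is a row `B`); `rows_cols` gives `N ≤ a₁^2`, so `a₁ ≥ 5` and
`choose (2a₁) a₁ ≥ (a₁+1) 2^a₁`.  `gram_bound` with `T = ∅`, `b = a₁`, `U' ⊇ B` of size `2a₁`:
`choose (2a₁) a₁ * finrank Γ ≤ (a₁+1) finrank W`, `Γ = W ⊓ Fix B` on `U \ B`.  Let `a₂ ≤ a₁` be
the longest line of `Γ`.  If `2a₂ ≤ N - a₁` use the induction hypothesis.  Otherwise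
`b = N - a₁ - a₂ < a₂`, `gram_bound` gives `finrank Γ ≥ choose (a₂+b) b/(b+1) ≥ 2^b/(b+1)`, and
`4^a₁ ≤ (2a₁+1) choose (2a₁) a₁` (`Nat.four_pow_le_two_mul_add_one_mul_central_binom`),
`N ≤ 2a₁ + b`. -/
theorem peel [FiniteDimensional ℝ V] {ρ : Perm α →* Module.End ℝ V} (hρ : Orth ρ)
    (U : Finset α) {W : Submodule ℝ V} (hW : InvOn ρ U W) (hW0 : W ≠ ⊥) {a : ℕ}
    (hno : NoLine ρ U W a) (hno' : NoLine (tw ρ) U W a) (ha : 2 * a ≤ U.card) :
    bigD U.card ≤ Module.finrank ℝ W := by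
  induction hN : U.card using Nat.strong_induction_on generalizing ρ U W a with
  | _ N ih =>
  subst hN
  by_cases h25 : U.card ≤ 25
  · exact (peel_bigD_le_one h25).trans (peel_finrank_pos hW0)
  obtain ⟨ρ', hρ', B, hBU, hBne, hBno, hBno'⟩ := peel_exists_longest ρ U hW0
  have hρ'o : Orth ρ' := by rcases hρ' with h | h <;> rw [h]; exacts [hρ, hρ.tw]
  have hρ'i : InvOn ρ' U W := by rcases hρ' with h | h <;> rw [h]; exacts [hW, hW.tw]
  have hBa : B.card ≤ a := by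
    have h1 : NoLine ρ' U W a := by rcases hρ' with h | h <;> rw [h]; exacts [hno, hno']
    exact peel_card_le_of_noLine h1 hBU hBne
  refine peel_step hρ'o hρ'i hW0 hBU hBne hBno hBno' (by omega) (by omega) ?_
  intro ρ'' U' W' a' hlt h1 h2 h3 h4 h5 h6
  exact ih U'.card hlt h1 U' h2 h3 h4 h5 h6 rfl

end Crest.Agent.R155
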