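import Crest.Prelude.Def_Shuffle
import Crest.Agent.R155.Defs

/-!
# Row 155: from the Thorp shuffle to products of butterflies
-/

set_option autoImplicit false

open Finset Equiv
open scoped BigOperators
open Crest.ProbabilityR.Shuffle

namespace Crest.Agent.R155

/-! ### The law of a random element of a finite set -/

section Law
variable {Ω G : Type} [Fintype Ω] [Nonempty Ω] [Fintype G]

omit [Nonempty Ω] in
lemma th_uniformProb (E : Set Ω) : Crest.FinProb.uniformProb E = 𝔼 ω, ind (ω ∈ E) := by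
  classical
  rw [Crest.FinProb.uniformProb, expect_eq_sum_div_card, card_univ]
  congr 1
  simp only [ind_eq_ite, sum_boole]

lemma th_sum_ind (a : G) : ∑ g, ind (a = g) = 1 := by
  classical
  simp [ind_eq_ite]

lemma th_sum_law (σ : Ω → G) : ∑ g, 𝔼 ω, ind (σ ω = g) = 1 := by
  rw [← expect_sum_comm]
  simp only [th_sum_ind]
  exact Fintype.expect_const _

omit [Nonempty Ω] in
lemma th_sum_law_sq (σ : Ω → G) :
    ∑ g, (𝔼 ω, ind (σ ω = g)) ^ 2 = 𝔼 ω, 𝔼 ω', ind (σ ω = σ ω') := by
  classical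
  simp only [sq, expect_mul_expect]
  rw [← expect_sum_comm]
  refine expect_congr rfl fun ω _ => ?_
  rw [← expect_sum_comm]
  refine expect_congr rfl fun ω' _ => ?_
  simp [ind_eq_ite, eq_comm]

lemma th_tv_upper (σ : Ω → G) :
    ∑ g, |𝔼 ω, ind (σ ω = g) - 1 / (Fintype.card G : ℝ)| ≤
      Real.sqrt ((Fintype.card G : ℝ) * (𝔼 ω, 𝔼 ω', ind (σ ω = σ ω')) - 1) := by
  have : Nonempty G := ⟨σ (Classical.arbitrary Ω)⟩
  have hN : (0 : ℝ) < Fintype.card G := by exact_mod_cast Fintype.card_pos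
  refine Real.le_sqrt_of_sq_le ((sq_sum_le_card_mul_sum_sq).trans (le_of_eq ?_))
  simp only [sq_abs, sub_sq]
  rw [sum_add_distrib, sum_sub_distrib, th_sum_law_sq, ← sum_mul, ← mul_sum, th_sum_law, sum_const,
    card_univ, nsmul_eq_mul]
  field_simp
  ring

lemma th_tv_lower (σ : Ω → G) :
    1 - (Fintype.card Ω : ℝ) / Fintype.card G ≤
      1 / 2 * ∑ g, |𝔼 ω, ind (σ ω = g) - 1 / (Fintype.card G : ℝ)| := by
  classical
  have : Nonempty G := ⟨σ (Classical.arbitrary Ω)⟩
  have hN : (0 : ℝ) < Fintype.card G := by exact_mod_cast Fintype.card_pos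
  have h1 : ∀ g, (𝔼 ω, ind (σ ω = g) + 1 / (Fintype.card G : ℝ)) -
      2 / (Fintype.card G : ℝ) * (if g ∈ univ.image σ then 1 else 0) ≤
      |𝔼 ω, ind (σ ω = g) - 1 / (Fintype.card G : ℝ)| := by
    intro g
    split_ifs with h
    · refine le_trans (le_of_eq ?_) (le_abs_self _)
      ring
    · have : 𝔼 ω, ind (σ ω = g) = 0 :=
        expect_eq_zero fun ω _ => ind_neg fun e => h (mem_image.2 ⟨ω, mem_univ _, e⟩)
      rw [this, zero_sub, abs_neg, mul_zero, zero_add, sub_zero]
      exact le_abs_self _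
  have h2 := sum_le_sum fun g (_ : g ∈ univ) => h1 g
  rw [sum_sub_distrib, sum_add_distrib, th_sum_law, sum_const, card_univ, nsmul_eq_mul, ← mul_sum,
    sum_boole, filter_mem_eq_inter, univ_inter, mul_one_div_cancel hN.ne'] at h2
  have h3 : ((univ.image σ).card : ℝ) ≤ Fintype.card Ω := by
    exact_mod_cast card_image_le.trans (card_univ (α := Ω)).le
  have h4 : 2 / (Fintype.card G : ℝ) * ((univ.image σ).card : ℝ) ≤
      2 * ((Fintype.card Ω : ℝ) / Fintype.card G) := by
    rw [div_mul_eq_mul_div, mul_div_assoc]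
    gcongr
  linarith

end Law

/-! ### The shuffle as a random permutation -/

lemma th_mod {m x : ℕ} (hx : x < 2 * m) : x = (if m ≤ x then m else 0) + x % m := by
  split_ifs with h
  · rw [Nat.mod_eq_sub_mod h, Nat.mod_eq_of_lt (by omega)]
    omega
  · rw [Nat.mod_eq_of_lt (by omega), zero_add]

lemma th_step_inj (m : ℕ) (c : Fin m → Bool) : Function.Injective (stepPos m c) := by
  intro x y h
  have h' := congrArg Fin.val h
  simp only [stepPos] at h'
  have h1 : x.val % m = y.val % m := by split_ifs at h' <;> omega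
  simp only [h1] at h'
  have h2 : m ≤ x.val ↔ m ≤ y.val := by
    by_cases hx : m ≤ x.val <;> by_cases hy : m ≤ y.val <;> simp [hx, hy] at h' ⊢
    all_goals split_ifs at h' <;> simp_all
  ext
  rw [th_mod x.2, th_mod y.2, h1]
  simp only [h2]

lemma th_iter_inj (m t : ℕ) (cs : Fin t → Fin m → Bool) : Function.Injective (iterPos m t cs) := by
  induction t with
  | zero => exact fun _ _ h => h
  | succ t ih => exact fun _ _ h => ih _ (th_step_inj m _ h)

/-- the shuffle as a permutation -/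
noncomputable def thPerm (m t : ℕ) (cs : Fin t → Fin m → Bool) : Perm (Fin (2 * m)) :=
  Equiv.ofBijective _ (Finite.injective_iff_bijective.1 (th_iter_inj m t cs))

lemma th_tv_eq (m t : ℕ) : tvFromUniform m t = 1 / 2 * ∑ g : Perm (Fin (2 * m)),
    |𝔼 cs, ind (thPerm m t cs = g) - 1 / (Fintype.card (Perm (Fin (2 * m))) : ℝ)| := by
  rw [tvFromUniform, Fintype.card_perm, Fintype.card_fin]
  congr 1
  refine sum_congr rfl fun g _ => ?_
  rw [th_uniformProb]
  congr 2
  refine expect_congr rfl fun cs _ => ind_congr ?_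
  exact (DFunLike.coe_fn_eq (f := thPerm m t cs) (g := g))

theorem tv_lower (m t : ℕ) :
    1 - (2 : ℝ) ^ (m * t) / ((2 * m).factorial : ℝ) ≤ tvFromUniform m t := by
  rw [th_tv_eq]
  refine le_trans (le_of_eq ?_) (th_tv_lower (thPerm m t))
  simp [Fintype.card_perm, pow_mul]

lemma th_iter_add (m a b : ℕ) (cs : Fin (a + b) → Fin m → Bool) (x : Fin (2 * m)) :
    iterPos m (a + b) cs x =
      iterPos m b (fun i => cs (Fin.natAdd a i)) (iterPos m a (fun i => cs (Fin.castAdd b i)) x) := by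
  induction b with
  | zero => rfl
  | succ b ih => exact congrArg (stepPos m _) (ih fun i => cs i.castSucc)

lemma th_iter_succ (m t : ℕ) (cs : Fin (t + 1) → Fin m → Bool) (x : Fin (2 * m)) :
    iterPos m (t + 1) cs x = iterPos m t (Fin.tail cs) (stepPos m (cs 0) x) := by
  induction t with
  | zero => rfl
  | succ t ih => exact congrArg (stepPos m _) (ih fun i => cs i.castSucc)

/-! ### Binary values -/

/-- the number with binary expansion `u` -/
def thVal : (D : ℕ) → Pos D → ℕ
  | 0, _ => 0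
  | D + 1, u => u.1.toNat * 2 ^ D + thVal D u.2

lemma thVal_lt (D : ℕ) (u : Pos D) : thVal D u < 2 ^ D := by
  induction D with
  | zero => exact Nat.one_pos
  | succ D ih =>
    have := ih u.2
    have := Bool.toNat_le u.1
    rw [thVal, pow_succ]
    nlinarith

lemma thVal_inj (D : ℕ) : Function.Injective (thVal D) := by
  induction D with
  | zero => exact fun _ _ _ => rfl
  | succ D ih =>
    rintro ⟨b, u⟩ ⟨b', u'⟩ h
    have h1 := thVal_lt D u
    have h2 := thVal_lt D u'
    simp only [thVal] at h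
    cases b <;> cases b' <;> simp at h
    · rw [ih h]
    · omega
    · omega
    · rw [ih h]

/-- positions of `m = 2 ^ r * S` as pairs -/
lemma th_exists_e1 {m r S : ℕ} (h : m = 2 ^ r * S) :
    ∃ e : Pos r × Fin S ≃ Fin m, ∀ u y, (e (u, y)).val = thVal r u * S + y := by
  subst h
  let v : Pos r ≃ Fin (2 ^ r) := Equiv.ofBijective (fun u => ⟨thVal r u, thVal_lt r u⟩)
    ((Fintype.bijective_iff_injective_and_card _).2
      ⟨fun _ _ e => thVal_inj r (congrArg Fin.val e), by rw [card_pos, Fintype.card_fin]⟩)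
  refine ⟨(v.prodCongr (Equiv.refl _)).trans finProdFinEquiv, fun u y => ?_⟩
  change y.val + S * thVal r u = _
  ring

lemma th_exists_e2 (S : ℕ) :
    ∃ e : Fin S × Bool ≃ Fin (2 * S), ∀ y b, (e (y, b)).val = 2 * y + b.toNat := by
  refine ⟨(((Equiv.refl _).prodCongr finTwoEquiv.symm).trans finProdFinEquiv).trans
    (finCongr (mul_comm S 2)), fun y b => ?_⟩
  cases b
  · change 0 + 2 * y.val = 2 * y.val + 0
    ring
  · change 1 + 2 * y.val = 2 * y.val + 1
    ring

/-- `r` shuffles of `2 ^ r * S` cards are `S` interleaved butterflies -/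
lemma th_round (m r : ℕ) : ∀ S : ℕ, 2 * m = 2 ^ r * S →
    ∃ Φ : (Fin r → Fin m → Bool) ≃ (Fin S → Bits r), ∀ cs (u : Pos r) (y : Fin S)
      (x : Fin (2 * m)), x.val = thVal r u * S + y →
      (iterPos m r cs x).val = y * 2 ^ r + thVal r (bf r (Φ cs y) u) := by
  induction r with
  | zero =>
    intro S _
    refine ⟨⟨fun _ _ => (), fun _ => Fin.elim0, fun _ => Subsingleton.elim _ _, fun _ => rfl⟩,
      fun cs u y x hx => ?_⟩
    simpa [iterPos, thVal] using hx
  | succ r ih =>
    intro S hS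
    have hm : m = 2 ^ r * S := by rw [pow_succ] at hS; linarith
    obtain ⟨Φ, hΦ⟩ := ih (2 * S) (by rw [hS]; ring)
    obtain ⟨e1, he1⟩ := th_exists_e1 hm
    obtain ⟨e2, he2⟩ := th_exists_e2 S
    let Ψ : (Fin (r + 1) → Fin m → Bool) ≃ (Fin S → (Pos r → Bool) × Bits r × Bits r) :=
      { toFun := fun cs y => (fun u => cs 0 (e1 (u, y)), Φ (Fin.tail cs) (e2 (y, false)),
          Φ (Fin.tail cs) (e2 (y, true)))
        invFun := fun ω => Fin.cons (fun j => (ω (e1.symm j).2).1 (e1.symm j).1)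
          (Φ.symm fun z => cond (e2.symm z).2 (ω (e2.symm z).1).2.2 (ω (e2.symm z).1).2.1)
        left_inv := fun cs => by
          have : (fun z => cond (e2.symm z).2 (Φ (Fin.tail cs) (e2 ((e2.symm z).1, true)))
              (Φ (Fin.tail cs) (e2 ((e2.symm z).1, false)))) = Φ (Fin.tail cs) := by
            funext z
            obtain ⟨⟨y, b⟩, rfl⟩ := e2.surjective z
            cases b <;> simp
          simp only [this, Prod.mk.eta, Equiv.apply_symm_apply, Equiv.symm_apply_apply]
          exact Fin.cons_self_tail cs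
        right_inv := fun ω => by
          funext y
          simp }
    refine ⟨Ψ, fun cs ⟨b, u⟩ y x hx => ?_⟩
    have hlt : thVal r u * S + y < m := by rw [← he1]; exact (e1 (u, y)).2
    have hx' : x.val = b.toNat * m + (thVal r u * S + y) := by
      rw [hx, hm]
      simp only [thVal]
      ring
    have hmod : x.val % m = thVal r u * S + y := by
      rw [hx', Nat.mul_add_mod_self_right, Nat.mod_eq_of_lt hlt]
    have hb : decide (m ≤ x.val) = b := by
      cases b <;> simp at hx' ⊢ <;> omega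
    have hidx : ∀ h, (⟨x.val % m, h⟩ : Fin m) = e1 (u, y) := fun h => Fin.ext (by rw [he1, ← hmod])
    rw [th_iter_succ, hΦ _ u (e2 (y, xor b (cs 0 (e1 (u, y)))))]
    · have : bf (r + 1) (Ψ cs y) (b, u) = (xor b (cs 0 (e1 (u, y))),
          bf r (Φ (Fin.tail cs) (e2 (y, xor b (cs 0 (e1 (u, y)))))) u) := by
        change par _ _ (xor b (cs 0 (e1 (u, y))), u) = _
        cases xor b (cs 0 (e1 (u, y))) <;> rfl
      change _ = _ + thVal (r + 1) (bf (r + 1) (Ψ cs y) (b, u))
      rw [this, he2]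
      simp only [thVal]
      ring
    · simp only [stepPos, hidx, hb]
      rw [hmod, he2]
      cases xor b (cs 0 (e1 (u, y))) <;> simp <;> ring

lemma th_one_round (d : ℕ) : ∃ (e : Pos (d + 1) ≃ Fin (2 * 2 ^ d))
    (Φ : (Fin (d + 1) → Fin (2 ^ d) → Bool) ≃ Bits (d + 1)),
    ∀ cs u, iterPos (2 ^ d) (d + 1) cs (e u) = e (bf (d + 1) (Φ cs) u) := by
  have h : 2 * 2 ^ d = 2 ^ (d + 1) * 1 := by ring
  obtain ⟨Φ, hΦ⟩ := th_round (2 ^ d) (d + 1) 1 h
  obtain ⟨e, he⟩ := th_exists_e1 h
  refine ⟨(Equiv.prodUnique _ (Fin 1)).symm.trans e, Φ.trans (Equiv.funUnique _ _),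
    fun cs u => Fin.ext ?_⟩
  change (iterPos (2 ^ d) (d + 1) cs (e (u, 0))).val = (e (bf (d + 1) (Φ cs 0) u, 0)).val
  rw [hΦ cs u 0 _ (he u 0), he]
  simp

lemma th_rounds {m D : ℕ} (e : Pos D ≃ Fin (2 * m)) (Φ : (Fin D → Fin m → Bool) ≃ Bits D)
    (h : ∀ cs u, iterPos m D cs (e u) = e (bf D (Φ cs) u)) (K : ℕ) : ∀ t, t = K * D →
    ∃ Ψ : (Fin t → Fin m → Bool) ≃ (Fin K → Bits D),
      ∀ cs u, iterPos m t cs (e u) = e (prodR (bf D) K (Ψ cs) u) := by
  induction K with
  | zero =>
    intro t ht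
    obtain rfl : t = 0 := by simpa using ht
    exact ⟨⟨fun _ => Fin.elim0, fun _ => Fin.elim0, fun _ => Subsingleton.elim _ _,
      fun _ => Subsingleton.elim _ _⟩, fun _ _ => rfl⟩
  | succ K ih =>
    intro t ht
    obtain rfl : t = K * D + D := by rw [ht]; ring
    obtain ⟨Ψ, hΨ⟩ := ih _ rfl
    refine ⟨(Fin.appendEquiv _ _).symm.trans ((Ψ.prodCongr Φ).trans ((Equiv.prodComm _ _).trans
      (Fin.snocEquiv fun _ => Bits D))), fun cs u => ?_⟩
    rw [th_iter_add, hΨ, h]
    simp [prodR, Fin.snocEquiv, Fin.appendEquiv]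

/-- The total variation distance after `K` rounds of `d+1` shuffles is controlled by the collision
probability of a product of `K` independent butterflies. -/
theorem tv_le_sqrt (d K : ℕ) :
    tvFromUniform (2 ^ d) (K * (d + 1)) ≤
      1 / 2 * Real.sqrt (((2 ^ (d + 1)).factorial : ℝ) * coll (d + 1) K - 1) := by
  obtain ⟨e, Φ, h⟩ := th_one_round d
  obtain ⟨Ψ, hΨ⟩ := th_rounds e Φ h K _ rfl
  rw [th_tv_eq]
  refine mul_le_mul_of_nonneg_left ((th_tv_upper _).trans (le_of_eq ?_)) (by norm_num)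
  rw [Fintype.card_perm, Fintype.card_fin, pow_succ', coll]
  congr 3
  refine Fintype.expect_equiv Ψ _ _ fun cs => Fintype.expect_equiv Ψ _ _ fun cs' => ind_congr ?_
  constructor
  · intro h'
    ext u
    refine e.injective ?_
    rw [← hΨ, ← hΨ]
    exact DFunLike.congr_fun h' (e u)
  · intro h'
    ext1 x
    obtain ⟨u, rfl⟩ := e.surjective x
    change iterPos _ _ cs (e u) = iterPos _ _ cs' (e u)
    rw [hΨ, hΨ, h']

end Crest.Agent.R155
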