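import Crest.Agent.R155.Closers
import Crest.Agent.R155.Thorp

/-!
# Row 155: partial butterflies satisfy the hypotheses of the closers lemma
-/

set_option autoImplicit false

open Finset Equiv
open scoped BigOperators

namespace Crest.Agent.R155

/-- realise the equation lemmas once, for all files importing this one -/
theorem realise_eqns : True := by
  have := @trk.eq_def; have := @trk.eq_1; have := @trk.eq_2
  have := @lam.eq_def; have := @lam.eq_1; have := @lam.eq_2
  have := @pb.eq_def; have := @pb.eq_1; have := @pb.eq_2; have := @pb.eq_3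
  have := @rs.eq_def; have := @rs.eq_1; have := @rs.eq_2; have := @rs.eq_3
  have := @mix.eq_def; have := @mix.eq_1; have := @mix.eq_2; have := @mix.eq_3
  have := @meet.eq_def; have := @meet.eq_1; have := @meet.eq_2; have := @meet.eq_3
  have := @bf.eq_def; have := @bf.eq_1; have := @bf.eq_2
  have := @prodR.eq_def; have := @prodR.eq_1; have := @prodR.eq_2
  have := @ben.eq_def; have := @ben.eq_1; have := @loopP.eq_1; have := @loopT.eq_1
  have := @Lam.eq_1; have := @kb.eq_1; have := @coll.eq_1; have := @ind.eq_1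
  have := @sw.eq_1; have := @par.eq_1; have := @sd.eq_1; have := @tp.eq_1
  have := @cyc.eq_1; have := @orb.eq_1; have := @orbs.eq_1; have := @ee.eq_1; have := @agr.eq_1
  trivial

theorem meet_symm (D r : ℕ) (ω : Bits D) (x y : Pos D) : meet D r ω x y = meet D r ω y x := by
  induction D generalizing r with
  | zero => rfl
  | succ D ih =>
    cases r with
    | zero => rfl
    | succ r =>
      obtain ⟨b, u⟩ := x
      obtain ⟨b', u'⟩ := y
      obtain ⟨c, f0, f1⟩ := ω
      simp only [meet]
      by_cases h : u = u'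
      · subst h; simp [eq_comm]
      · rw [if_neg h, if_neg (Ne.symm h)]
        by_cases h2 : xor b (c u) = xor b' (c u')
        · rw [if_pos h2, if_pos h2.symm, h2, ih]
        · rw [if_neg h2, if_neg (Ne.symm h2)]

theorem meet_self (D r : ℕ) (ω : Bits D) (x : Pos D) : meet D r ω x x = 0 := by
  cases D with
  | zero => rfl
  | succ D =>
    cases r with
    | zero => rfl
    | succ r => simp [meet]

section
variable {P : Type} [Fintype P] [DecidableEq P]

lemma sum_sd (c : P → Bool) (A : Finset (Bool × P)) (f : Bool × P → ℝ) :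
    ∑ x ∈ A, f x = ∑ u ∈ sd c false A, f (xor false (c u), u) +
      ∑ u ∈ sd c true A, f (xor true (c u), u) := by
  have h1 : ∑ x ∈ A, f x = ∑ x : Bool × P, if x ∈ A then f x else 0 := by simp
  rw [h1, ← Equiv.sum_comp (sw c), Fintype.sum_prod_type, Fintype.sum_bool, add_comm]
  simp only [sd, sum_filter, sw_apply]

lemma forall_sd (c : P → Bool) (A : Finset (Bool × P)) (p : Bool × P → Prop) :
    (∀ x ∈ A, p x) ↔ (∀ u ∈ sd c false A, p (xor false (c u), u)) ∧
      ∀ u ∈ sd c true A, p (xor true (c u), u) := by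
  constructor
  · intro h
    exact ⟨fun u hu => h _ (mem_sd.1 hu), fun u hu => h _ (mem_sd.1 hu)⟩
  · rintro ⟨h0, h1⟩ ⟨b, u⟩ hx
    cases b <;> cases hc : c u
    · simpa [hc] using h0 u (by simpa [hc] using hx)
    · simpa [hc] using h1 u (by simpa [hc] using hx)
    · simpa [hc] using h1 u (by simpa [hc] using hx)
    · simpa [hc] using h0 u (by simpa [hc] using hx)

lemma expect_pi_prod {ι κ : Type} [Fintype ι] [DecidableEq ι] [Fintype κ] (f : ι → κ → ℝ) :
    𝔼 c : ι → κ, ∏ i, f i (c i) = ∏ i, 𝔼 b, f i b := by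
  simp only [Fintype.expect_eq_sum_div_card]
  rw [prod_div_distrib, prod_univ_sum, Fintype.piFinset_univ]
  simp

lemma ind_forall_eq_prod {ι : Type} (s : Finset ι) (p : ι → Prop) :
    ind (∀ i ∈ s, p i) = ∏ i ∈ s, ind (p i) := by
  by_cases h : ∀ i ∈ s, p i
  · rw [ind_pos h, prod_eq_one fun i hi => ind_pos (h i hi)]
  · rw [ind_neg h]
    push Not at h
    obtain ⟨i, hi, hp⟩ := h
    exact (prod_eq_zero hi (ind_neg hp)).symm

lemma expect_agree_bits (c : P → Bool) (S : Finset P) :
    𝔼 c' : P → Bool, ind (∀ u ∈ S, c' u = c u) = 1 / 2 ^ S.card := by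
  have h : ∀ c' : P → Bool, ind (∀ u ∈ S, c' u = c u) =
      ∏ u, (fun u b => if u ∈ S then ind (b = c u) else 1) u (c' u) := by
    intro c'
    rw [ind_forall_eq_prod, prod_ite_mem]; simp
  simp only [h]
  rw [expect_pi_prod (fun u b => if u ∈ S then ind (b = c u) else 1)]
  have : ∀ u, 𝔼 b : Bool, (if u ∈ S then ind (b = c u) else 1) = if u ∈ S then 1 / 2 else 1 := by
    intro u
    split_ifs
    · rw [Fintype.expect_eq_sum_div_card]
      cases c u <;> simp [ind]
    · simp
  simp only [this]
  rw [prod_ite_mem]; simp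

lemma par_sw_agree_iff (c c' : P → Bool) (g0 g1 g0' g1' : Perm P) (A : Finset (Bool × P)) :
    (∀ x ∈ A, (par g0' g1' * sw c') x = (par g0 g1 * sw c) x) ↔
      (∀ u ∈ sd c false A ∪ sd c true A, c' u = c u) ∧ (∀ u ∈ sd c false A, g0' u = g0 u) ∧
        ∀ u ∈ sd c true A, g1' u = g1 u := by
  rw [forall_sd c]
  simp only [Perm.mul_apply, sw_apply, par_apply, Prod.mk.injEq, mem_union]
  constructor
  · rintro ⟨h0, h1⟩
    have e0 : ∀ u ∈ sd c false A, c' u = c u := fun u hu => by
      have := (h0 u hu).1; revert this; cases c u <;> cases c' u <;> simp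
    have e1 : ∀ u ∈ sd c true A, c' u = c u := fun u hu => by
      have := (h1 u hu).1; revert this; cases c u <;> cases c' u <;> simp
    refine ⟨fun u hu => hu.elim (e0 u) (e1 u), fun u hu => ?_, fun u hu => ?_⟩
    · have := (h0 u hu).2; rw [e0 u hu] at this; simpa using this
    · have := (h1 u hu).2; rw [e1 u hu] at this; simpa using this
  · rintro ⟨h, h0, h1⟩
    refine ⟨fun u hu => ?_, fun u hu => ?_⟩
    · rw [h u (Or.inl hu)]; simpa using h0 u hu
    · rw [h u (Or.inr hu)]; simpa using h1 u hu

end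

lemma expect_two_succ (D : ℕ) (F : Bits (D + 1) → Bits (D + 1) → ℝ) :
    𝔼 ω, 𝔼 ω', F ω ω' = 𝔼 e : (Pos D → Bool) × (Pos D → Bool), 𝔼 f0 : Bits D, 𝔼 f0' : Bits D,
      𝔼 f1 : Bits D, 𝔼 f1' : Bits D, F (e.1, f0, f1) (e.2, f0', f1') := by
  rw [← univ_product_univ (α := Pos D → Bool), expect_product, expect_bits_succ]
  refine expect_congr rfl fun c _ => ?_
  simp only [expect_bits_succ]
  calc 𝔼 f0, 𝔼 f1, 𝔼 c', 𝔼 f0', 𝔼 f1', F (c, f0, f1) (c', f0', f1')
      = 𝔼 f0, 𝔼 c', 𝔼 f0', 𝔼 f1, 𝔼 f1', F (c, f0, f1) (c', f0', f1') := by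
        refine expect_congr rfl fun f0 _ => ?_
        rw [expect_comm]
        exact expect_congr rfl fun c' _ => expect_comm _ _ _
    _ = _ := expect_comm _ _ _

lemma expect_two_mul {α β : Type} [Fintype α] [Fintype β] (F : α → α → ℝ) (G : β → β → ℝ) :
    (𝔼 a, 𝔼 a', F a a') * (𝔼 b, 𝔼 b', G b b') = 𝔼 a, 𝔼 a', 𝔼 b, 𝔼 b', F a a' * G b b' := by
  rw [expect_mul]
  refine expect_congr rfl fun a _ => ?_
  rw [expect_mul]
  refine expect_congr rfl fun a' _ => ?_
  simp only [mul_expect]

lemma ee_meet_succ (D r : ℕ) (c : Pos D → Bool) (f0 f1 : Bits D) (A : Finset (Bool × Pos D)) :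
    ee (X := Bool × Pos D)
      (fun x y => Real.log 2 * (meet (D + 1) (r + 1) (c, f0, f1) x y : ℝ)) A =
      Real.log 2 * (tp A).card +
        ee (fun x y => Real.log 2 * (meet D r f0 x y : ℝ)) (sd c false A) +
        ee (fun x y => Real.log 2 * (meet D r f1 x y : ℝ)) (sd c true A) := by
  unfold ee
  simp only [sum_sd c A, sum_add_distrib]
  have h00 : ∀ u u', meet (D + 1) (r + 1) (c, f0, f1) (xor false (c u), u) (xor false (c u'), u')
      = meet D r f0 u u' := by
    intro u u'
    by_cases h : u = u'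
    · subst h; rw [meet_self, meet_self]
    · simp [meet, h]
  have h11 : ∀ u u', meet (D + 1) (r + 1) (c, f0, f1) (xor true (c u), u) (xor true (c u'), u')
      = meet D r f1 u u' := by
    intro u u'
    by_cases h : u = u'
    · subst h; rw [meet_self, meet_self]
    · simp [meet, h]
  have h01 : ∀ u u', meet (D + 1) (r + 1) (c, f0, f1) (xor false (c u), u) (xor true (c u'), u')
      = if u = u' then 1 else 0 := by
    intro u u'
    by_cases h : u = u'
    · subst h; simp [meet]
    · simp [meet, h]
  have h10 : ∀ u u', meet (D + 1) (r + 1) (c, f0, f1) (xor true (c u), u) (xor false (c u'), u')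
      = if u' = u then 1 else 0 := by
    intro u u'; rw [meet_symm, h01]
  simp only [h00, h11, h01, h10]
  have e1 : ∑ u ∈ sd c false A, ∑ u' ∈ sd c true A,
      Real.log 2 * ((if u = u' then 1 else 0 : ℕ) : ℝ) = Real.log 2 * (tp A).card := by
    simp only [← mul_sum]
    congr 1
    rw [tp_eq_inter c, ← filter_mem_eq_inter, card_filter]
    push_cast
    exact sum_congr rfl fun u _ => sum_ite_eq _ _ _
  have e2 : ∑ u ∈ sd c true A, ∑ u' ∈ sd c false A,
      Real.log 2 * ((if u' = u then 1 else 0 : ℕ) : ℝ) = Real.log 2 * (tp A).card := by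
    rw [sum_comm, e1]
  rw [e1, e2]; ring

theorem agr_pb (D r : ℕ) (hr : r ≤ D) (ω : Bits D) (A : Finset (Pos D)) :
    agr (pb D r) ω A =
      Real.exp (ee (fun x y => Real.log 2 * (meet D r ω x y : ℝ)) A) / (2 ^ r) ^ A.card := by
  induction D generalizing r with
  | zero =>
    obtain rfl : r = 0 := by omega
    simp [agr, pb, meet, ee, ind]
  | succ D ih =>
    cases r with
    | zero => simp [agr, pb, meet, ee, ind]
    | succ r =>
      obtain ⟨c, f0, f1⟩ := ω
      have h1 : agr (pb (D + 1) (r + 1)) (c, f0, f1) A =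
          (1 / 2 ^ (sd c false A ∪ sd c true A).card) *
            (agr (pb D r) f0 (sd c false A) * agr (pb D r) f1 (sd c true A)) := by
        unfold agr
        rw [expect_bits_succ, ← expect_agree_bits c, expect_mul]
        refine expect_congr rfl fun c' _ => ?_
        rw [Fintype.expect_mul_expect, mul_expect]
        refine expect_congr rfl fun f0' _ => ?_
        rw [mul_expect]
        refine expect_congr rfl fun f1' _ => ?_
        rw [← ind_and, ← ind_and]
        exact ind_congr (par_sw_agree_iff c c' _ _ _ _ A)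
      have h2 := ee_meet_succ D r c f0 f1 A
      have h3 := card_sd_add c A
      have h4 := card_union_add_card_inter (sd c false A) (sd c true A)
      rw [← tp_eq_inter] at h4
      rw [h1, ih r (by omega), ih r (by omega)]
      erw [h2]
      rw [Real.exp_add, Real.exp_add, mul_comm (Real.log 2), Real.exp_nat_mul,
        Real.exp_log (by norm_num)]
      have h5 : (2 : ℝ) ^ (A.card) = 2 ^ (sd c false A ∪ sd c true A).card * 2 ^ (tp A).card := by
        rw [← pow_add, h4, h3]; rfl
      have h6 : ((2 : ℝ) ^ (r + 1)) ^ A.card =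
          (2 ^ r) ^ (sd c false A).card * (2 ^ r) ^ (sd c true A).card * 2 ^ A.card := by
        rw [← pow_add, h3, pow_succ, mul_pow]; rfl
      rw [h6, h5]; field_simp

lemma hl_add_aux {a b : ℝ} (ha : 0 ≤ a) (hab : a ≤ b) :
    Real.log 2 * a + hl a + hl b ≤ hl (a + b) := by
  rcases eq_or_lt_of_le ha with rfl | ha'
  · simp [hl]
  have hb : 0 < b := by linarith
  have h1 : Real.log 2 + Real.log a ≤ Real.log (a + b) := by
    rw [← Real.log_mul (by norm_num) ha'.ne']
    exact Real.log_le_log (by positivity) (by linarith)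
  have h2 : Real.log b + a / b * Real.log 2 ≤ Real.log (a + b) := by
    have e : a + b = b * (1 + a / b) := by field_simp; ring
    have hab1 : a / b ≤ 1 := by rwa [div_le_one hb]
    have := (strictConcaveOn_log_Ioi.concaveOn).2 (show (1 : ℝ) ∈ Set.Ioi 0 by simp)
      (show (2 : ℝ) ∈ Set.Ioi 0 by simp) (show 0 ≤ 1 - a / b by linarith)
      (show 0 ≤ a / b by positivity) (by ring)
    simp only [smul_eq_mul, Real.log_one] at this
    rw [e, Real.log_mul hb.ne' (by positivity)]
    have e2 : (1 - a / b) * 1 + a / b * 2 = 1 + a / b := by ring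
    rw [e2] at this
    linarith
  unfold hl
  have h3 : b * (a / b * Real.log 2) = a * Real.log 2 := by field_simp
  nlinarith [mul_le_mul_of_nonneg_left h1 ha, mul_le_mul_of_nonneg_left h2 hb.le]

lemma hl_natCast_nonneg (n : ℕ) : 0 ≤ hl n := by
  unfold hl; have := Real.log_natCast_nonneg n; positivity

theorem ee_meet_le (D r : ℕ) (ω : Bits D) (A : Finset (Pos D)) :
    ee (fun x y => Real.log 2 * (meet D r ω x y : ℝ)) A ≤ A.card / 2 * Real.log A.card := by
  change _ ≤ hl A.card
  induction D generalizing r with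
  | zero => simpa [meet, ee] using hl_natCast_nonneg _
  | succ D ih =>
    cases r with
    | zero => simpa [meet, ee] using hl_natCast_nonneg _
    | succ r =>
      obtain ⟨c, f0, f1⟩ := ω
      have h2 := ee_meet_succ D r c f0 f1 A
      erw [h2]
      have h3 : (A.card : ℝ) = (sd c false A).card + (sd c true A).card := by
        exact_mod_cast (card_sd_add c A).symm
      have h0 : ((tp A).card : ℝ) ≤ (sd c false A).card := by
        rw [tp_eq_inter c]; exact_mod_cast card_le_card inter_subset_left
      have h1 : ((tp A).card : ℝ) ≤ (sd c true A).card := by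
        rw [tp_eq_inter c]; exact_mod_cast card_le_card inter_subset_right
      have i0 := ih r f0 (sd c false A)
      have i1 := ih r f1 (sd c true A)
      have hl2 : 0 ≤ Real.log 2 := Real.log_nonneg (by norm_num)
      rw [h3]
      rcases le_total ((sd c false A).card : ℝ) (sd c true A).card with h | h
      · have := hl_add_aux (by positivity) h
        nlinarith
      · have := hl_add_aux (by positivity) h
        rw [add_comm ((sd c false A).card : ℝ)]
        nlinarith

/-- the closers lemma for the first `r` layers of a butterfly -/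
theorem closers_pb (D r : ℕ) (hr : r ≤ D) (γ : Perm (Pos D)) (T : Finset (Pos D))
    (a : ℕ → ℝ) (ha : ∀ l, 0 ≤ a l) (μ : ℝ) (hμ : ∑ l ∈ Icc 1 (2 ^ D), a l ≤ μ) :
    𝔼 ω : Bits D, ∏ C ∈ (orbs (γ * pb D r ω)).filter (· ⊆ T), (1 + a C.card)
      ≤ Real.exp (T.card * μ / 2 ^ r + 3 / 2 * (T.card * μ / 2 ^ r) ^ 2) :=
  closers (pb D r) (2 ^ r) (by positivity) (fun ω x y => Real.log 2 * (meet D r ω x y : ℝ))
    (fun ω x y => by rw [meet_symm]) (fun ω x => by simp [meet_self]) (agr_pb D r hr)
    (ee_meet_le D r) γ T a ha μ (by rwa [card_pos])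

end Crest.Agent.R155
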